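import Vale.Agent.P085.Defs

/-! Functional calculus lemmas. -/

namespace Vale.Agent.P085

open scoped BigOperators

variable {A : Type*} [CStarAlgebra A]

theorem spec_sq [Nontrivial A] {x : A} {ρ : ℝ} (h : ‖x‖ ≤ ρ) :
    ∀ s ∈ spectrum ℝ (star x * x), 0 ≤ s ∧ s ≤ ρ ^ 2 := by
  intro s hs
  refine ⟨spectrum_star_mul_self_nonneg s hs, (le_abs_self s).trans ?_⟩
  refine (spectrum.norm_le_norm_of_mem hs).trans ?_
  rw [CStarRing.norm_star_mul_self, ← sq]
  exact pow_le_pow_left₀ (norm_nonneg _) h 2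

/-- A unitary that agrees with `1 + x` to first order. -/
theorem exists_unitary_near [Nontrivial A] {x : A} (hx : star x = -x) {ρ : ℝ} (h : ‖x‖ ≤ ρ)
    (h1 : ρ ≤ 1) : ∃ U ∈ unitary A, ‖U - 1 - x‖ ≤ ρ ^ 2 := by
  have hρ : 0 ≤ ρ := (norm_nonneg _).trans h
  have hρ2 : ρ ^ 2 ≤ 1 := pow_le_one₀ hρ h1
  have hsp := spec_sq h
  have hh : IsSelfAdjoint (star x * x) := .star_mul_self x
  set c := cfc (fun s : ℝ => √(1 - s)) (star x * x) with hc
  have hcs : star c = c := (cfc_predicate _ _ : IsSelfAdjoint c).star_eq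
  have hcx : c * x = x * c := by
    refine (Commute.cfc_real (a := star x * x) (b := x) ?_ _).eq
    rw [hx, Commute, SemiconjBy]
    noncomm_ring
  have hcc : c * c = 1 + x * x := by
    have e : c * c = 1 - star x * x := by
      rw [hc, ← cfc_mul ..]
      nth_rw 2 [← cfc_id' ℝ (star x * x)]
      rw [← cfc_const_one ℝ (star x * x), ← cfc_sub ..]
      exact cfc_congr fun s hs => Real.mul_self_sqrt (by linarith [(hsp s hs).2])
    rw [e, hx]
    noncomm_ring
  refine ⟨c + x, Unitary.mem_iff.2 ⟨?_, ?_⟩, ?_⟩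
  · rw [star_add, hcs, hx]
    calc (c + -x) * (c + x) = c * c + (c * x - x * c) - x * x := by noncomm_ring
      _ = 1 := by rw [hcc, hcx]; noncomm_ring
  · rw [star_add, hcs, hx]
    calc (c + x) * (c + -x) = c * c - (c * x - x * c) - x * x := by noncomm_ring
      _ = 1 := by rw [hcc, hcx]; noncomm_ring
  · rw [show c + x - 1 - x = c - 1 by abel, hc, ← cfc_const_one ℝ (star x * x), ← cfc_sub ..]
    refine norm_cfc_le (sq_nonneg _) fun s hs => ?_
    obtain ⟨h0, h2⟩ := hsp s hs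
    have h3 : √(1 - s) ≤ 1 := Real.sqrt_le_one.2 (by linarith)
    have h4 : 1 - s ≤ √(1 - s) := Real.le_sqrt_of_sq_le (by nlinarith)
    rw [Real.norm_eq_abs, abs_le]
    constructor <;> linarith

theorem norm_pow_sub_one_le {U : A} (hU : ‖U‖ ≤ 1) (j : ℕ) : ‖U ^ j - 1‖ ≤ j * ‖U - 1‖ := by
  induction j with
  | zero => simp
  | succ j ih =>
    rw [show U ^ (j + 1) - 1 = (U ^ j - 1) * U + (U - 1) by noncomm_ring, Nat.cast_succ, add_mul,
      one_mul]
    exact (norm_add_le _ _).trans (add_le_add ((norm_mul_le _ _).trans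
      ((mul_le_of_le_one_right (norm_nonneg _) hU).trans ih)) le_rfl)

theorem norm_pow_taylor {U : A} (hU : ‖U‖ ≤ 1) (j : ℕ) :
    ‖U ^ j - 1 - (j : ℝ) • (U - 1)‖ ≤ (j : ℝ) ^ 2 * ‖U - 1‖ ^ 2 := by
  induction j with
  | zero => simp
  | succ j ih =>
    have e : U ^ (j + 1) - 1 - ((j + 1 : ℕ) : ℝ) • (U - 1) =
        (U ^ j - 1) * (U - 1) + (U ^ j - 1 - (j : ℝ) • (U - 1)) := by
      rw [Nat.cast_succ, add_smul, one_smul]
      noncomm_ring
    rw [e]
    refine (norm_add_le _ _).trans ?_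
    have h1 := (norm_mul_le (U ^ j - 1) (U - 1)).trans
      (mul_le_mul_of_nonneg_right (norm_pow_sub_one_le hU j) (norm_nonneg _))
    have h2 : (0 : ℝ) ≤ j := Nat.cast_nonneg j
    push_cast
    nlinarith [sq_nonneg ‖U - 1‖]

theorem norm_pow_approx {U x : A} (hU : ‖U‖ ≤ 1) {ρ : ℝ} (hx : ‖x‖ ≤ ρ) (h1 : ρ ≤ 1)
    (h : ‖U - 1 - x‖ ≤ ρ ^ 2) (k : ℕ) : ‖U ^ k - 1 - (k : ℝ) • x‖ ≤ 5 * ((k : ℝ) ^ 2 * ρ ^ 2) := by
  have hρ : 0 ≤ ρ := (norm_nonneg _).trans hx
  have h2 : ‖U - 1‖ ≤ 2 * ρ := by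
    have := norm_add_le (U - 1 - x) x
    rw [sub_add_cancel] at this
    nlinarith
  have h3 := (norm_pow_taylor hU k).trans (mul_le_mul_of_nonneg_left
    (pow_le_pow_left₀ (norm_nonneg _) h2 2) (sq_nonneg _))
  have e : U ^ k - 1 - (k : ℝ) • x = (U ^ k - 1 - (k : ℝ) • (U - 1)) + (k : ℝ) • (U - 1 - x) := by
    rw [smul_sub (k : ℝ) (U - 1)]
    abel
  have h4 : ‖(k : ℝ) • (U - 1 - x)‖ ≤ (k : ℝ) ^ 2 * ρ ^ 2 := by
    rw [norm_smul, Real.norm_natCast]
    refine mul_le_mul ?_ h (norm_nonneg _) (sq_nonneg _)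
    exact_mod_cast Nat.le_self_pow two_ne_zero k
  rw [e]
  refine (norm_add_le _ _).trans ?_
  nlinarith

/-- Polar decomposition of an invertible element, with recovery of perturbed phases. -/
theorem exists_polar {c : A} (hc : IsUnit c) : ∃ v ∈ unitary A, ∃ p : A, c = v * p ∧ ‖p‖ ≤ ‖c‖ ∧
    ∀ w ∈ unitary A, ∀ S : StarSubalgebra ℂ A, IsClosed (S : Set A) → w * p ∈ S → w ∈ S := by
  have hh : IsSelfAdjoint (star c * c) := .star_mul_self c
  have hpos : ∀ s ∈ spectrum ℝ (star c * c), 0 < s := fun s hs =>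
    (spectrum_star_mul_self_nonneg s hs).lt_of_ne fun h0 =>
      spectrum.zero_notMem ℝ (hc.star.mul hc) (h0 ▸ hs)
  have hcont : ContinuousOn (fun s : ℝ => (√s)⁻¹) (spectrum ℝ (star c * c)) :=
    Real.continuous_sqrt.continuousOn.inv₀ fun s hs => (Real.sqrt_pos.2 (hpos s hs)).ne'
  set p := cfc (fun s : ℝ => √s) (star c * c) with hp
  set q := cfc (fun s : ℝ => (√s)⁻¹) (star c * c) with hq
  have hps : star p = p := (cfc_predicate _ _ : IsSelfAdjoint p).star_eq
  have hqs : star q = q := (cfc_predicate _ _ : IsSelfAdjoint q).star_eq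
  have hpq : p * q = 1 := by
    rw [hp, hq, ← cfc_mul (fun s : ℝ => √s) (fun s : ℝ => (√s)⁻¹) _ (by fun_prop) hcont,
      ← cfc_const_one ℝ (star c * c)]
    exact cfc_congr fun s hs => mul_inv_cancel₀ (Real.sqrt_pos.2 (hpos s hs)).ne'
  have hqp : q * p = 1 := by
    rw [hp, hq, ← cfc_mul (fun s : ℝ => (√s)⁻¹) (fun s : ℝ => √s) _ hcont (by fun_prop),
      ← cfc_const_one ℝ (star c * c)]
    exact cfc_congr fun s hs => inv_mul_cancel₀ (Real.sqrt_pos.2 (hpos s hs)).ne'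
  have hpp : p * p = star c * c := by
    rw [hp, ← cfc_mul (fun s : ℝ => √s) (fun s : ℝ => √s) _ (by fun_prop) (by fun_prop)]
    nth_rw 2 [← cfc_id' ℝ (star c * c)]
    exact cfc_congr fun s hs => Real.mul_self_sqrt (hpos s hs).le
  refine ⟨c * q, IsUnit.mem_unitary_of_star_mul_self (hc.mul ⟨⟨q, p, hqp, hpq⟩, rfl⟩) ?_, p,
    by rw [mul_assoc, hqp, mul_one], ?_, fun w hw S hS hwp => ?_⟩
  · rw [star_mul, hqs, mul_assoc, ← mul_assoc (star c), ← hpp, mul_assoc, hpq, mul_one, hqp]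
  · have h1 : ‖p‖ * ‖p‖ = ‖c‖ * ‖c‖ := by
      rw [← CStarRing.norm_star_mul_self, hps, hpp, CStarRing.norm_star_mul_self]
    exact (mul_self_inj_of_nonneg (norm_nonneg _) (norm_nonneg _)).1 h1 |>.le
  · have h1 : star c * c ∈ S := by
      have := mul_mem (star_mem hwp) hwp
      rwa [star_mul, hps, mul_assoc, ← mul_assoc (star w), Unitary.star_mul_self_of_mem hw,
        one_mul, hpp] at this
    have h2 := mul_mem hwp (show q ∈ S from cfc_mem _ h1)
    rwa [mul_assoc, hpq, mul_one] at h2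

/-- Truncation with an error controlled by the fourth moment. -/
theorem exists_trunc (T : Tr A) (p : A) {r : ℝ} (hr : 0 < r) :
    ∃ p' : A, ‖p'‖ ≤ r ∧ T.n2 (p - p') ^ 2 ≤ T.n2 (star p * p) ^ 2 / r ^ 2 := by
  have hh : IsSelfAdjoint (star p * p) := .star_mul_self p
  have hsp := spectrum_star_mul_self_nonneg (b := p)
  obtain ⟨g, hg, hg'⟩ : ∃ g : ℝ → ℝ, Continuous g ∧ ∀ s, 0 ≤ s → g s = r ^ 2 / (r ^ 2 + s) :=
    ⟨fun s => r ^ 2 / (r ^ 2 + |s|), continuous_const.div (by fun_prop) fun s => by positivity,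
      fun s hs => by simp only [abs_of_nonneg hs]⟩
  have key : ∀ f : ℝ → ℝ, Continuous f → star (p * cfc f (star p * p)) * (p * cfc f (star p * p)) =
      cfc (fun s => f s * (s * f s)) (star p * p) := by
    intro f hf
    rw [star_mul, (cfc_predicate f _ : IsSelfAdjoint _).star_eq, mul_assoc, ← mul_assoc (star p),
      cfc_mul .., cfc_mul .., cfc_id' ..]
  refine ⟨p * cfc g (star p * p), ?_, ?_⟩
  · rw [← sq_le_sq₀ (norm_nonneg _) hr.le, sq, ← CStarRing.norm_star_mul_self, key g hg]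
    refine norm_cfc_le (sq_nonneg _) fun s hs => ?_
    have h0 := hsp s hs
    rw [hg' s h0, Real.norm_of_nonneg (by positivity), div_mul_eq_mul_div, mul_div_assoc',
      mul_div_assoc', div_div, div_le_iff₀ (by positivity)]
    have : 0 ≤ r ^ 2 * s := by positivity
    nlinarith [sq_nonneg s, sq_nonneg (r ^ 2), mul_pos (pow_pos hr 2) (pow_pos hr 2)]
  · have e1 : p - p * cfc g (star p * p) = p * cfc (fun s => 1 - g s) (star p * p) := by
      rw [cfc_sub .., cfc_const_one .., mul_sub, mul_one]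
    have e2 : star (star p * p) * (star p * p) = cfc (fun s : ℝ => s * s) (star p * p) := by
      rw [hh.star_eq, cfc_mul .., cfc_id' ..]
    have h1 := T.re_τ_cfc_nonneg (h := star p * p)
      (fun s => (r ^ 2)⁻¹ • (s * s) - (1 - g s) * (s * (1 - g s))) fun s hs => by
        have h0 := hsp s hs
        have e : 1 - g s = s / (r ^ 2 + s) := by
          rw [hg' s h0]
          field_simp
          ring
        rw [e, sub_nonneg, smul_eq_mul, inv_mul_eq_div, div_mul_eq_mul_div, mul_div_assoc',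
          mul_div_assoc', div_div, div_le_div_iff₀ (by positivity) (by positivity)]
        have h2 : 0 ≤ r ^ 2 * s := by positivity
        have h3 : s * r ^ 2 ≤ (r ^ 2 + s) * (r ^ 2 + s) := by nlinarith [sq_nonneg s, sq_nonneg (r ^ 2)]
        nlinarith [mul_le_mul_of_nonneg_left h3 (mul_self_nonneg s)]
    have c1 : Continuous fun s : ℝ => (r ^ 2)⁻¹ • (s * s) := by fun_prop
    have c2 : Continuous fun s : ℝ => (1 - g s) * (s * (1 - g s)) := by fun_prop
    have c3 : Continuous fun s : ℝ => s * s := by fun_prop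
    rw [cfc_sub _ _ _ c1.continuousOn c2.continuousOn, cfc_smul _ _ _ c3.continuousOn, map_sub,
      Complex.sub_re, ← Complex.coe_smul, map_smul,
      smul_eq_mul, Complex.re_ofReal_mul] at h1
    rw [T.n2_sq, T.n2_sq, Tr.ip, Tr.ip, e1, key _ (by fun_prop), e2, div_eq_inv_mul]
    linarith

/-- A dominant symmetry can be read off. -/
theorem peel {c y Z : A} {l : ℝ} (hZ : star Z = Z) (hZ2 : Z * Z = 1) (hy : star y = y)
    (hc : c = l • Z + y) (hyZ : Z * y = y * Z) (hl : ‖y‖ < l) {S : StarSubalgebra ℂ A}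
    (hS : IsClosed (S : Set A)) (hcS : c ∈ S) : Z ∈ S := by
  nontriviality A
  have hl0 : 0 < l := (norm_nonneg _).trans_lt hl
  have hZn : ‖Z‖ = 1 := CStarRing.norm_of_mem_unitary (Unitary.mem_iff.2 (by simp [hZ, hZ2]))
  set g := Z * y with hg
  have hgs : IsSelfAdjoint g := by rw [IsSelfAdjoint, hg, star_mul, hy, hZ, ← hyZ]
  have hgn : ‖g‖ < l := ((norm_mul_le _ _).trans (by rw [hZn, one_mul])).trans_lt hl
  have hsp : ∀ s ∈ spectrum ℝ g, 0 < l + s := fun s hs => by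
    have := (spectrum.norm_le_norm_of_mem hs).trans_lt hgn
    rw [Real.norm_eq_abs, abs_lt] at this
    linarith [this.1]
  have hd : Z * c = cfc (fun s : ℝ => l + s) g := by
    rw [cfc_const_add .., cfc_id' .., hc, mul_add, mul_smul_comm, hZ2,
      Algebra.algebraMap_eq_smul_one]
  have hcZ : Z * c = c * Z := by rw [hc, mul_add, add_mul, mul_smul_comm, smul_mul_assoc, ← hyZ]
  have hcc : c * c = cfc (fun s : ℝ => (l + s) * (l + s)) g := by
    rw [cfc_mul .., ← hd]
    nth_rw 1 [hcZ]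
    rw [mul_assoc, ← mul_assoc Z, hZ2, one_mul]
  have hcont : ContinuousOn (fun s : ℝ => (√s)⁻¹) ((fun s : ℝ => (l + s) * (l + s)) ''
      spectrum ℝ g) := Real.continuous_sqrt.continuousOn.inv₀ <| by
    rintro _ ⟨s, hs, rfl⟩
    exact (Real.sqrt_pos.2 (mul_pos (hsp s hs) (hsp s hs))).ne'
  have hq : cfc (fun s : ℝ => (√s)⁻¹) (c * c) = cfc (fun s : ℝ => (l + s)⁻¹) g := by
    rw [hcc, ← cfc_comp' _ _ g hcont]
    exact cfc_congr fun s hs => by simp only [Real.sqrt_mul_self (hsp s hs).le]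
  have hone : Z * c * cfc (fun s : ℝ => (l + s)⁻¹) g = 1 := by
    rw [hd, ← cfc_mul (fun s : ℝ => l + s) (fun s : ℝ => (l + s)⁻¹) g (by fun_prop)
      (ContinuousOn.inv₀ (by fun_prop) fun s hs => (hsp s hs).ne'), ← cfc_const_one ℝ g]
    exact cfc_congr fun s hs => mul_inv_cancel₀ (hsp s hs).ne'
  have h1 := mul_mem hcS (show cfc (fun s : ℝ => (√s)⁻¹) (c * c) ∈ S from
    cfc_mem _ (mul_mem hcS hcS))
  have e : c * cfc (fun s : ℝ => (l + s)⁻¹) g = Z := by
    rw [← one_mul (c * _), ← hZ2, mul_assoc, ← mul_assoc Z c, hone, mul_one]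
  rwa [hq, e] at h1

/-- The resolvent at `-i` of a self-adjoint element. -/
noncomputable def res (h : A) : A := cfc (fun z : ℂ => (z + Complex.I)⁻¹) h

theorem res_spec {h : A} (hh : IsSelfAdjoint h) : ∀ z ∈ spectrum ℂ h, 1 ≤ ‖z + Complex.I‖ := by
  intro z hz
  have h1 := Complex.abs_im_le_norm (z + Complex.I)
  rw [Complex.add_im, hh.im_eq_zero_of_mem_spectrum hz] at h1
  simpa using h1

theorem res_cont {h : A} (hh : IsSelfAdjoint h) :
    ContinuousOn (fun z : ℂ => (z + Complex.I)⁻¹) (spectrum ℂ h) :=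
  ContinuousOn.inv₀ (by fun_prop) fun z hz h0 => by
    have := res_spec hh z hz
    rw [h0, norm_zero] at this
    linarith

theorem norm_res_le {h : A} (hh : IsSelfAdjoint h) : ‖res h‖ ≤ 1 :=
  norm_cfc_le zero_le_one fun z hz => by
    rw [norm_inv]
    exact inv_le_one_of_one_le₀ (res_spec hh z hz)

theorem res_mul {h : A} (hh : IsSelfAdjoint h) :
    res h * (h + algebraMap ℂ A Complex.I) = 1 ∧ (h + algebraMap ℂ A Complex.I) * res h = 1 := by
  have hn : IsStarNormal h := hh.isStarNormal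
  have e : h + algebraMap ℂ A Complex.I = cfc (fun z : ℂ => z + Complex.I) h := by
    rw [cfc_add_const .., cfc_id' ..]
  have h0 : ∀ z ∈ spectrum ℂ h, z + Complex.I ≠ 0 := fun z hz h0 => by
    have := res_spec hh z hz
    rw [h0, norm_zero] at this
    linarith
  have hc := res_cont hh
  rw [e, res, ← cfc_mul (fun z : ℂ => (z + Complex.I)⁻¹) (fun z : ℂ => z + Complex.I) h hc
    (by fun_prop), ← cfc_mul (fun z : ℂ => z + Complex.I) (fun z : ℂ => (z + Complex.I)⁻¹) h
    (by fun_prop) hc, ← cfc_const_one ℂ h]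
  exact ⟨cfc_congr fun z hz => inv_mul_cancel₀ (h0 z hz),
    cfc_congr fun z hz => mul_inv_cancel₀ (h0 z hz)⟩

theorem n2_res_sub (T : Tr A) {h k : A} (hh : IsSelfAdjoint h) (hk : IsSelfAdjoint k) :
    T.n2 (res h - res k) ≤ T.n2 (h - k) := by
  have e : res h - res k = res h * (k - h) * res k := by
    calc res h - res k = res h * ((k + algebraMap ℂ A Complex.I) * res k) -
          res h * (h + algebraMap ℂ A Complex.I) * res k := by
          rw [(res_mul hk).2, (res_mul hh).1, mul_one, one_mul]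
      _ = _ := by noncomm_ring
  rw [e, T.n2_sub_comm h]
  refine (T.n2_mul_le' _ _).trans ((mul_le_of_le_one_right (T.n2_nonneg _) (norm_res_le hk)).trans ?_)
  exact (T.n2_mul_le _ _).trans (mul_le_of_le_one_left (T.n2_nonneg _) (norm_res_le hh))

theorem mem_of_res_mem {h : A} (hh : IsSelfAdjoint h) {S : StarSubalgebra ℂ A}
    (hS : IsClosed (S : Set A)) (hm : res h ∈ S) : h ∈ S := by
  have hu : IsUnit (⟨res h, hm⟩ : S) :=
    (StarSubalgebra.coe_isUnit S).1 ⟨⟨res h, _, (res_mul hh).1, (res_mul hh).2⟩, rfl⟩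
  obtain ⟨w, hw⟩ := hu.exists_right_inv
  have h1 : res h * w = 1 := congrArg Subtype.val hw
  have h2 : h + algebraMap ℂ A Complex.I = w := by
    rw [← mul_one (h + _), ← h1, ← mul_assoc, (res_mul hh).2, one_mul]
  have h3 := sub_mem w.2 (S.algebraMap_mem Complex.I)
  rwa [← h2, add_sub_cancel_right] at h3

end Vale.Agent.P085
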