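import Vale.Agent.P085.Avg
import Vale.Agent.P085.Cfc

/-! Amplification of small random perturbations of unitary letters by long words. -/

namespace Vale.Agent.P085

open scoped BigOperators ComplexConjugate
open Finset

variable {Γ : Type} [Fintype Γ] [DecidableEq Γ] {A : Type*} [CStarAlgebra A]

/-- Words of length `k` any two of which share at most one letter. -/
structure Design (Γ : Type) (k : ℕ) where
  π : ℕ → Equiv.Perm Γ
  d1 : ∀ m q j, q < k → j < k → q ≠ j → (π j).symm (π q m) ≠ m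
  d2 : ∀ m q j q' j', q < k → j < k → q' < k → j' < k → q ≠ j →
    (π j).symm (π q m) = (π j').symm (π q' m) → q = q' ∧ j = j'

theorem conj_list_prod {u : A} (hu : u ∈ unitary A) (l : List A) :
    u * l.prod * star u = (l.map fun x => u * x * star u).prod := by
  induction l with
  | nil => simpa using Unitary.mul_star_self_of_mem hu
  | cons x l ih =>
    rw [List.map_cons, List.prod_cons, List.prod_cons, ← ih]
    calc u * (x * l.prod) * star u = u * x * (star u * u) * l.prod * star u := by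
          rw [Unitary.star_mul_self_of_mem hu]; noncomm_ring
      _ = _ := by noncomm_ring

/-- Ordered product of the first `q` terms. -/
def pre (f : ℕ → A) (q : ℕ) : A := ((List.range q).map f).prod

theorem pre_succ (f : ℕ → A) (q : ℕ) : pre f (q + 1) = pre f q * f q := List.prod_range_succ f q

theorem pre_mem {S : Type*} [SetLike S A] [SubmonoidClass S A] {s : S} {f : ℕ → A}
    (hf : ∀ i, f i ∈ s) (q : ℕ) : pre f q ∈ s :=
  list_prod_mem fun x hx => by
    obtain ⟨i, -, rfl⟩ := List.mem_map.1 hx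
    exact hf i

theorem pre_mul {v : ℕ → A} (hv : ∀ i, v i ∈ unitary A) (F : ℕ → A) (k : ℕ) :
    pre (fun q => v q * F q) k =
      pre (fun q => pre v (q + 1) * F q * star (pre v (q + 1))) k * pre v k := by
  induction k with
  | zero => simp [pre]
  | succ k ih =>
    rw [pre_succ, pre_succ, ih, mul_assoc, mul_assoc, mul_assoc, mul_assoc,
      Unitary.star_mul_self_of_mem (pre_mem hv (k + 1)), mul_one, pre_succ, mul_assoc]

theorem unit_norm_le [Nontrivial A] {u : A} (hu : u ∈ unitary A) : ‖u‖ ≤ 1 :=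
  (CStarRing.norm_of_mem_unitary hu).le

theorem norm_conj_mean [Nontrivial A] {u : A} (hu : u ∈ unitary A) {a b : A} {e : ℝ}
    (h : ‖(2⁻¹ : ℝ) • (a + b) - 1‖ ≤ e) :
    ‖(2⁻¹ : ℝ) • (u * a * star u + u * b * star u) - 1‖ ≤ e := by
  have e1 : (2⁻¹ : ℝ) • (u * a * star u + u * b * star u) - 1 =
      u * ((2⁻¹ : ℝ) • (a + b) - 1) * star u := by
    rw [mul_sub, sub_mul, mul_one, Unitary.mul_star_self_of_mem hu, mul_smul_comm, smul_mul_assoc,
      mul_add, add_mul]
  rw [e1, CStarRing.norm_mul_mem_unitary _ (Unitary.star_mem hu),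
    CStarRing.norm_mem_unitary_mul _ hu]
  exact h

/-- Sign of a bit. -/
def sgb (b : Bool) : ℝ := if b then 1 else -1

section

variable {k : ℕ} (D : Design Γ k) (v : Γ → A) (U : Γ → Bool → A)

/-- Initial segments of the word `m`. -/
def wd (m : Γ) (q : ℕ) : A := pre (fun i => v (D.π i m)) q

/-- The factor by which word `m` perturbs its letter in slot `j`. -/
def fac (m : Γ) (j : ℕ) (b : Bool) : A := star (wd D v m (j + 1)) * U m b * wd D v m (j + 1)

/-- The total perturbation of the letter `l`. -/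
def prt (l : Γ) (ε : Γ → Bool) : A :=
  pre (fun j => fac D v U ((D.π j).symm l) j (ε ((D.π j).symm l))) k

variable {D v U}

omit [Fintype Γ] [DecidableEq Γ] in
theorem wd_mem (hv : ∀ l, v l ∈ unitary A) (m : Γ) (q : ℕ) : wd D v m q ∈ unitary A :=
  pre_mem (fun _ => hv _) q

omit [Fintype Γ] [DecidableEq Γ] in
theorem fac_mem (hv : ∀ l, v l ∈ unitary A) (hU : ∀ m b, U m b ∈ unitary A) (m : Γ) (j : ℕ)
    (b : Bool) : fac D v U m j b ∈ unitary A :=
  mul_mem (mul_mem (Unitary.star_mem (wd_mem hv _ _)) (hU _ _)) (wd_mem hv _ _)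

omit [Fintype Γ] [DecidableEq Γ] in
theorem prt_mem (hv : ∀ l, v l ∈ unitary A) (hU : ∀ m b, U m b ∈ unitary A) (l : Γ)
    (ε : Γ → Bool) : prt D v U l ε ∈ unitary A :=
  pre_mem (fun _ => fac_mem hv hU _ _ _) k

omit [Fintype Γ] [DecidableEq Γ] in
theorem fac_mean [Nontrivial A] (hv : ∀ l, v l ∈ unitary A) {e : ℝ}
    (hm : ∀ m, ‖(2⁻¹ : ℝ) • (U m true + U m false) - 1‖ ≤ e) (m : Γ) (j : ℕ) :
    ‖(2⁻¹ : ℝ) • (fac D v U m j true + fac D v U m j false) - 1‖ ≤ e := by
  have := norm_conj_mean (Unitary.star_mem (wd_mem (D := D) hv m (j + 1))) (hm m)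
  rwa [star_star] at this

theorem prt_size (T : Tr A) (hv : ∀ l, v l ∈ unitary A) (hU : ∀ m b, U m b ∈ unitary A) {e : ℝ}
    (he : 0 ≤ e) (hm : ∀ m, ‖(2⁻¹ : ℝ) • (U m true + U m false) - 1‖ ≤ e) (l : Γ) :
    𝔼 ε, T.n2 (v l * prt D v U l ε - v l) ^ 2 ≤ 2 * (e * k) := by
  have := T.nontrivial
  let φ : A →ₗ[ℝ] ℝ := Complex.reLm ∘ₗ T.τ.restrictScalars ℝ
  have hφ : ∀ x, φ x = (T.τ x).re := fun x => rfl
  have h := replace_list φ zero_le_one he (fun x => by rw [one_mul]; exact T.abs_re_τ_le x)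
    (fun _ => False)
    ((List.range k).map fun j => ((D.π j).symm l, fac D v U ((D.π j).symm l) j))
    (fun p hp b => by
      obtain ⟨j, -, rfl⟩ := List.mem_map.1 hp
      exact unit_norm_le (fac_mem hv hU _ _ _))
    (fun p hp _ => by
      obtain ⟨j, -, rfl⟩ := List.mem_map.1 hp
      exact fac_mean hv hm _ _)
    (by
      rw [List.pairwise_map]
      refine List.pairwise_lt_range.imp_of_mem fun {j j'} hj hj' hlt _ h => ?_
      have h' : (D.π j).symm l = (D.π j').symm l := h
      refine D.d1 ((D.π j).symm l) j j' (List.mem_range.1 hj) (List.mem_range.1 hj') hlt.ne ?_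
      rw [Equiv.apply_symm_apply, h'])
    (fun _ => 1) (fun _ => by simp) fun _ _ _ _ => rfl
  have e1 : ∀ ε, evalF ((List.range k).map fun j =>
      ((D.π j).symm l, fac D v U ((D.π j).symm l) j)) ε = prt D v U l ε := fun ε => by
    rw [evalF, List.map_map]
    rfl
  have e2 : ∀ ε, evalK (fun _ => False) ((List.range k).map fun j =>
      ((D.π j).symm l, fac D v U ((D.π j).symm l) j)) ε = 1 := fun ε => by
    simp [evalK, Function.comp_def]
  simp only [e1, e2, one_mul, hφ, T.one, Complex.one_re, List.length_map, List.length_range] at h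
  rw [Fintype.expect_const] at h
  have h2 : ∀ ε, T.n2 (v l * prt D v U l ε - v l) ^ 2 = 2 - 2 * (T.τ (prt D v U l ε)).re := by
    intro ε
    have hp := prt_mem (D := D) hv hU l ε
    rw [T.n2_sub_sq, T.n2_sq, T.n2_sq, T.ip_comm (v l * _) (v l), Tr.ip, Tr.ip, Tr.ip,
      Unitary.star_mul_self_of_mem (mul_mem (hv l) hp), Unitary.star_mul_self_of_mem (hv l),
      ← mul_assoc, Unitary.star_mul_self_of_mem (hv l), one_mul, T.one, Complex.one_re]
    ring
  simp only [h2]
  rw [expect_sub_distrib, Fintype.expect_const, ← mul_expect]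
  linarith [(abs_le.1 h).1]

theorem word_mean [Nontrivial A] (hv : ∀ l, v l ∈ unitary A) (hU : ∀ m b, U m b ∈ unitary A)
    {e : ℝ} (he : 0 ≤ e) (hm : ∀ m, ‖(2⁻¹ : ℝ) • (U m true + U m false) - 1‖ ≤ e) (m : Γ)
    (φ : A →ₗ[ℝ] ℝ) {c : ℝ} (hc : 0 ≤ c) (hφ : ∀ x, |φ x| ≤ c * ‖x‖) :
    |𝔼 ε, φ (sgb (ε m) • (pre (fun q => v (D.π q m) * prt D v U (D.π q m) ε) k *
        star (wd D v m k))) - (φ (U m true ^ k) - φ (U m false ^ k)) / 2| ≤ c * e * (k * k) := by
  let it : ℕ → ℕ → Γ × (Bool → A) := fun q j => ((D.π j).symm (D.π q m), fun b =>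
    wd D v m (q + 1) * fac D v U ((D.π j).symm (D.π q m)) j b * star (wd D v m (q + 1)))
  have hmem : ∀ p ∈ (List.range k).flatMap fun q => (List.range k).map (it q),
      ∃ q j, q < k ∧ j < k ∧ p = it q j := fun p hp => by
    obtain ⟨q, hq, hp⟩ := List.mem_flatMap.1 hp
    obtain ⟨j, hj, rfl⟩ := List.mem_map.1 hp
    exact ⟨q, j, List.mem_range.1 hq, List.mem_range.1 hj, rfl⟩
  have hne : ∀ q j, (it q j).1 ≠ m → q ≠ j := fun q j h hqj => h (by simp [it, hqj])
  have h := replace_list φ hc he hφ (fun l => l = m)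
    ((List.range k).flatMap fun q => (List.range k).map (it q))
    (fun p hp b => by
      obtain ⟨q, j, -, -, rfl⟩ := hmem p hp
      exact unit_norm_le (mul_mem (mul_mem (wd_mem hv _ _) (fac_mem hv hU _ _ _))
        (Unitary.star_mem (wd_mem hv _ _))))
    (fun p hp _ => by
      obtain ⟨q, j, -, -, rfl⟩ := hmem p hp
      exact norm_conj_mean (wd_mem hv _ _) (fac_mean hv hm _ _))
    (by
      rw [List.pairwise_flatMap]
      constructor
      · intro q hq
        rw [List.pairwise_map]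
        refine List.pairwise_lt_range.imp_of_mem fun {j j'} hj hj' hlt h1 h2 => ?_
        exact hlt.ne (D.d2 m q j q j' (List.mem_range.1 hq) (List.mem_range.1 hj)
          (List.mem_range.1 hq) (List.mem_range.1 hj') (hne q j h1) h2).2
      · refine List.pairwise_lt_range.imp_of_mem fun {q q'} hq hq' hlt x hx y hy h1 h2 => ?_
        obtain ⟨j, hj, rfl⟩ := List.mem_map.1 hx
        obtain ⟨j', hj', rfl⟩ := List.mem_map.1 hy
        exact hlt.ne (D.d2 m q j q' j' (List.mem_range.1 hq) (List.mem_range.1 hj)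
          (List.mem_range.1 hq') (List.mem_range.1 hj') (hne q j h1) h2).1)
    (fun ε => sgb (ε m) • 1) (fun ε => by cases ε m <;> simp [sgb]) fun p _ hp ε => by
      rw [flip_ne hp]
  have e1 : ∀ ε, evalF ((List.range k).flatMap fun q => (List.range k).map (it q)) ε =
      pre (fun q => v (D.π q m) * prt D v U (D.π q m) ε) k * star (wd D v m k) := fun ε => by
    rw [pre_mul fun i => hv (D.π i m), mul_assoc]
    erw [Unitary.mul_star_self_of_mem (wd_mem (D := D) hv m k)]
    rw [mul_one, evalF, List.map_flatMap, List.flatMap_def, List.prod_flatten, List.map_map, pre]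
    congr 1
    refine List.map_congr_left fun q _ => ?_
    rw [prt, pre]
    erw [conj_list_prod (wd_mem (D := D) hv m (q + 1))]
    simp only [Function.comp_apply, List.map_map]
    rfl
  have e2 : ∀ ε, evalK (fun l => l = m)
      ((List.range k).flatMap fun q => (List.range k).map (it q)) ε = U m (ε m) ^ k := fun ε => by
    rw [evalK, List.map_flatMap, List.flatMap_def, List.prod_flatten, List.map_map]
    rw [List.map_congr_left (g := fun _ => U m (ε m)), List.map_const', List.prod_replicate,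
      List.length_range]
    intro q hq
    have hq' := List.mem_range.1 hq
    simp only [Function.comp_apply, List.map_map]
    rw [List.prod_map_eq_pow_single q, List.count_eq_one_of_mem List.nodup_range hq, pow_one]
    · have hw := wd_mem (D := D) hv m (q + 1)
      simp only [Function.comp_apply, it, Equiv.symm_apply_apply, if_true, fac]
      rw [← mul_assoc, ← mul_assoc, Unitary.mul_star_self_of_mem hw, one_mul, mul_assoc,
        Unitary.mul_star_self_of_mem hw, mul_one]
    · intro j hj hjk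
      exact if_neg (D.d1 m q j hq' (List.mem_range.1 hjk) hj.symm)
  have e3 : 𝔼 ε : Γ → Bool, φ (sgb (ε m) • U m (ε m) ^ k) =
      (φ (U m true ^ k) - φ (U m false ^ k)) / 2 := by
    rw [avg_flip m (fun b _ => φ (sgb b • U m b ^ k)) fun _ _ => rfl, Fintype.expect_const]
    simp [sgb, sub_eq_add_neg]
  have e4 : (((List.range k).flatMap fun q => (List.range k).map (it q)).length : ℝ) = k * k := by
    simp [List.length_flatMap]
  simp only [e1, e2, e4, smul_one_mul] at h
  rwa [e3] at h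

end

theorem amp (T : Tr A) {k : ℕ} (hk : 0 < k) (D : Design Γ k) (v : Γ → A)
    (hv : ∀ l, v l ∈ unitary A) (y z : Γ → A) {B t μ : ℝ} (hz : ∀ m, ‖z m‖ ≤ B) (hB : 0 ≤ B)
    (ht : 0 ≤ t) (htB : 2 * t * B ≤ 1) (hμ : 0 ≤ μ) :
    ∃ v' u : Γ → A, (∀ l, v' l ∈ unitary A) ∧ (∀ m, ‖u m‖ ≤ 1) ∧
      (∀ S : StarSubalgebra ℂ A, (∀ l, v' l ∈ S) → ∀ m, u m ∈ S) ∧
      t * ∑ m, T.ip (y m) (z m) - 24 * (t * B) ^ 2 * ∑ m, T.n2 (y m) -
          μ * (Fintype.card Γ * (8 * (t * B) ^ 2 / k)) ≤
        ∑ m, T.ip (y m) (u m) - μ * ∑ l, T.n2 (v' l - v l) ^ 2 := by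
  have := T.nontrivial
  have hk' : (0 : ℝ) < k := Nat.cast_pos.2 hk
  have hk1 : (1 : ℝ) ≤ k := Nat.one_le_cast.2 hk
  set w : Γ → A := fun m => wd D v m k with hw
  have hwu : ∀ m, w m ∈ unitary A := fun m => wd_mem hv m k
  have hθ : ∀ m, ∃ θ : ℂ, ‖θ‖ = 1 ∧ T.ip (y m) ((conj θ * conj θ) • (w m * star (z m) * w m)) ≤ 0 := by
    intro m
    rcases le_total (T.ip (y m) (w m * star (z m) * w m)) 0 with h | h
    · exact ⟨1, by simp, by simpa using h⟩
    · refine ⟨Complex.I, by simp, ?_⟩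
      have : (conj Complex.I * conj Complex.I) • (w m * star (z m) * w m) =
          (-1 : ℝ) • (w m * star (z m) * w m) := by simp
      rw [this, T.ip_smul_right]
      linarith
  choose θ hθ1 hθ2 using hθ
  set κ : Γ → A := fun m => θ m • (z m * star (w m)) - conj (θ m) • (w m * star (z m)) with hκ
  set ρ := 2 * t * B / k with hρ
  have hρ0 : 0 ≤ ρ := by positivity
  have hρ1 : ρ ≤ 1 := (div_le_self (by positivity) hk1).trans htB
  have hκn : ∀ m, ‖(t / k) • κ m‖ ≤ ρ := by
    intro m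
    have h1 : ‖κ m‖ ≤ 2 * B := by
      refine (norm_sub_le _ _).trans ?_
      rw [norm_smul, norm_smul, RCLike.norm_conj, hθ1, one_mul, one_mul,
        CStarRing.norm_mul_mem_unitary _ (Unitary.star_mem (hwu m)),
        CStarRing.norm_mem_unitary_mul _ (hwu m), norm_star]
      linarith [hz m]
    rw [norm_smul, Real.norm_of_nonneg (by positivity)]
    refine (mul_le_mul_of_nonneg_left h1 (by positivity)).trans (le_of_eq ?_)
    rw [hρ]
    ring
  have hκs : ∀ m, star ((t / k) • κ m) = -((t / k) • κ m) := by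
    intro m
    simp [hκ, smul_sub]
  choose U₀ hU₀ hU₁ using fun m => exists_unitary_near (hκs m) (hκn m) hρ1
  have hU₂ : ∀ m, ‖star (U₀ m) - 1 - -((t / k) • κ m)‖ ≤ ρ ^ 2 := fun m => by
    rw [← hκs, ← star_one (R := A), ← star_sub, ← star_sub, norm_star]
    exact hU₁ m
  let U : Γ → Bool → A := fun m b => if b then U₀ m else star (U₀ m)
  have hU : ∀ m b, U m b ∈ unitary A := fun m b => by
    cases b
    · exact Unitary.star_mem (hU₀ m)
    · exact hU₀ m
  have hm : ∀ m, ‖(2⁻¹ : ℝ) • (U m true + U m false) - 1‖ ≤ ρ ^ 2 := fun m => by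
    have e : (2⁻¹ : ℝ) • (U m true + U m false) - 1 = (2⁻¹ : ℝ) • ((U₀ m - 1 - (t / k) • κ m) +
        (star (U₀ m) - 1 - -((t / k) • κ m))) := by
      simp only [U, if_true, Bool.false_eq_true, if_false]
      module
    rw [e, norm_smul]
    have := norm_add_le_of_le (hU₁ m) (hU₂ m)
    rw [Real.norm_of_nonneg (by norm_num)]
    linarith
  let v' : (Γ → Bool) → Γ → A := fun ε l => v l * prt D v U l ε
  let u : (Γ → Bool) → Γ → A := fun ε m =>
    conj (θ m) • sgb (ε m) • pre (fun q => v' ε (D.π q m)) k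
  have hv' : ∀ ε l, v' ε l ∈ unitary A := fun ε l => mul_mem (hv l) (prt_mem hv hU l ε)
  have hρ2 : ρ ^ 2 * (k * k) = 4 * (t * B) ^ 2 := by rw [hρ]; field_simp; ring
  have hcorr : ∀ m, t * T.ip (y m) (z m) - 24 * (t * B) ^ 2 * T.n2 (y m) ≤
      𝔼 ε, T.ip (y m) (u ε m) := by
    intro m
    let φ : A →ₗ[ℝ] ℝ :=
      { toFun := fun x => T.ip (y m) (conj (θ m) • (x * w m))
        map_add' := fun a b => by rw [add_mul, smul_add, T.ip_add_right]
        map_smul' := fun c a => by
          rw [smul_mul_assoc, smul_comm, T.ip_smul_right, RingHom.id_apply, smul_eq_mul] }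
    have hφ' : ∀ x, φ x = T.ip (y m) (conj (θ m) • (x * w m)) := fun x => rfl
    have hφ : ∀ x, |φ x| ≤ T.n2 (y m) * ‖x‖ := fun x => by
      refine (T.abs_ip_le_norm _ _).trans (le_of_eq ?_)
      rw [norm_smul, RCLike.norm_conj, hθ1, one_mul, CStarRing.norm_mul_mem_unitary _ (hwu m)]
    have h1 := word_mean (D := D) hv hU (sq_nonneg ρ) hm m φ (T.n2_nonneg _) hφ
    have e1 : ∀ ε, φ (sgb (ε m) • (pre (fun q => v (D.π q m) * prt D v U (D.π q m) ε) k *
        star (wd D v m k))) = T.ip (y m) (u ε m) := fun ε => by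
      rw [hφ', smul_mul_assoc, mul_assoc, Unitary.star_mul_self_of_mem (hwu m), mul_one]
    simp only [e1] at h1
    have h2 := norm_pow_approx (unit_norm_le (hU₀ m)) (hκn m) hρ1 (hU₁ m) k
    have h3 := norm_pow_approx (unit_norm_le (Unitary.star_mem (hU₀ m)))
      ((norm_neg _).trans_le (hκn m)) hρ1 (hU₂ m) k
    have e2 : (k : ℝ) • (t / k) • κ m = t • κ m := by
      rw [smul_smul, mul_div_cancel₀ _ hk'.ne']
    rw [smul_neg, e2] at h3
    rw [e2] at h2
    have h4 := (hφ _).trans (mul_le_mul_of_nonneg_left h2 (T.n2_nonneg (y m)))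
    have h5 := (hφ _).trans (mul_le_mul_of_nonneg_left h3 (T.n2_nonneg (y m)))
    rw [map_sub, map_sub] at h4 h5
    rw [map_neg] at h5
    have h6 : t * T.ip (y m) (z m) ≤ φ (t • κ m) := by
      rw [map_smul, smul_eq_mul]
      refine mul_le_mul_of_nonneg_left ?_ ht
      have e3 : conj (θ m) • (κ m * w m) =
          z m - (conj (θ m) * conj (θ m)) • (w m * star (z m) * w m) := by
        rw [hκ]
        simp only [sub_mul, smul_mul_assoc, smul_sub, smul_smul, mul_assoc,
          Unitary.star_mul_self_of_mem (hwu m), mul_one]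
        rw [Complex.conj_mul', hθ1]
        simp
      rw [hφ', e3, T.ip_sub_right]
      linarith [hθ2 m]
    have e4 : T.n2 (y m) * ρ ^ 2 * (k * k) = 4 * (t * B) ^ 2 * T.n2 (y m) := by
      rw [mul_assoc, hρ2, mul_comm]
    have e5 : T.n2 (y m) * (5 * ((k : ℝ) ^ 2 * ρ ^ 2)) = 20 * (t * B) ^ 2 * T.n2 (y m) := by
      linear_combination 5 * e4
    rw [e4] at h1
    rw [e5] at h4 h5
    simp only [U, if_true, Bool.false_eq_true, if_false] at h1
    linarith [(abs_le.1 h1).1, (abs_le.1 h4).1, (abs_le.1 h5).2]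
  have hsize : ∀ l, 𝔼 ε, T.n2 (v' ε l - v l) ^ 2 ≤ 8 * (t * B) ^ 2 / k := fun l =>
    (prt_size T hv hU (sq_nonneg ρ) hm l).trans (le_of_eq (by rw [hρ]; field_simp; ring))
  obtain ⟨ε, -, hε⟩ := exists_le_of_le_expect (s := univ) univ_nonempty
    (f := fun ε => ∑ m, T.ip (y m) (u ε m) - μ * ∑ l, T.n2 (v' ε l - v l) ^ 2)
    (a := t * ∑ m, T.ip (y m) (z m) - 24 * (t * B) ^ 2 * ∑ m, T.n2 (y m) -
      μ * (Fintype.card Γ * (8 * (t * B) ^ 2 / k))) (by
      rw [expect_sub_distrib, ← mul_expect, expect_sum_comm, expect_sum_comm, mul_sum, mul_sum,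
        ← sum_sub_distrib]
      refine sub_le_sub (sum_le_sum fun m _ => hcorr m) (mul_le_mul_of_nonneg_left ?_ hμ)
      refine (sum_le_sum fun l _ => hsize l).trans (le_of_eq ?_)
      rw [sum_const, card_univ, nsmul_eq_mul])
  refine ⟨v' ε, u ε, hv' ε, fun m => ?_, fun S hS m => ?_, hε⟩
  · simp only [u]
    rw [norm_smul, norm_smul, RCLike.norm_conj, hθ1,
      CStarRing.norm_of_mem_unitary (pre_mem (fun _ => hv' ε _) k)]
    cases ε m <;> simp [sgb]
  · refine SMulMemClass.smul_mem _ ?_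
    rw [← Complex.coe_smul]
    exact SMulMemClass.smul_mem _ (pre_mem (fun _ => hS _) k)

end Vale.Agent.P085
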