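import Vale.Agent.P085.Defs

/-! Averaging ordered products over independent signs. -/

namespace Vale.Agent.P085

open scoped BigOperators
open Finset

variable {Γ : Type} [Fintype Γ] [DecidableEq Γ] {A : Type*} [CStarAlgebra A]

/-- Flip one sign. -/
def flip (c : Γ) (ε : Γ → Bool) : Γ → Bool := Function.update ε c (!ε c)

omit [Fintype Γ] in
theorem flip_self (c : Γ) (ε : Γ → Bool) : flip c ε c = !ε c := by simp [flip]

omit [Fintype Γ] in
theorem flip_ne {c d : Γ} (h : c ≠ d) (ε : Γ → Bool) : flip c ε d = ε d := by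
  simp [flip, Function.update_of_ne h.symm]

omit [Fintype Γ] in
theorem flip_invol (c : Γ) : Function.Involutive (flip c) := by
  intro ε
  funext d
  by_cases h : c = d
  · subst h
    simp [flip_self]
  · rw [flip_ne h, flip_ne h]

theorem avg_flip (c : Γ) (G : Bool → (Γ → Bool) → ℝ) (hG : ∀ b ε, G b (flip c ε) = G b ε) :
    𝔼 ε, G (ε c) ε = 𝔼 ε, (G true ε + G false ε) / 2 := by
  have h1 : 𝔼 ε, G (ε c) ε = 𝔼 ε, G (!ε c) ε :=
    Fintype.expect_equiv (flip_invol c).toPerm _ _ fun ε => by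
      simp [flip_self, hG]
  have h2 : 𝔼 ε, (G true ε + G false ε) / 2 = 𝔼 ε, (G (ε c) ε + G (!ε c) ε) / 2 :=
    expect_congr rfl fun ε _ => by cases ε c <;> simp [add_comm]
  rw [h2, ← expect_div, expect_add_distrib, ← h1]
  ring

/-- Ordered product of factors, each depending on one sign. -/
def evalF (l : List (Γ × (Bool → A))) (ε : Γ → Bool) : A := (l.map fun p => p.2 (ε p.1)).prod

/-- The same product with only the kept factors. -/
def evalK (keep : Γ → Prop) [DecidablePred keep] (l : List (Γ × (Bool → A))) (ε : Γ → Bool) : A :=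
  (l.map fun p => if keep p.1 then p.2 (ε p.1) else 1).prod

omit [Fintype Γ] in
theorem evalF_flip {l : List (Γ × (Bool → A))} {c : Γ} (h : ∀ p ∈ l, c ≠ p.1) (ε : Γ → Bool) :
    evalF l (flip c ε) = evalF l ε := by
  unfold evalF
  congr 1
  exact List.map_congr_left fun p hp => by rw [flip_ne (h p hp)]

omit [Fintype Γ] [DecidableEq Γ] in
theorem norm_evalF_le [Nontrivial A] {l : List (Γ × (Bool → A))}
    (h : ∀ p ∈ l, ∀ b, ‖p.2 b‖ ≤ 1) (ε : Γ → Bool) : ‖evalF l ε‖ ≤ 1 := by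
  induction l with
  | nil => simp [evalF]
  | cons p l ih =>
    refine (norm_mul_le _ _).trans (mul_le_one₀ (h p (by simp) _) (norm_nonneg _) ?_)
    exact ih fun q hq => h q (by simp [hq])

theorem replace_list [Nontrivial A] (φ : A →ₗ[ℝ] ℝ) {c e : ℝ} (hc : 0 ≤ c) (he : 0 ≤ e)
    (hφ : ∀ x, |φ x| ≤ c * ‖x‖) (keep : Γ → Prop) [DecidablePred keep]
    (l : List (Γ × (Bool → A))) (hn : ∀ p ∈ l, ∀ b, ‖p.2 b‖ ≤ 1)
    (hm : ∀ p ∈ l, ¬keep p.1 → ‖(2⁻¹ : ℝ) • (p.2 true + p.2 false) - 1‖ ≤ e)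
    (hp : l.Pairwise fun p q => ¬keep p.1 → p.1 ≠ q.1)
    (L : (Γ → Bool) → A) (hL : ∀ ε, ‖L ε‖ ≤ 1)
    (hL' : ∀ p ∈ l, ¬keep p.1 → ∀ ε, L (flip p.1 ε) = L ε) :
    |𝔼 ε, φ (L ε * evalF l ε) - 𝔼 ε, φ (L ε * evalK keep l ε)| ≤ c * e * l.length := by
  induction l generalizing L with
  | nil => simp [evalF, evalK]
  | cons p l ih =>
    rw [List.pairwise_cons] at hp
    have hn' : ∀ q ∈ l, ∀ b, ‖q.2 b‖ ≤ 1 := fun q hq => hn q (by simp [hq])
    have hm' : ∀ q ∈ l, ¬keep q.1 → ‖(2⁻¹ : ℝ) • (q.2 true + q.2 false) - 1‖ ≤ e :=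
      fun q hq => hm q (by simp [hq])
    have eF : ∀ ε, evalF (p :: l) ε = p.2 (ε p.1) * evalF l ε := fun ε => rfl
    have hce : 0 ≤ c * e := mul_nonneg hc he
    rw [List.length_cons, Nat.cast_succ, mul_add, mul_one]
    by_cases hk : keep p.1
    · have eK : ∀ ε, evalK keep (p :: l) ε = p.2 (ε p.1) * evalK keep l ε := fun ε => by
        simp [evalK, hk]
      simp only [eF, eK, ← mul_assoc]
      refine (ih hn' hm' hp.2 (fun ε => L ε * p.2 (ε p.1)) (fun ε => ?_) fun q hq hkq ε => ?_).trans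
        (le_add_of_nonneg_right hce)
      · exact (norm_mul_le _ _).trans (mul_le_one₀ (hL ε) (norm_nonneg _) (hn p (by simp) _))
      · rw [hL' q (by simp [hq]) hkq, flip_ne fun h : q.1 = p.1 => hkq (h ▸ hk)]
    · have eK : ∀ ε, evalK keep (p :: l) ε = evalK keep l ε := fun ε => by simp [evalK, hk]
      have h1 := ih hn' hm' hp.2 L hL fun q hq => hL' q (by simp [hq])
      have h2 : 𝔼 ε, φ (L ε * evalF (p :: l) ε) =
          𝔼 ε, (φ (L ε * (p.2 true * evalF l ε)) + φ (L ε * (p.2 false * evalF l ε))) / 2 :=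
        avg_flip p.1 (fun b ε => φ (L ε * (p.2 b * evalF l ε))) fun b ε => by
          rw [hL' p (by simp) hk, evalF_flip fun q hq => hp.1 q hq hk]
      have h3 : |𝔼 ε, φ (L ε * evalF (p :: l) ε) - 𝔼 ε, φ (L ε * evalF l ε)| ≤ c * e := by
        rw [h2, ← expect_sub_distrib]
        refine (abs_expect_le _ _).trans (expect_le univ_nonempty fun ε _ => ?_)
        have e1 : (φ (L ε * (p.2 true * evalF l ε)) + φ (L ε * (p.2 false * evalF l ε))) / 2 -
            φ (L ε * evalF l ε) =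
            φ (L ε * (((2⁻¹ : ℝ) • (p.2 true + p.2 false) - 1) * evalF l ε)) := by
          simp only [sub_mul, mul_sub, add_mul, mul_add, smul_mul_assoc, mul_smul_comm, one_mul,
            map_sub, map_add, map_smul, smul_eq_mul, smul_add]
          ring
        rw [e1]
        refine (hφ _).trans (mul_le_mul_of_nonneg_left ?_ hc)
        refine (norm_mul_le _ _).trans ((mul_le_of_le_one_left (norm_nonneg _) (hL ε)).trans ?_)
        exact (norm_mul_le _ _).trans ((mul_le_of_le_one_right (norm_nonneg _)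
          (norm_evalF_le hn' ε)).trans (hm p (by simp) hk))
      simp only [eK]
      have h4 := abs_sub_le (𝔼 ε, φ (L ε * evalF (p :: l) ε)) (𝔼 ε, φ (L ε * evalF l ε))
        (𝔼 ε, φ (L ε * evalK keep l ε))
      linarith

end Vale.Agent.P085
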