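import Vale.Agent.P085.Improve

/-! A generic pair of contractions generates, together with the Pauli operators. -/

namespace Vale.Agent.P085

open Filter Topology ComplexStarModule

variable {A : Type*} [CStarAlgebra A] (T : Tr A) (W : Paulis A)

/-- Resolvents of the real and imaginary parts. -/
noncomputable def rpair (a : A) : T.L2 × T.L2 := (T.ι (res (ℜ a : A)), T.ι (res (ℑ a : A)))

/-- The complete metric space of pairs. -/
def pairs : Set (T.L2 × T.L2) := closure (Set.range (rpair T))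

/-- The C*-algebra generated by a pair and the Pauli operators. -/
noncomputable def gen (U : T.L2 × T.L2) : StarSubalgebra ℂ A :=
  (StarAlgebra.adjoin ℂ ({T.ι.symm U.1, T.ι.symm U.2} ∪ W.set)).topologicalClosure

theorem gen_closed (U : T.L2 × T.L2) : IsClosed (gen T W U : Set A) :=
  StarSubalgebra.isClosed_topologicalClosure _

theorem subset_gen (U : T.L2 × T.L2) : {T.ι.symm U.1, T.ι.symm U.2} ∪ W.set ⊆ gen T W U :=
  (StarAlgebra.subset_adjoin ℂ _).trans (StarSubalgebra.le_topologicalClosure _)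

theorem mem_gen_rpair (a : A) : a ∈ gen T W (rpair T a) := by
  have h1 := mem_of_res_mem (ℜ a).2 (gen_closed T W (rpair T a))
    (subset_gen T W _ (Or.inl (Or.inl rfl)))
  have h2 := mem_of_res_mem (ℑ a).2 (gen_closed T W (rpair T a))
    (subset_gen T W _ (Or.inl (Or.inr rfl)))
  have h3 := add_mem h1 (SMulMemClass.smul_mem Complex.I h2)
  rwa [realPart_add_I_smul_imaginaryPart] at h3

theorem n2_re_le (x : A) : T.n2 (ℜ x : A) ≤ T.n2 x := by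
  have := T.n2_add_le x (star x)
  rw [T.n2_star] at this
  rw [realPart_apply_coe, T.n2_real_smul, abs_of_nonneg (by norm_num)]
  linarith

theorem n2_im_le (x : A) : T.n2 (ℑ x : A) ≤ T.n2 x := by
  have := T.n2_sub_le x (star x)
  rw [T.n2_star] at this
  rw [imaginaryPart_apply_coe, T.n2_smul, T.n2_real_smul, abs_of_nonneg (by norm_num), norm_neg,
    Complex.norm_I]
  linarith

theorem dist_rpair (a a' : A) : dist (rpair T a) (rpair T a') ≤ T.n2 (a - a') := by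
  rw [Prod.dist_eq, max_le_iff]
  constructor
  · refine (T.dist_ι _ _).trans_le ((n2_res_sub T (ℜ a).2 (ℜ a').2).trans ?_)
    simpa using n2_re_le T (a - a')
  · refine (T.dist_ι _ _).trans_le ((n2_res_sub T (ℑ a).2 (ℑ a').2).trans ?_)
    simpa using n2_im_le T (a - a')

theorem tendsto_n2_iff {x : ℕ → A} {z : A} :
    Tendsto (fun n => T.n2 (x n - z)) atTop (𝓝 0) ↔
      Tendsto (fun n => T.ι (x n)) atTop (𝓝 (T.ι z)) := by
  rw [tendsto_iff_dist_tendsto_zero (a := T.ι z)]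
  simp only [T.dist_ι]

variable {T} in
theorem norm_pairs {U : T.L2 × T.L2} (hU : U ∈ pairs T) :
    ‖T.ι.symm U.1‖ ≤ 1 ∧ ‖T.ι.symm U.2‖ ≤ 1 := by
  obtain ⟨x, hx, hlim⟩ := mem_closure_iff_seq_limit.1 hU
  choose a ha using hx
  obtain rfl : (fun n => rpair T (a n)) = x := funext ha
  exact ⟨T.norm_le_one_of_tendsto (fun n => norm_res_le (ℜ (a n)).2)
      ((tendsto_n2_iff T).2 ((continuous_fst.tendsto U).comp hlim)),
    T.norm_le_one_of_tendsto (fun n => norm_res_le (ℑ (a n)).2)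
      ((tendsto_n2_iff T).2 ((continuous_snd.tendsto U).comp hlim))⟩

theorem complete_pairs (hT : T.Complete) : CompleteSpace (pairs T) := by
  refine Metric.complete_of_cauchySeq_tendsto fun u hu => ?_
  have hu' : CauchySeq fun n => (u n).1 := uniformContinuous_subtype_val.comp_cauchySeq hu
  obtain ⟨z₁, h₁⟩ := hT (fun n => T.ι.symm (u n).1.1) (fun n => (norm_pairs (u n).2).1)
    (uniformContinuous_fst.comp_cauchySeq hu')
  obtain ⟨z₂, h₂⟩ := hT (fun n => T.ι.symm (u n).1.2) (fun n => (norm_pairs (u n).2).2)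
    (uniformContinuous_snd.comp_cauchySeq hu')
  have h : Tendsto (fun n => (u n).1) atTop (𝓝 (T.ι z₁, T.ι z₂)) :=
    ((tendsto_n2_iff T).1 h₁).prodMk_nhds ((tendsto_n2_iff T).1 h₂)
  exact ⟨⟨_, isClosed_closure.mem_of_tendsto h (Eventually.of_forall fun n => (u n).2)⟩,
    tendsto_subtype_rng.2 h⟩

theorem exists_lip (U : pairs T) {x : A}
    (hx : x ∈ StarAlgebra.adjoin ℂ ({T.ι.symm U.1.1, T.ι.symm U.1.2} ∪ W.set)) :
    ∃ (φ : pairs T → A) (C L : ℝ), 0 ≤ L ∧ φ U = x ∧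
      ∀ V : pairs T, φ V ∈ gen T W V ∧ ‖φ V‖ ≤ C ∧ T.n2 (φ U - φ V) ≤ L * dist U V := by
  have const : ∀ y : A, (∀ V : pairs T, y ∈ gen T W V) → ∃ (φ : pairs T → A) (C L : ℝ),
      0 ≤ L ∧ φ U = y ∧
      ∀ V : pairs T, φ V ∈ gen T W V ∧ ‖φ V‖ ≤ C ∧ T.n2 (φ U - φ V) ≤ L * dist U V :=
    fun y hy => ⟨fun _ => y, ‖y‖, 0, le_rfl, rfl, fun V => ⟨hy V, le_rfl, by simp⟩⟩
  induction hx using StarAlgebra.adjoin_induction with
  | mem x hx =>
    rcases hx with (rfl | rfl) | hx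
    · refine ⟨fun V => T.ι.symm V.1.1, 1, 1, zero_le_one, rfl, fun V =>
        ⟨subset_gen T W _ (Or.inl (Or.inl rfl)), (norm_pairs V.2).1, ?_⟩⟩
      rw [one_mul, ← T.dist_ι]
      exact le_max_left _ _
    · refine ⟨fun V => T.ι.symm V.1.2, 1, 1, zero_le_one, rfl, fun V =>
        ⟨subset_gen T W _ (Or.inl (Or.inr rfl)), (norm_pairs V.2).2, ?_⟩⟩
      rw [one_mul, ← T.dist_ι]
      exact le_max_right _ _
    · exact const x fun V => subset_gen T W _ (Or.inr hx)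
  | algebraMap r => exact const _ fun V => (gen T W V).algebraMap_mem r
  | add x y _ _ ihx ihy =>
    obtain ⟨φ, C, L, hL, rfl, h⟩ := ihx
    obtain ⟨ψ, C', L', hL', rfl, h'⟩ := ihy
    refine ⟨fun V => φ V + ψ V, C + C', L + L', add_nonneg hL hL', rfl, fun V =>
      ⟨add_mem (h V).1 (h' V).1, norm_add_le_of_le (h V).2.1 (h' V).2.1, ?_⟩⟩
    rw [add_sub_add_comm, add_mul]
    exact (T.n2_add_le _ _).trans (add_le_add (h V).2.2 (h' V).2.2)
  | mul x y _ _ ihx ihy =>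
    obtain ⟨φ, C, L, hL, rfl, h⟩ := ihx
    obtain ⟨ψ, C', L', hL', rfl, h'⟩ := ihy
    have hC : 0 ≤ C := (norm_nonneg _).trans (h U).2.1
    have hC' : 0 ≤ C' := (norm_nonneg _).trans (h' U).2.1
    refine ⟨fun V => φ V * ψ V, C * C', L * C' + C * L', by positivity, rfl, fun V =>
      ⟨mul_mem (h V).1 (h' V).1, norm_mul_le_of_le (h V).2.1 (h' V).2.1, ?_⟩⟩
    rw [show φ U * ψ U - φ V * ψ V = (φ U - φ V) * ψ U + φ V * (ψ U - ψ V) by noncomm_ring]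
    have h1 := (T.n2_mul_le' (φ U - φ V) (ψ U)).trans
      (mul_le_mul (h V).2.2 (h' U).2.1 (norm_nonneg _) (by positivity))
    have h2 := (T.n2_mul_le (φ V) (ψ U - ψ V)).trans
      (mul_le_mul (h V).2.1 (h' V).2.2 (T.n2_nonneg _) hC)
    exact (T.n2_add_le _ _).trans (by linarith)
  | star x _ ih =>
    obtain ⟨φ, C, L, hL, rfl, h⟩ := ih
    exact ⟨fun V => star (φ V), C, L, hL, rfl, fun V => ⟨star_mem (h V).1,
      by rw [norm_star]; exact (h V).2.1, by rw [← star_sub, T.n2_star]; exact (h V).2.2⟩⟩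

theorem approx_near (U : pairs T) {x : A} (hx : x ∈ gen T W U) {η : ℝ} (hη : 0 < η) :
    ∃ ρ > 0, ∀ V : pairs T, dist U V < ρ → ∃ x' ∈ gen T W V, T.n2 (x - x') < η := by
  obtain ⟨x₀, hx₀, hd⟩ := Metric.mem_closure_iff.1 hx (η / 2) (by positivity)
  obtain ⟨φ, C, L, hL, rfl, h⟩ := exists_lip T W U hx₀
  refine ⟨η / 2 / (L + 1), by positivity, fun V hV => ⟨φ V, (h V).1, ?_⟩⟩
  rw [lt_div_iff₀ (by positivity)] at hV
  rw [dist_eq_norm] at hd
  have h1 := T.n2_triangle x (φ U) (φ V)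
  have h2 := T.n2_le_norm (x - φ U)
  have h3 := (h V).2.2
  have h4 : 0 ≤ dist U V := dist_nonneg
  linarith

/-- Pairs whose algebra approximates `b` within `δ`. -/
def good (b : A) (δ : ℝ) : Set (pairs T) := {U | ∃ x ∈ gen T W U, T.n2 (b - x) < δ}

theorem isOpen_good (b : A) (δ : ℝ) : IsOpen (good T W b δ) := by
  refine Metric.isOpen_iff.2 fun U ⟨x, hx, hbx⟩ => ?_
  obtain ⟨ρ, hρ, h⟩ := approx_near T W U hx (sub_pos.2 hbx)
  refine ⟨ρ, hρ, fun V hV => ?_⟩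
  obtain ⟨x', hx', h'⟩ := h V (Metric.mem_ball'.1 hV)
  exact ⟨x', hx', by linarith [T.n2_triangle b x x']⟩

theorem exists_rescale (b x : A) : ∃ s : ℝ, T.n2 (b - s • x) ≤ T.n2 (b - x) ∧
    T.n2 (b - s • x) ≤ T.n2 b ∧ T.n2 (b - s • x) ^ 2 ≤ T.ip (b - s • x) b := by
  by_cases h0 : T.n2 x = 0
  · obtain rfl := T.eq_zero_of_n2 h0
    exact ⟨0, by simp, by simp, by simp [T.n2_sq]⟩
  have hpos : 0 < T.n2 x ^ 2 := pow_pos ((T.n2_nonneg x).lt_of_ne' h0) 2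
  obtain ⟨s, hs⟩ : ∃ s : ℝ, s * T.n2 x ^ 2 = T.ip b x := ⟨_, div_mul_cancel₀ _ hpos.ne'⟩
  have e : T.n2 (b - s • x) ^ 2 = T.n2 b ^ 2 - s ^ 2 * T.n2 x ^ 2 := by
    rw [T.n2_sub_sq, T.ip_smul_right, T.n2_real_smul, mul_pow, sq_abs, ← hs]
    ring
  refine ⟨s, ?_, ?_, ?_⟩
  · rw [← sq_le_sq₀ (T.n2_nonneg _) (T.n2_nonneg _), e, T.n2_sub_sq, ← hs]
    nlinarith [mul_nonneg (sq_nonneg (s - 1)) hpos.le]
  · rw [← sq_le_sq₀ (T.n2_nonneg _) (T.n2_nonneg _), e]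
    nlinarith [mul_nonneg (sq_nonneg s) hpos.le]
  · rw [e, T.ip_sub_left, T.ip_smul_left, T.ip_comm x b, ← hs, ← T.n2_sq]
    linarith

theorem dense_good {b : A} (hb : ‖b‖ ≤ 1) {δ : ℝ} (hδ : 0 < δ) : Dense (good T W b δ) := by
  refine dense_iff_inter_open.2 fun O hO ⟨U₀, hU₀⟩ => ?_
  by_contra hcon
  have hb2 : T.n2 b ≤ 1 := (T.n2_le_norm b).trans hb
  set D : Set ℝ := {r | ∃ U ∈ O, ∃ x ∈ gen T W U, r = T.n2 (b - x)} with hD
  have hne : D.Nonempty := ⟨_, U₀, hU₀, 0, zero_mem _, rfl⟩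
  have hlb : ∀ r ∈ D, δ ≤ r := by
    rintro r ⟨U, hU, x, hx, rfl⟩
    exact not_lt.1 fun h => hcon ⟨U, hU, x, hx, h⟩
  have hinf : ∀ r ∈ D, sInf D ≤ r := fun r hr => csInf_le ⟨δ, hlb⟩ hr
  have hd : δ ≤ sInf D := le_csInf hne hlb
  have hd1 : sInf D ≤ 1 := (hinf _ ⟨U₀, hU₀, 0, zero_mem _, rfl⟩).trans (by simpa using hb2)
  obtain ⟨γ, hγ, hγ'⟩ : ∃ γ : ℝ, 0 < γ ∧ γ = δ ^ 5 / 12288 := ⟨_, by positivity, rfl⟩
  have hγδ : γ ≤ δ := by
    have h1 : δ ^ 5 ≤ δ := pow_le_of_le_one hδ.le (hd.trans hd1) (by norm_num)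
    rw [hγ']
    linarith
  have hlt : sInf D < √(sInf D ^ 2 + γ ^ 2 / 2) :=
    Real.lt_sqrt_of_sq_lt (lt_add_of_pos_right _ (by positivity))
  obtain ⟨_, ⟨U, hU, x, hx, rfl⟩, hbx⟩ := exists_lt_of_csInf_lt hne hlt
  obtain ⟨ρ₀, hρ₀, hball⟩ := Metric.isOpen_iff.1 (hO.inter (isOpen_good T W b _)) U ⟨hU, x, hx, hbx⟩
  obtain ⟨_, ⟨a, rfl⟩, ha⟩ := Metric.mem_closure_iff.1 U.2 ρ₀ hρ₀
  let Φ : A → pairs T := fun a => ⟨rpair T a, subset_closure ⟨a, rfl⟩⟩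
  obtain ⟨haO, x₁, hx₁, hbx₁⟩ := hball (show Φ a ∈ Metric.ball U ρ₀ from Metric.mem_ball'.2 ha)
  obtain ⟨s, hs1, hs2, hs3⟩ := exists_rescale T b x₁
  have hx₀ : s • x₁ ∈ gen T W (Φ a) := by
    rw [← Complex.coe_smul]
    exact SMulMemClass.smul_mem _ hx₁
  have hy : sInf D ≤ T.n2 (b - s • x₁) := hinf _ ⟨_, haO, _, hx₀, rfl⟩
  obtain ⟨ρ₁, hρ₁, hnear⟩ := approx_near T W (Φ a) hx₀ (η := γ ^ 2 / 4) (by positivity)
  obtain ⟨ρ₂, hρ₂, hball₂⟩ := Metric.isOpen_iff.1 hO _ haO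
  obtain ⟨a', u, ha', hu, hyu, hS⟩ := improve T W hδ a b (b - s • x₁) hb (hd.trans hy)
    (hs2.trans hb2) hs3 (lt_min hρ₁ hρ₂)
  have hdist : dist (Φ a) (Φ a') < min ρ₁ ρ₂ := (dist_rpair T a a').trans_lt ha'
  obtain ⟨x', hx', hxx'⟩ := hnear (Φ a') (hdist.trans_le (min_le_left _ _))
  have hu' : γ • u ∈ gen T W (Φ a') := by
    rw [← Complex.coe_smul]
    exact SMulMemClass.smul_mem _ (hS _ (gen_closed T W _)
      (Set.subset_union_right.trans (subset_gen T W _)) (mem_gen_rpair T W a'))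
  have h1 := hinf _ ⟨Φ a', hball₂ (Metric.mem_ball'.2 (hdist.trans_le (min_le_right _ _))), _,
    add_mem hx' hu', rfl⟩
  have h2 : T.n2 (b - s • x₁ - γ • u) < sInf D - γ ^ 2 / 4 := by
    have h3 : T.n2 (b - s • x₁) ^ 2 < sInf D ^ 2 + γ ^ 2 / 2 :=
      (Real.lt_sqrt (T.n2_nonneg _)).1 (hs1.trans_lt hbx₁)
    have h4 : T.n2 u ^ 2 ≤ 1 := pow_le_one₀ (T.n2_nonneg _) hu
    have h5 := mul_le_mul_of_nonneg_left (hγ'.trans_le hyu) hγ.le
    have h6 := mul_le_mul_of_nonneg_left h4 (sq_nonneg γ)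
    have h7 := mul_le_mul_of_nonneg_left hd1 (sq_nonneg γ)
    have h8 : γ ^ 2 ≤ γ := pow_le_of_le_one hγ.le (by linarith) two_ne_zero
    refine lt_of_pow_lt_pow_left₀ 2 (by linarith) ?_
    rw [T.n2_sub_sq, T.ip_smul_right, T.n2_real_smul, mul_pow, sq_abs]
    nlinarith [sq_nonneg (γ ^ 2)]
  have h3 := T.n2_add_le (b - s • x₁ - γ • u) (s • x₁ - x')
  rw [show b - s • x₁ - γ • u + (s • x₁ - x') = b - (x' + γ • u) by abel] at h3
  linarith

/-- Two contractions and the Pauli operators generate. -/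
theorem exists_pair (hT : T.Complete) {B : Set A} (hB : B.Countable) :
    ∃ U₁ U₂ : A, ‖U₁‖ ≤ 1 ∧ ‖U₂‖ ≤ 1 ∧ ∀ S : StarSubalgebra ℂ A, IsClosed (S : Set A) →
      U₁ ∈ S → U₂ ∈ S → W.set ⊆ S → ∀ b ∈ B, ∀ ε > 0, ∃ y ∈ S, T.n2 (b - y) < ε := by
  have := complete_pairs T hT
  have := hB.to_subtype
  have : Nonempty (pairs T) := ⟨⟨rpair T 0, subset_closure ⟨0, rfl⟩⟩⟩
  have hsc : ∀ b : A, ‖(‖b‖ + 1)⁻¹ • b‖ ≤ 1 := fun b => by
    rw [norm_smul, Real.norm_of_nonneg (by positivity), inv_mul_le_iff₀ (by positivity)]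
    linarith
  obtain ⟨U, hU⟩ := (dense_iInter_of_isOpen
    (f := fun i : B × ℕ => good T W ((‖i.1.1‖ + 1)⁻¹ • i.1.1) (1 / (i.2 + 1)))
    (fun i => isOpen_good T W _ _) fun i => dense_good T W (hsc _) (by positivity)).nonempty
  refine ⟨_, _, (norm_pairs U.2).1, (norm_pairs U.2).2, fun S hS h1 h2 hW b hb ε hε => ?_⟩
  have hle : gen T W U ≤ S := StarSubalgebra.topologicalClosure_minimal
    (StarAlgebra.adjoin_le (Set.union_subset (Set.pair_subset h1 h2) hW)) hS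
  have hb0 : 0 < ‖b‖ + 1 := by positivity
  obtain ⟨n, hn⟩ := exists_nat_one_div_lt (div_pos hε hb0)
  obtain ⟨x, hx, hbx⟩ := Set.mem_iInter.1 hU (⟨b, hb⟩, n)
  refine ⟨((‖b‖ + 1 : ℝ) : ℂ) • x, SMulMemClass.smul_mem _ (hle hx), ?_⟩
  have e : b - ((‖b‖ + 1 : ℝ) : ℂ) • x = (‖b‖ + 1) • ((‖b‖ + 1)⁻¹ • b - x) := by
    rw [smul_sub, smul_inv_smul₀ hb0.ne', Complex.coe_smul]
  rw [e, T.n2_real_smul, abs_of_pos hb0, ← lt_div_iff₀' hb0]
  exact hbx.trans hn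

end Vale.Agent.P085
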