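import Vale.Agent.P085.Weak

/-! Concrete von Neumann algebras with an order-normal faithful trace. -/

open scoped ComplexOrder InnerProductSpace
open Filter Topology ContinuousLinearMapWOT

namespace Vale.Agent.P085

open Vale.Agent.P070

variable {H : Type*} [NormedAddCommGroup H] [InnerProductSpace ℂ H] [CompleteSpace H]
variable {M : VonNeumannAlgebra H} {τ : M.toStarSubalgebra →L[ℂ] ℂ}

/-- Order normality. -/
def Nml (τ : M.toStarSubalgebra →L[ℂ] ℂ) : Prop :=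
  ∀ (D : Set M.toStarSubalgebra) (a : M.toStarSubalgebra), D.Nonempty → DirectedOn (· ≤ ·) D →
    (∀ x ∈ D, 0 ≤ x) → IsLUB D a → IsLUB ((fun x => (τ x).re) '' D) (τ a).re

theorem tr_le_of_coe_le (h : IsFT τ) {x y : M.toStarSubalgebra} (hxy : (x : H →L[ℂ] H) ≤ y) :
    tr τ x ≤ tr τ y := by
  have h0 := sub_nonneg.2 hxy
  let z : M.toStarSubalgebra := ⟨cfc Real.sqrt ((y : H →L[ℂ] H) - x),
    cfc_mem (s := M.toStarSubalgebra) _ (sub_mem y.2 x.2)⟩
  have hz : star z * z = y - x := by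
    apply Subtype.ext
    change star (cfc Real.sqrt ((y : H →L[ℂ] H) - x)) * cfc Real.sqrt ((y : H →L[ℂ] H) - x) =
      (y : H →L[ℂ] H) - x
    rw [(IsSelfAdjoint.cfc (f := Real.sqrt)).star_eq, ← cfc_mul _ _ _ (by fun_prop) (by fun_prop)]
    conv_rhs => rw [← cfc_id' ℝ ((y : H →L[ℂ] H) - x)]
    exact cfc_congr fun t ht => Real.mul_self_sqrt (spectrum_nonneg_of_nonneg h0 ht)
  have := nn_sq h z
  rw [hz, tr_sub] at this
  nlinarith [sq_nonneg (nn τ z)]

/-- Dominating sums of squares of increments. -/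
noncomputable def dom {R : Type*} [CStarAlgebra R] (d : ℕ → R) : ℕ → ℕ → R
  | 0, _ => 0
  | K + 1, N => star (d N) * d N + dom d K (N + 1) + (star (d N) * d N + dom d K (N + 1))

theorem nn_sub_wlim (h : IsFT τ) (hn : Nml τ) {f : ℕ → M.toStarSubalgebra} (hf : ∀ n, ‖f n‖ ≤ 1)
    (hc : ∀ n, nn τ (f (n + 1) - f n) ≤ 2⁻¹ ^ n) {x : M.toStarSubalgebra}
    (hx : WLim (fun n => (f n : H →L[ℂ] H)) x) (N : ℕ) :
    nn τ (f N - x) ^ 2 ≤ 20 * 4⁻¹ ^ N := by
  let d : ℕ → M.toStarSubalgebra := fun n => f (n + 1) - f n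
  let s : ℕ → ℕ → H →L[ℂ] H := fun K N => (dom d K N : M.toStarSubalgebra)
  have hs : ∀ K N, s (K + 1) N = star (d N : H →L[ℂ] H) * d N + s K (N + 1) +
      (star (d N : H →L[ℂ] H) * d N + s K (N + 1)) := fun K N => rfl
  have hs0 : ∀ K N, 0 ≤ s K N := by
    intro K
    induction K with
    | zero => intro N; exact le_rfl
    | succ K ih =>
      intro N
      have := add_nonneg (star_mul_self_nonneg (d N : H →L[ℂ] H)) (ih (N + 1))
      exact add_nonneg this this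
  have hs1 : ∀ K N, s K N ≤ s (K + 1) N := by
    intro K
    induction K with
    | zero => intro N; exact hs0 1 N
    | succ K ih =>
      intro N
      have := ih (N + 1)
      rw [hs, hs (K + 1)]
      gcongr
  have hs2 : ∀ K N, tr τ (dom d K N) ≤ 4 * 4⁻¹ ^ N := by
    intro K
    induction K with
    | zero => intro N; rw [dom, tr_zero]; positivity
    | succ K ih =>
      intro N
      have h3 := ih (N + 1)
      have h4 : nn τ (d N) ^ 2 ≤ 4⁻¹ ^ N := by
        calc _ ≤ ((2 : ℝ)⁻¹ ^ N) ^ 2 := pow_le_pow_left₀ (nn_nonneg _) (hc N) 2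
          _ = _ := by rw [← pow_mul, mul_comm, pow_mul]; norm_num
      rw [dom, tr_add, tr_add, ← nn_sq h]
      rw [pow_succ] at h3
      linarith
  have hs3 : ∀ K N, star ((f (N + K) : H →L[ℂ] H) - f N) * (f (N + K) - f N) ≤ s K N := by
    intro K
    induction K with
    | zero => intro N; simpa using hs0 0 N
    | succ K ih =>
      intro N
      have h3 : (f (N + (K + 1)) : H →L[ℂ] H) - f N = d N + (f (N + 1 + K) - f (N + 1)) := by
        rw [show N + (K + 1) = N + 1 + K by ring]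
        simp [d]
      have h4 := ih (N + 1)
      rw [h3, hs]
      refine (star_add_mul_le _ _).trans ?_
      gcongr
  let w : ℕ → M.toStarSubalgebra := fun K =>
    ⟨bt (s K N), cfc_mem (s := M.toStarSubalgebra) _ (dom d K N).2⟩
  have hwm : Monotone w := monotone_nat_of_le_succ fun K => bt_mono (hs0 K N) (hs1 K N)
  obtain ⟨W, hW⟩ := exists_wlim (f := fun K => (w K : H →L[ℂ] H)) fun K => norm_bt_le (hs0 K N)
  have hWM : W ∈ M := hW.mem (isClosed_vN M) fun K => (w K).2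
  have hub : ∀ K, (w K : H →L[ℂ] H) ≤ W := fun K =>
    sub_nonneg.1 ((hW.sub (WLim.const _)).nonneg
      ((eventually_ge_atTop K).mono fun K' hK => sub_nonneg.2 (hwm hK)))
  have hlub : IsLUB (Set.range w) ⟨W, hWM⟩ := by
    refine ⟨by rintro _ ⟨K, rfl⟩; exact hub K, fun u hu => ?_⟩
    exact sub_nonneg.1 (((WLim.const (u : H →L[ℂ] H)).sub hW).nonneg
      (Eventually.of_forall fun K => sub_nonneg.2 (hu ⟨K, rfl⟩)))
  have hW4 : tr τ ⟨W, hWM⟩ ≤ 4 * 4⁻¹ ^ N := by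
    refine (hn _ _ (Set.range_nonempty w) (hwm.directed_le.directedOn_range) ?_ hlub).2 ?_
    · rintro _ ⟨K, rfl⟩; exact bt_nonneg (hs0 K N)
    · rintro _ ⟨_, ⟨K, rfl⟩, rfl⟩
      exact (tr_le_of_coe_le h (bt_le (hs0 K N))).trans (hs2 K N)
  set y : H →L[ℂ] H := x - f N with hy
  have hz : WLim (fun n => (f n : H →L[ℂ] H) - (f N : H →L[ℂ] H)) y := hx.sub (WLim.const _)
  have h5 : 0 ≤ (5 : ℝ) • W - (star y * y + star (star y * y) - star y * y) := by
    refine ((WLim.const _).sub (((hz.const_mul _).add (hz.const_mul _).star').sub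
      (WLim.const _))).nonneg ((eventually_ge_atTop N).mono fun n hn => ?_)
    obtain ⟨K, rfl⟩ := Nat.exists_eq_add_of_le hn
    set z : H →L[ℂ] H := f (N + K) - f N with hz
    have h3 : ‖z‖ ≤ 2 := (norm_sub_le_of_le (hf _) (hf _)).trans (by norm_num)
    have h4 : star z * z ≤ (5 : ℝ) • W := by
      refine (le_bt (star_mul_self_nonneg z) ?_).trans (smul_le_smul_of_nonneg_left
        ((bt_mono (star_mul_self_nonneg z) (hs3 K N)).trans (hub K)) (by norm_num))
      rw [CStarRing.norm_star_mul_self]; nlinarith [norm_nonneg z]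
    have h6 := add_nonneg (sub_nonneg.2 h4) (star_mul_self_nonneg (z - y))
    convert h6 using 1
    simp only [star_sub, star_mul, star_star]
    noncomm_ring
  rw [star_mul, star_star, add_sub_cancel_right, sub_nonneg] at h5
  have h6 := tr_le_of_coe_le h (x := star (x - f N) * (x - f N)) (y := (5 : ℝ) • ⟨W, hWM⟩) h5
  rw [tr_smul, ← nn_sq h, nn_sub_comm h] at h6
  linarith

theorem exists_lim_mem (h : IsFT τ) (hn : Nml τ) {f : ℕ → M.toStarSubalgebra}
    (hf : ∀ n, ‖f n‖ ≤ 1) (hc : ∀ ε > 0, ∃ N, ∀ m ≥ N, ∀ n ≥ N, nn τ (f m - f n) ≤ ε) :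
    ∃ x, Lim τ f x ∧ ∀ S : Set (H →L[ℂ] H), IsClosed ((ofCLM : _ → H →WOT[ℂ] H) '' S) →
      (∀ n, (f n : H →L[ℂ] H) ∈ S) → (x : H →L[ℂ] H) ∈ S := by
  obtain ⟨φ, hφ, hφ'⟩ := extraction_forall_of_eventually'
    (P := fun k n => ∀ m ≥ n, nn τ (f m - f n) ≤ 2⁻¹ ^ k) fun k => by
      obtain ⟨N, hN⟩ := hc (2⁻¹ ^ k) (by positivity)
      exact ⟨N, fun n hn m hm => hN m (hn.trans hm) n hn⟩
  obtain ⟨x, hx⟩ := exists_wlim (f := fun n => (f (φ n) : H →L[ℂ] H)) fun n => hf (φ n)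
  have hxM : x ∈ M := hx.mem (isClosed_vN M) fun n => (f (φ n)).2
  have h1 := nn_sub_wlim h hn (f := fun n => f (φ n)) (fun n => hf _)
    (fun n => hφ' n _ (hφ.monotone n.le_succ)) (x := ⟨x, hxM⟩) hx
  refine ⟨⟨x, hxM⟩, ⟨⟨1, hf⟩, ?_⟩, fun S hS hfS => hx.mem hS fun n => hfS _⟩
  refine Metric.tendsto_atTop.2 fun ε hε => ?_
  obtain ⟨k, hk⟩ := exists_pow_lt_of_lt_one (show 0 < ε / 6 by positivity)
    (show (2 : ℝ)⁻¹ < 1 by norm_num)
  refine ⟨φ k, fun n hn => ?_⟩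
  have h2 := hφ' k n hn
  have h3 : nn τ (f (φ k) - ⟨x, hxM⟩) ≤ 5 * 2⁻¹ ^ k := by
    refine (pow_le_pow_iff_left₀ (nn_nonneg _) (by positivity) two_ne_zero).1 ((h1 k).trans ?_)
    rw [mul_pow, ← pow_mul, mul_comm k, pow_mul]
    gcongr <;> norm_num
  rw [Real.dist_eq, sub_zero, abs_of_nonneg (nn_nonneg _)]
  linarith [nn_triangle h (f n) (f (φ k)) ⟨x, hxM⟩]

theorem exists_countable_gen [TopologicalSpace.SeparableSpace H] (M : VonNeumannAlgebra H) :
    ∃ B : Set M.toStarSubalgebra, B.Countable ∧ ∀ S : StarSubalgebra ℂ (H →L[ℂ] H),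
      IsClosed ((ofCLM : _ → H →WOT[ℂ] H) '' S) → (∀ b ∈ B, (b : H →L[ℂ] H) ∈ S) →
      ∀ x ∈ M, x ∈ S := by
  have : SecondCountableTopology H := UniformSpace.secondCountable_of_separable H
  let ξ := TopologicalSpace.denseSeq H
  let Φ : M.toStarSubalgebra → ℕ → H := fun x k => (x : H →L[ℂ] H) (ξ k)
  obtain ⟨t, ht1, ht2, ht3⟩ := (TopologicalSpace.IsSeparable.of_separableSpace
    (Φ '' {x | ‖x‖ ≤ 1})).exists_countable_dense_subset
  obtain ⟨B, hB2, hB4, hB3⟩ := Set.SurjOn.exists_subset_injOn_image_eq ht1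
  have hB1 : B.Countable := Set.countable_of_injective_of_countable_image hB4 (hB3 ▸ ht2)
  refine ⟨B, hB1, fun S hS hBS => ?_⟩
  have key : ∀ x : M.toStarSubalgebra, ‖x‖ ≤ 1 → (x : H →L[ℂ] H) ∈ S := by
    intro x hx
    obtain ⟨u, hu, hlim⟩ := mem_closure_iff_seq_limit.1 (ht3 ⟨x, hx, rfl⟩)
    rw [← hB3] at hu
    choose b hb hbu using hu
    have h1 : ∀ k, Tendsto (fun n => (b n : H →L[ℂ] H) (ξ k)) atTop (𝓝 ((x : H →L[ℂ] H) (ξ k))) :=
      fun k => ((continuous_apply k).tendsto _ |>.comp hlim).congr fun n => by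
        rw [Function.comp_apply, ← hbu n]
    have h2 : ∀ η, Tendsto (fun n => (b n : H →L[ℂ] H) η) atTop (𝓝 ((x : H →L[ℂ] H) η)) := by
      intro η
      refine Metric.tendsto_atTop.2 fun ε hε => ?_
      obtain ⟨k, hk⟩ := (TopologicalSpace.denseRange_denseSeq H).exists_dist_lt η
        (show 0 < ε / 3 by positivity)
      obtain ⟨N, hN⟩ := Metric.tendsto_atTop.1 (h1 k) (ε / 3) (by positivity)
      refine ⟨N, fun n hn => ?_⟩
      have h3 : ∀ y : M.toStarSubalgebra, ‖y‖ ≤ 1 →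
          dist ((y : H →L[ℂ] H) η) ((y : H →L[ℂ] H) (ξ k)) < ε / 3 := fun y hy =>
        ((y : H →L[ℂ] H).dist_le_opNorm _ _).trans_lt
          ((mul_le_of_le_one_left dist_nonneg hy).trans_lt hk)
      have h4 := h3 (b n) (hB2 (hb n))
      have h5 := h3 x hx
      have h6 := dist_triangle4 ((b n : H →L[ℂ] H) η) ((b n : H →L[ℂ] H) (ξ k))
        ((x : H →L[ℂ] H) (ξ k)) ((x : H →L[ℂ] H) η)
      rw [dist_comm] at h5
      linarith [hN n hn]
    refine WLim.mem hS (f := fun n => b n) ?_ fun n => hBS _ (hb n)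
    refine (tendsto_iff_forall_inner_apply_tendsto.2 fun η ζ => ?_).mono_left
      (Nat.cofinite_eq_atTop ▸ hyperfilter_le_cofinite : (hyperfilter ℕ : Filter ℕ) ≤ atTop)
    exact tendsto_const_nhds.inner (h2 η)
  intro x hx
  have h1 := key (((‖x‖ + 1 : ℝ) : ℂ)⁻¹ • ⟨x, hx⟩) (by
    rw [norm_smul, norm_inv, Complex.norm_real, Real.norm_of_nonneg (by positivity),
      inv_mul_le_iff₀ (by positivity), mul_one]
    exact le_add_of_nonneg_right zero_le_one)
  have h2 := SMulMemClass.smul_mem ((‖x‖ + 1 : ℝ) : ℂ) h1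
  change _ • _ • x ∈ S at h2
  rwa [smul_inv_smul₀ (Complex.ofReal_ne_zero.2 (by positivity))] at h2

end Vale.Agent.P085
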