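import Vale.Agent.P070.Basic

/-! The `L²` norm of a faithful trace, bounded `L²` limits, and abstract finite factors. -/

open scoped ComplexOrder InnerProductSpace
open Filter Topology

namespace Vale.Agent.P085

open Vale.Agent.P070

universe u

variable {R : Type u} [CStarAlgebra R] {τ : R →L[ℂ] ℂ}

/-- The `L²` norm. -/
noncomputable def nn (τ : R →L[ℂ] ℂ) (x : R) : ℝ := √(n2 τ x)

/-- The real part of the trace. -/
noncomputable def tr (τ : R →L[ℂ] ℂ) (x : R) : ℝ := (τ x).re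

theorem nn_nonneg (x : R) : 0 ≤ nn τ x := Real.sqrt_nonneg _

theorem tr_add (x y : R) : tr τ (x + y) = tr τ x + tr τ y := by simp [tr]

theorem tr_sub (x y : R) : tr τ (x - y) = tr τ x - tr τ y := by simp [tr]

theorem tr_zero : tr τ (0 : R) = 0 := by simp [tr]

theorem tr_smul (c : ℝ) (x : R) : tr τ (c • x) = c * tr τ x := by
  rw [tr, tr, ← Complex.coe_smul, map_smul, smul_eq_mul, Complex.re_ofReal_mul]

theorem nn_zero : nn τ (0 : R) = 0 := by simp [nn, n2]

section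

variable (h : IsFT τ)
include h

theorem nn_sq (x : R) : nn τ x ^ 2 = tr τ (star x * x) := Real.sq_sqrt (h.n2_nonneg x)

theorem tr_one : tr τ (1 : R) = 1 := by simp [tr, h.map_one]

theorem tr_comm (x y : R) : tr τ (x * y) = tr τ (y * x) := by rw [tr, h.comm, tr]

theorem tr_star (x : R) : tr τ (star x) = tr τ x := by simp [tr, h.map_star]

theorem exists_emb : ∃ (H : Type u) (_ : NormedAddCommGroup H) (_ : InnerProductSpace ℂ H)
    (Λ : R →ₗ[ℂ] H), ∀ x, nn τ x = ‖Λ x‖ := by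
  obtain ⟨H, _, _, _, Ω, ι, hι, -⟩ := h.exists_gns
  refine ⟨H, inferInstance, inferInstance,
    { toFun := fun x => ι x Ω, map_add' := by simp, map_smul' := by simp }, fun x => ?_⟩
  rw [nn, ← gns_norm_sq hι, Real.sqrt_sq (norm_nonneg _)]
  rfl

theorem nn_add_le (x y : R) : nn τ (x + y) ≤ nn τ x + nn τ y := by
  obtain ⟨H, _, _, Λ, hΛ⟩ := exists_emb h
  simp only [hΛ, map_add]
  exact norm_add_le _ _

theorem nn_smul (c : ℂ) (x : R) : nn τ (c • x) = ‖c‖ * nn τ x := by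
  obtain ⟨H, _, _, Λ, hΛ⟩ := exists_emb h
  simp only [hΛ, map_smul, norm_smul]

theorem nn_neg (x : R) : nn τ (-x) = nn τ x := by
  obtain ⟨H, _, _, Λ, hΛ⟩ := exists_emb h
  simp only [hΛ, map_neg, norm_neg]

theorem nn_sub_comm (x y : R) : nn τ (x - y) = nn τ (y - x) := by
  rw [← nn_neg h, neg_sub]

theorem nn_sub_le (x y : R) : nn τ (x - y) ≤ nn τ x + nn τ y := by
  rw [sub_eq_add_neg, ← nn_neg h y]; exact nn_add_le h _ _

theorem nn_triangle (x y z : R) : nn τ (x - z) ≤ nn τ (x - y) + nn τ (y - z) := by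
  simpa using nn_add_le h (x - y) (y - z)

theorem nn_sum_le {ι : Type*} (s : Finset ι) (f : ι → R) :
    nn τ (∑ i ∈ s, f i) ≤ ∑ i ∈ s, nn τ (f i) := by
  obtain ⟨H, _, _, Λ, hΛ⟩ := exists_emb h
  simp only [hΛ, map_sum]
  exact norm_sum_le _ _

theorem nn_star (x : R) : nn τ (star x) = nn τ x := by rw [nn, h.n2_star, nn]

theorem nn_mul_le (x y : R) : nn τ (x * y) ≤ ‖x‖ * nn τ y := by
  rw [nn, nn, ← Real.sqrt_sq (norm_nonneg x), ← Real.sqrt_mul (sq_nonneg _)]
  exact Real.sqrt_le_sqrt (h.n2_mul_le x y)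

theorem nn_mul_le' (x y : R) : nn τ (x * y) ≤ nn τ x * ‖y‖ := by
  rw [← nn_star h, star_mul, mul_comm, ← norm_star y, ← nn_star h x]
  exact nn_mul_le h _ _

theorem nn_one : nn τ (1 : R) = 1 := by simp [nn, n2, h.map_one]

theorem nn_le_norm (x : R) : nn τ x ≤ ‖x‖ := by
  simpa [nn_one h] using nn_mul_le h x 1

theorem norm_tr_le (x : R) : ‖τ x‖ ≤ nn τ x := by
  have := h.norm_star_mul_le 1 x
  rwa [star_one, one_mul, ← nn, ← nn, nn_one h, one_mul] at this

theorem eq_zero_of_nn {x : R} (hx : nn τ x = 0) : x = 0 :=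
  h.eq_zero_of_n2 (by rw [← Real.sq_sqrt (h.n2_nonneg x), ← nn, hx]; simp)

theorem nn_mul_unit {u : R} (hu : ‖u‖ ≤ 1) (x : R) : nn τ (u * x) ≤ nn τ x :=
  (nn_mul_le h u x).trans (mul_le_of_le_one_left (nn_nonneg x) hu)

theorem nn_mul_unit' {u : R} (hu : ‖u‖ ≤ 1) (x : R) : nn τ (x * u) ≤ nn τ x :=
  (nn_mul_le' h x u).trans (mul_le_of_le_one_right (nn_nonneg x) hu)

theorem tr_proj {p : R} (hp : IsStarProjection p) : tr τ p = ‖τ p‖ := by
  rw [tr, ← h.ofReal_norm_proj hp, Complex.ofReal_re, Complex.norm_real, norm_norm]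

theorem ofReal_tr {p : R} (hp : IsStarProjection p) : (tr τ p : ℂ) = τ p := by
  rw [tr_proj h hp, h.ofReal_norm_proj hp]

theorem tr_nonneg {p : R} (hp : IsStarProjection p) : 0 ≤ tr τ p := by
  rw [tr_proj h hp]; exact norm_nonneg _

theorem tr_le_one {p : R} (hp : IsStarProjection p) : tr τ p ≤ 1 := by
  rw [tr_proj h hp]; exact (h.norm_le p).trans hp.norm_le

theorem nn_sq_proj {p : R} (hp : IsStarProjection p) : nn τ p ^ 2 = tr τ p := by
  rw [nn_sq h, hp.isSelfAdjoint.star_eq, hp.isIdempotentElem.eq]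

theorem eq_zero_of_tr {p : R} (hp : IsStarProjection p) (h0 : tr τ p ≤ 0) : p = 0 := by
  refine eq_zero_of_nn h ?_
  have := nn_sq_proj h hp
  nlinarith [sq_nonneg (nn τ p), nn_nonneg (τ := τ) p]

theorem tr_pos {p : R} (hp : IsStarProjection p) (h0 : p ≠ 0) : 0 < tr τ p :=
  lt_of_not_ge fun hle => h0 (eq_zero_of_tr h hp hle)

theorem norm_tr_proj_mul {p : R} (hp : IsStarProjection p) (x : R) :
    ‖τ (p * x)‖ ≤ ‖x‖ * tr τ p := by
  rw [tr_proj h hp]; exact h.norm_proj_mul_le' hp x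

theorem tr_mono {p q : R} (hp : IsStarProjection p) (hq : IsStarProjection q) (hpq : q * p = p) :
    tr τ p ≤ tr τ q := by
  have h1 := norm_tr_proj_mul h hq p
  rw [hpq, ← tr_proj h hp] at h1
  exact h1.trans (mul_le_of_le_one_left (tr_nonneg h hq) hp.norm_le)

end

theorem proj_comm {p q : R} (hp : IsStarProjection p) (hq : IsStarProjection q)
    (hpq : q * p = p) : p * q = p := by
  have := congrArg star hpq
  rwa [star_mul, hp.isSelfAdjoint.star_eq, hq.isSelfAdjoint.star_eq] at this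

theorem proj_sub {p q : R} (hp : IsStarProjection p) (hq : IsStarProjection q)
    (hpq : q * p = p) : IsStarProjection (q - p) := by
  refine ⟨?_, hq.isSelfAdjoint.sub hp.isSelfAdjoint⟩
  rw [IsIdempotentElem, mul_sub, sub_mul, sub_mul, hpq, proj_comm hp hq hpq,
    hq.isIdempotentElem.eq, hp.isIdempotentElem.eq, sub_self, sub_zero]

/-- Bounded convergence in `L²`. -/
structure Lim (τ : R →L[ℂ] ℂ) (f : ℕ → R) (x : R) : Prop where
  bdd : ∃ C, ∀ n, ‖f n‖ ≤ C
  lim : Tendsto (fun n => nn τ (f n - x)) atTop (𝓝 0)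

namespace Lim

variable {f g : ℕ → R} {x y : R}

theorem const (x : R) : Lim τ (fun _ => x) x :=
  ⟨⟨‖x‖, fun _ => le_rfl⟩, by simp [nn_zero]⟩

theorem add (h : IsFT τ) (hf : Lim τ f x) (hg : Lim τ g y) :
    Lim τ (fun n => f n + g n) (x + y) := by
  obtain ⟨C, hC⟩ := hf.bdd
  obtain ⟨D, hD⟩ := hg.bdd
  refine ⟨⟨C + D, fun n => norm_add_le_of_le (hC n) (hD n)⟩, ?_⟩
  refine squeeze_zero (fun _ => nn_nonneg _) (fun n => ?_) (by simpa using hf.lim.add hg.lim)
  rw [add_sub_add_comm]; exact nn_add_le h _ _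

theorem mul (h : IsFT τ) (hf : Lim τ f x) (hg : Lim τ g y) :
    Lim τ (fun n => f n * g n) (x * y) := by
  obtain ⟨C, hC⟩ := hf.bdd
  obtain ⟨D, hD⟩ := hg.bdd
  have hC0 : 0 ≤ C := (norm_nonneg _).trans (hC 0)
  refine ⟨⟨C * D, fun n => norm_mul_le_of_le (hC n) (hD n)⟩, ?_⟩
  refine squeeze_zero (fun _ => nn_nonneg _) (fun n => ?_)
    (by simpa using (hg.lim.const_mul C).add (hf.lim.mul_const ‖y‖))
  have : f n * g n - x * y = f n * (g n - y) + (f n - x) * y := by noncomm_ring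
  rw [this]
  refine (nn_add_le h _ _).trans (add_le_add ((nn_mul_le h _ _).trans ?_) (nn_mul_le' h _ _))
  exact mul_le_mul_of_nonneg_right (hC n) (nn_nonneg _)

theorem star' (h : IsFT τ) (hf : Lim τ f x) : Lim τ (fun n => star (f n)) (star x) := by
  obtain ⟨C, hC⟩ := hf.bdd
  refine ⟨⟨C, fun n => by simpa using hC n⟩, ?_⟩
  simpa only [← star_sub, nn_star h] using hf.lim

theorem tendsto (h : IsFT τ) (hf : Lim τ f x) : Tendsto (fun n => τ (f n)) atTop (𝓝 (τ x)) := by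
  rw [tendsto_iff_norm_sub_tendsto_zero]
  refine squeeze_zero (fun _ => norm_nonneg _) (fun n => ?_) hf.lim
  rw [← map_sub]; exact norm_tr_le h _

theorem tendsto_tr (h : IsFT τ) (hf : Lim τ f x) :
    Tendsto (fun n => tr τ (f n)) atTop (𝓝 (tr τ x)) :=
  (Complex.continuous_re.tendsto _).comp (hf.tendsto h)

theorem unique (h : IsFT τ) (hf : Lim τ f x) (hg : Lim τ g y) (hfg : ∀ᶠ n in atTop, f n = g n) :
    x = y := by
  rw [← sub_eq_zero]
  refine eq_zero_of_nn h (le_antisymm ?_ (nn_nonneg _))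
  refine ge_of_tendsto (by simpa using hf.lim.add hg.lim) ?_
  filter_upwards [hfg] with n hn
  rw [nn_sub_comm h (f n), hn]; exact nn_triangle h _ _ _

theorem unique' (h : IsFT τ) (hf : Lim τ f x) (hg : Lim τ g y) (hfg : ∀ n, f n = g n) : x = y :=
  hf.unique h hg (Eventually.of_forall hfg)

theorem nn_le (h : IsFT τ) (hf : Lim τ f x) {c : ℝ} (hc : ∀ᶠ n in atTop, nn τ (f n - y) ≤ c) :
    nn τ (x - y) ≤ c := by
  refine ge_of_tendsto (by simpa using hf.lim.add_const c) ?_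
  filter_upwards [hc] with n hn
  have := nn_triangle h x (f n) y
  rw [nn_sub_comm h x (f n)] at this
  linarith

end Lim

/-- An abstract finite factor: the unit ball is complete in `L²` and the centre is trivial. -/
structure IsTF (τ : R →L[ℂ] ℂ) : Prop extends IsFT τ where
  complete : ∀ f : ℕ → R, (∀ n, ‖f n‖ ≤ 1) →
    (∀ ε > 0, ∃ N, ∀ m ≥ N, ∀ n ≥ N, nn τ (f m - f n) ≤ ε) → ∃ x, Lim τ f x
  factor : ∀ z : R, (∀ x, x * z = z * x) → ∃ c : ℂ, z = c • 1
  infdim : ¬ FiniteDimensional ℂ R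

theorem IsTF.exists_lim (h : IsTF τ) {f : ℕ → R} (hf : ∀ n, ‖f n‖ ≤ 1) {t : ℕ → ℝ}
    (ht : Monotone t) {C : ℝ} (hC : ∀ n, t n ≤ C)
    (hft : ∀ n m, n ≤ m → nn τ (f m - f n) ^ 2 ≤ t m - t n) : ∃ x, Lim τ f x := by
  have hconv := tendsto_atTop_ciSup ht ⟨C, by rintro _ ⟨n, rfl⟩; exact hC n⟩
  refine h.complete f hf fun ε hε => ?_
  obtain ⟨N, hN⟩ := Metric.cauchySeq_iff.1 hconv.cauchySeq (ε ^ 2) (by positivity)
  have key : ∀ m ≥ N, ∀ n ≥ N, n ≤ m → nn τ (f m - f n) ≤ ε := by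
    intro m hm n hn hnm
    have h1 := hN m hm n hn
    rw [Real.dist_eq] at h1
    exact (pow_le_pow_iff_left₀ (nn_nonneg _) hε.le two_ne_zero).1
      ((hft n m hnm).trans ((le_abs_self _).trans h1.le))
  refine ⟨N, fun m hm n hn => ?_⟩
  rcases le_total n m with hnm | hnm
  · exact key m hm n hn hnm
  · rw [nn_sub_comm h.toIsFT]; exact key n hn m hm hnm

/-- Exhaustion principle. -/
theorem exists_maximal {α : Type*} (le : α → α → Prop) (hrefl : ∀ a, le a a) (t : α → ℝ) {C : ℝ}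
    (hC : ∀ a, t a ≤ C) (htrans : ∀ a b c, le a b → le b c → le a c)
    (hmono : ∀ a b, le a b → t a ≤ t b)
    (hch : ∀ f : ℕ → α, (∀ n m, n ≤ m → le (f n) (f m)) → ∃ b, ∀ n, le (f n) b) (a₀ : α) :
    ∃ a, ∀ b, le a b → t b ≤ t a := by
  have step : ∀ (n : ℕ) (a : α), ∃ b, le a b ∧ ∀ c, le a c → t c ≤ t b + 1 / ((n : ℝ) + 1) := by
    intro n a
    have hbd : BddAbove (t '' {c | le a c}) := ⟨C, by rintro _ ⟨c, -, rfl⟩; exact hC c⟩
    have hne : (t '' {c | le a c}).Nonempty := ⟨_, a, hrefl a, rfl⟩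
    have hpos : (0 : ℝ) < 1 / ((n : ℝ) + 1) := by positivity
    obtain ⟨_, ⟨b, hb, rfl⟩, hb'⟩ := exists_lt_of_lt_csSup hne (sub_lt_self _ hpos)
    exact ⟨b, hb, fun c hc => by have := le_csSup hbd ⟨c, hc, rfl⟩; linarith⟩
  choose g hg using step
  let f : ℕ → α := fun n => Nat.rec a₀ g n
  have hf : ∀ n m, n ≤ m → le (f n) (f m) := by
    intro n m hnm
    induction m, hnm using Nat.le_induction with
    | base => exact hrefl _
    | succ m _ ih => exact htrans _ _ _ ih (hg m (f m)).1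
  obtain ⟨a, ha⟩ := hch f hf
  refine ⟨a, fun b hb => ?_⟩
  refine ge_of_tendsto' (by simpa using tendsto_one_div_add_atTop_nhds_zero_nat.const_add (t a))
    fun n => ?_
  have h1 := (hg n (f n)).2 b (htrans _ _ _ (ha n) hb)
  have h2 : t (g n (f n)) ≤ t a := hmono _ _ (ha (n + 1))
  simp only [one_div] at h1
  linarith

end Vale.Agent.P085
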