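import Vale.Agent.P085.Peel
import Vale.Agent.P085.Norm

/-! Single generation in the two-norm for abstract finite factors with a Pauli tower. -/

namespace Vale.Agent.P085

universe u

theorem single_gen {R : Type u} [CStarAlgebra R] {τ : R →L[ℂ] ℂ} (h : IsTF τ) (X Z : ℕ → R)
    (hXs : ∀ i, star (X i) = X i) (hZs : ∀ i, star (Z i) = Z i) (hX2 : ∀ i, X i * X i = 1)
    (hZ2 : ∀ i, Z i * Z i = 1) (hanti : ∀ i, X i * Z i = -(Z i * X i))
    (hXX : ∀ i j, X i * X j = X j * X i) (hZZ : ∀ i j, Z i * Z j = Z j * Z i)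
    (hXZ : ∀ i j, i ≠ j → X i * Z j = Z j * X i) (B : Set R) (hB : B.Countable) :
    ∃ x : R, ∀ S : StarSubalgebra ℂ R, IsClosed (S : Set R) → x ∈ S →
      ∀ b ∈ B, ∀ ε > 0, ∃ y ∈ S, nn τ (b - y) ≤ ε := by
  let T : Tr R := ⟨τ.toLinearMap, h.map_one, h.nonneg, h.comm, h.faithful⟩
  have hT : T.Complete := fun f hf hc => by
    obtain ⟨z, hz⟩ := h.complete f hf fun ε hε => by
      obtain ⟨N, hN⟩ := Metric.cauchySeq_iff.1 hc ε hε
      exact ⟨N, fun m hm n hn => ((T.dist_ι _ _).symm.trans_lt (hN m hm n hn)).le⟩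
    exact ⟨z, hz.lim⟩
  obtain ⟨x, hx⟩ := exists_generator T hT ⟨X, Z, hXs, hZs, hX2, hZ2, hanti, hXX, hZZ, hXZ⟩ hB
  refine ⟨x, fun S hS hxS b hb ε hε => ?_⟩
  obtain ⟨y, hy, hy'⟩ := hx S hS hxS b hb ε hε
  exact ⟨y, hy, hy'.le⟩

end Vale.Agent.P085
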