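import Mathlib

/-! Tracial C*-algebras and their two-norm. -/

namespace Vale.Agent.P085

open scoped ComplexOrder ComplexConjugate
open Filter Topology

/-- A faithful tracial state. -/
structure Tr (A : Type*) [CStarAlgebra A] where
  τ : A →ₗ[ℂ] ℂ
  one : τ 1 = 1
  pos : ∀ x, 0 ≤ τ (star x * x)
  comm : ∀ x y, τ (x * y) = τ (y * x)
  faithful : ∀ x, τ (star x * x) = 0 → x = 0

/-- Infinitely many mutually commuting pairs of anticommuting symmetries. -/
structure Paulis (A : Type*) [CStarAlgebra A] where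
  X : ℕ → A
  Z : ℕ → A
  X_star : ∀ i, star (X i) = X i
  Z_star : ∀ i, star (Z i) = Z i
  X_sq : ∀ i, X i * X i = 1
  Z_sq : ∀ i, Z i * Z i = 1
  anti : ∀ i, X i * Z i = -(Z i * X i)
  XX : ∀ i j, X i * X j = X j * X i
  ZZ : ∀ i j, Z i * Z j = Z j * Z i
  XZ : ∀ i j, i ≠ j → X i * Z j = Z j * X i

namespace Tr

variable {A : Type*} [CStarAlgebra A] (T : Tr A)

theorem τ_star (x : A) : T.τ (star x) = conj (T.τ x) := by
  have h1 := (Complex.nonneg_iff.1 (T.pos (1 + x))).2
  have h2 := (Complex.nonneg_iff.1 (T.pos (1 + Complex.I • x))).2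
  have h3 := (Complex.nonneg_iff.1 (T.pos x)).2
  simp only [star_add, star_one, add_mul, mul_add, one_mul, mul_one, map_add, T.one, star_smul,
    smul_mul_assoc, mul_smul_comm, map_smul, smul_eq_mul, Complex.add_im, Complex.one_im,
    Complex.mul_im, Complex.star_def, Complex.conj_re, Complex.conj_im, Complex.I_re,
    Complex.I_im, Complex.mul_re] at h1 h2
  apply Complex.ext
  · rw [Complex.conj_re]; linarith
  · rw [Complex.conj_im]; linarith

/-- The algebra with the inner product of the trace. -/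
def L2 (_T : Tr A) : Type _ := A

instance : AddCommGroup T.L2 := inferInstanceAs (AddCommGroup A)
instance : Module ℂ T.L2 := inferInstanceAs (Module ℂ A)

/-- The identity map. -/
noncomputable def ι : A ≃ₗ[ℂ] T.L2 := LinearEquiv.refl ℂ A

/-- The inner product. -/
@[reducible] noncomputable def core : InnerProductSpace.Core ℂ T.L2 where
  inner x y := T.τ (star (T.ι.symm x) * T.ι.symm y)
  conj_inner_symm x y := by rw [← T.τ_star, star_mul, star_star]
  re_inner_nonneg x := (Complex.nonneg_iff.1 (T.pos _)).1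
  add_left x y z := by simp [add_mul]
  smul_left x y r := by simp
  definite x h := T.faithful _ h

noncomputable instance : NormedAddCommGroup T.L2 :=
  @InnerProductSpace.Core.toNormedAddCommGroup ℂ T.L2 _ _ _ T.core

noncomputable instance : InnerProductSpace ℂ T.L2 := InnerProductSpace.ofCore T.core.toCore

/-- The two-norm. -/
noncomputable def n2 (x : A) : ℝ := ‖T.ι x‖

/-- The real inner product. -/
noncomputable def ip (x y : A) : ℝ := (T.τ (star x * y)).re

/-- The unit ball is complete for the two-norm. -/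
def Complete : Prop :=
  ∀ x : ℕ → A, (∀ n, ‖x n‖ ≤ 1) → CauchySeq (fun n => T.ι (x n)) →
    ∃ z, Tendsto (fun n => T.n2 (x n - z)) atTop (𝓝 0)

/-- Restriction to a closed subalgebra. -/
noncomputable def restrict (S : StarSubalgebra ℂ A) [IsClosed (S : Set A)] : Tr S where
  τ := T.τ ∘ₗ S.toSubalgebra.val.toLinearMap
  one := T.one
  pos x := T.pos x
  comm x y := T.comm x y
  faithful x h := Subtype.ext (T.faithful x h)

theorem inner_ι (x y : A) : inner ℂ (T.ι x) (T.ι y) = T.τ (star x * y) := rfl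

theorem ip_eq (x y : A) : T.ip x y = (inner ℂ (T.ι x) (T.ι y)).re := rfl

theorem n2_sq (x : A) : T.n2 x ^ 2 = T.ip x x := by
  rw [n2, ip_eq, ← inner_self_eq_norm_sq (𝕜 := ℂ)]
  rfl

theorem n2_nonneg (x : A) : 0 ≤ T.n2 x := norm_nonneg _

theorem dist_ι (x y : A) : dist (T.ι x) (T.ι y) = T.n2 (x - y) := by
  rw [dist_eq_norm, n2, map_sub]

theorem n2_restrict (S : StarSubalgebra ℂ A) [IsClosed (S : Set A)] (x : S) :
    (T.restrict S).n2 x = T.n2 x := rfl

theorem ip_restrict (S : StarSubalgebra ℂ A) [IsClosed (S : Set A)] (x y : S) :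
    (T.restrict S).ip x y = T.ip x y := rfl

@[simp] theorem n2_zero : T.n2 0 = 0 := by simp [n2]

theorem eq_zero_of_n2 {x : A} (h : T.n2 x = 0) : x = 0 := by
  simpa [n2] using h

theorem n2_add_le (x y : A) : T.n2 (x + y) ≤ T.n2 x + T.n2 y := by
  rw [n2, map_add]; exact norm_add_le _ _

theorem n2_neg (x : A) : T.n2 (-x) = T.n2 x := by rw [n2, map_neg, norm_neg, n2]

theorem n2_sub_comm (x y : A) : T.n2 (x - y) = T.n2 (y - x) := by rw [← T.n2_neg, neg_sub]

theorem n2_sub_le (x y : A) : T.n2 (x - y) ≤ T.n2 x + T.n2 y := by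
  rw [n2, map_sub]; exact norm_sub_le _ _

theorem n2_triangle (x y z : A) : T.n2 (x - z) ≤ T.n2 (x - y) + T.n2 (y - z) := by
  simpa using T.n2_add_le (x - y) (y - z)

theorem n2_smul (c : ℂ) (x : A) : T.n2 (c • x) = ‖c‖ * T.n2 x := by
  rw [n2, map_smul, norm_smul, n2]

theorem n2_real_smul (c : ℝ) (x : A) : T.n2 (c • x) = |c| * T.n2 x := by
  rw [← Complex.coe_smul, n2_smul, Complex.norm_real, Real.norm_eq_abs]

theorem ip_comm (x y : A) : T.ip x y = T.ip y x := by
  rw [ip, ip, ← Complex.conj_re, ← T.τ_star, star_mul, star_star]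

theorem ip_add_right (x y z : A) : T.ip x (y + z) = T.ip x y + T.ip x z := by
  simp [ip, mul_add]

theorem ip_sub_right (x y z : A) : T.ip x (y - z) = T.ip x y - T.ip x z := by
  simp [ip, mul_sub]

theorem ip_add_left (x y z : A) : T.ip (x + y) z = T.ip x z + T.ip y z := by
  simp [ip, add_mul]

theorem ip_sub_left (x y z : A) : T.ip (x - y) z = T.ip x z - T.ip y z := by
  simp [ip, sub_mul]

theorem ip_smul_right (c : ℝ) (x y : A) : T.ip x (c • y) = c * T.ip x y := by
  rw [ip, ← Complex.coe_smul, mul_smul_comm, map_smul, smul_eq_mul, Complex.re_ofReal_mul, ip]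

theorem ip_smul_left (c : ℝ) (x y : A) : T.ip (c • x) y = c * T.ip x y := by
  rw [ip_comm, ip_smul_right, ip_comm]

theorem ip_sum_right {ι : Type*} (s : Finset ι) (x : A) (y : ι → A) :
    T.ip x (∑ i ∈ s, y i) = ∑ i ∈ s, T.ip x (y i) := by
  simp [ip, Finset.mul_sum]

theorem abs_ip_le (x y : A) : |T.ip x y| ≤ T.n2 x * T.n2 y :=
  (Complex.abs_re_le_norm _).trans (norm_inner_le_norm (𝕜 := ℂ) (T.ι x) (T.ι y))

theorem ip_le (x y : A) : T.ip x y ≤ T.n2 x * T.n2 y := (le_abs_self _).trans (T.abs_ip_le x y)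

theorem n2_add_sq (x y : A) : T.n2 (x + y) ^ 2 = T.n2 x ^ 2 + 2 * T.ip x y + T.n2 y ^ 2 := by
  rw [n2_sq, n2_sq, n2_sq, ip_add_left, ip_add_right, ip_add_right, T.ip_comm y x]
  ring

theorem n2_sub_sq (x y : A) : T.n2 (x - y) ^ 2 = T.n2 x ^ 2 - 2 * T.ip x y + T.n2 y ^ 2 := by
  rw [n2_sq, n2_sq, n2_sq, ip_sub_left, ip_sub_right, ip_sub_right, T.ip_comm y x]
  ring

theorem n2_star (x : A) : T.n2 (star x) = T.n2 x := by
  rw [← sq_eq_sq₀ (T.n2_nonneg _) (T.n2_nonneg _), n2_sq, n2_sq, ip, ip, star_star, T.comm]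

theorem n2_one : T.n2 1 = 1 := by
  rw [← sq_eq_sq₀ (T.n2_nonneg _) zero_le_one, n2_sq, ip, star_one, one_mul, T.one]
  simp

theorem n2_mul_le (a x : A) : T.n2 (a * x) ≤ ‖a‖ * T.n2 x := by
  let := CStarAlgebra.spectralOrder A
  have := CStarAlgebra.spectralOrderedRing A
  obtain ⟨c, hc⟩ := CStarAlgebra.nonneg_iff_eq_star_mul_self.1
    (sub_nonneg.2 (CStarAlgebra.star_mul_le_algebraMap_norm_sq (a := a)))
  have h := (Complex.nonneg_iff.1 (T.pos (c * x))).1
  rw [star_mul, mul_assoc, ← mul_assoc (star c), ← hc, sub_mul, mul_sub, map_sub, Complex.sub_re,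
    Algebra.algebraMap_eq_smul_one, smul_one_mul] at h
  rw [← sq_le_sq₀ (T.n2_nonneg _) (mul_nonneg (norm_nonneg _) (T.n2_nonneg _)), mul_pow, n2_sq,
    n2_sq, ← T.ip_smul_right, ip, ip, star_mul, mul_assoc, ← mul_assoc (star a)]
  linarith

theorem n2_mul_le' (x a : A) : T.n2 (x * a) ≤ T.n2 x * ‖a‖ := by
  rw [← T.n2_star, star_mul, mul_comm, ← T.n2_star x, ← norm_star a]
  exact T.n2_mul_le _ _

theorem n2_le_norm (x : A) : T.n2 x ≤ ‖x‖ := by
  simpa [n2_one] using T.n2_mul_le x 1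

theorem abs_ip_le_norm (x y : A) : |T.ip x y| ≤ T.n2 x * ‖y‖ :=
  (T.abs_ip_le x y).trans (mul_le_mul_of_nonneg_left (T.n2_le_norm y) (T.n2_nonneg x))

theorem abs_re_τ_le (x : A) : |(T.τ x).re| ≤ ‖x‖ := by
  simpa [ip, n2_one] using T.abs_ip_le_norm 1 x

include T in
theorem nontrivial : Nontrivial A :=
  ⟨⟨1, 0, fun h => by simpa [h] using T.one⟩⟩

/-- The trace of a nonnegative function of a self-adjoint element is nonnegative. -/
theorem re_τ_cfc_nonneg {h : A} (f : ℝ → ℝ) (hf : ∀ s ∈ spectrum ℝ h, 0 ≤ f s) :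
    0 ≤ (T.τ (cfc f h)).re := by
  let := CStarAlgebra.spectralOrder A
  have := CStarAlgebra.spectralOrderedRing A
  obtain ⟨c, hc⟩ := CStarAlgebra.nonneg_iff_eq_star_mul_self.1 (cfc_nonneg hf)
  rw [hc]
  exact (Complex.nonneg_iff.1 (T.pos c)).1

/-- The operator norm is seen by the two-norm. -/
theorem norm_le_one_of_n2 {z : A} (hz : ∀ x, T.n2 (z * x) ≤ T.n2 x) : ‖z‖ ≤ 1 := by
  have hh : IsSelfAdjoint (star z * z) := .star_mul_self z
  let f : ℝ → ℝ := fun s => max (s - 1) 0
  have hf : Continuous f := by fun_prop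
  have hx : IsSelfAdjoint (cfc f (star z * z)) := cfc_predicate _ _
  have h1 := pow_le_pow_left₀ (T.n2_nonneg _) (hz (cfc f (star z * z))) 2
  let g : ℝ → ℝ := fun s => f s * √(f s)
  have hg : Continuous g := by fun_prop
  have e : star (cfc g (star z * z)) * cfc g (star z * z) =
      star (z * cfc f (star z * z)) * (z * cfc f (star z * z)) -
        star (cfc f (star z * z)) * cfc f (star z * z) := by
    have hy : IsSelfAdjoint (cfc g (star z * z)) := cfc_predicate _ _
    rw [hy.star_eq, star_mul, hx.star_eq, mul_assoc, ← mul_assoc (star z)]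
    nth_rw 4 [← cfc_id' ℝ (star z * z)]
    rw [← cfc_mul .., ← cfc_mul .., ← cfc_mul .., ← cfc_mul .., ← cfc_sub ..]
    refine cfc_congr fun s _ => ?_
    have h0 : 0 ≤ f s := le_max_right _ _
    have h2 : √(f s) * √(f s) = f s := Real.mul_self_sqrt h0
    have h3 : f s * f s = (s - 1) * f s := by
      simp only [f]
      rcases le_total (s - 1) 0 with h | h
      · simp [max_eq_right h]
      · simp [max_eq_left h]
    simp only [g]
    linear_combination (f s * f s) * h2 + f s * h3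
  have h2 : cfc g (star z * z) = 0 := by
    refine T.eq_zero_of_n2 (pow_eq_zero_iff two_ne_zero |>.1 (le_antisymm ?_ (sq_nonneg _)))
    rw [n2_sq, n2_sq, ip, ip] at h1
    rw [n2_sq, ip, e, map_sub, Complex.sub_re]
    linarith
  have := T.nontrivial
  have h3 := eqOn_of_cfc_eq_cfc (f := g) (g := 0) (h2.trans (cfc_zero ℝ _).symm)
    hg.continuousOn continuousOn_const hh
  let := CStarAlgebra.spectralOrder A
  have := CStarAlgebra.spectralOrderedRing A
  have h4 := h3 (CStarAlgebra.norm_mem_spectrum_of_nonneg (star_mul_self_nonneg z))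
  rw [CStarRing.norm_star_mul_self] at h4
  by_contra hlt
  have h5 : 0 < ‖z‖ * ‖z‖ - 1 := by nlinarith [not_le.1 hlt]
  have h6 : 0 < f (‖z‖ * ‖z‖) := lt_max_of_lt_left h5
  exact (mul_pos h6 (Real.sqrt_pos.2 h6)).ne' h4

theorem norm_le_one_of_tendsto {x : ℕ → A} {z : A} (hx : ∀ n, ‖x n‖ ≤ 1)
    (hz : Tendsto (fun n => T.n2 (x n - z)) atTop (𝓝 0)) : ‖z‖ ≤ 1 := by
  refine T.norm_le_one_of_n2 fun y => ?_
  refine ge_of_tendsto' (by simpa using (hz.mul_const ‖y‖).add_const (T.n2 y)) fun n => ?_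
  have h1 := T.n2_sub_le (x n * y) ((x n - z) * y)
  have h2 := T.n2_mul_le' (x n - z) y
  have h3 := (T.n2_mul_le (x n) y).trans (mul_le_of_le_one_left (T.n2_nonneg y) (hx n))
  rw [show x n * y - (x n - z) * y = z * y by noncomm_ring] at h1
  linarith

end Tr

end Vale.Agent.P085
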