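import Vale.Agent.P085.Polar

/-! Primeness, absence of minimal projections and towers of Pauli pairs in a finite factor. -/

open scoped ComplexOrder
open Filter Topology

namespace Vale.Agent.P085

open Vale.Agent.P070

universe u

variable {R : Type u} [CStarAlgebra R] {τ : R →L[ℂ] ℂ}

theorem IsTF.exists_supp (h : IsTF τ) (x : R) :
    ∃ e, IsStarProjection e ∧ e * x = x ∧ ∀ z, z * x = 0 → z * e = 0 := by
  obtain ⟨v, hv, h1, -, h2, -⟩ := h.exists_polar x
  exact ⟨v * star v, hv.left, h1, fun z hz => by rw [← mul_assoc, h2 z hz, zero_mul]⟩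

theorem Lim.proj (h : IsFT τ) {f : ℕ → R} {w : R} (hw : Lim τ f w)
    (hf : ∀ n, IsStarProjection (f n)) : IsStarProjection w :=
  ⟨(hw.mul h hw).unique' h hw fun n => (hf n).isIdempotentElem.eq,
    (hw.star' h).unique' h hw fun n => (hf n).isSelfAdjoint.star_eq⟩

theorem proj_mul_zero {p q : R} (hp : IsStarProjection p) (hq : IsStarProjection q)
    (hpq : p * q = 0) : q * p = 0 := by
  have := congrArg star hpq
  rwa [star_mul, hp.isSelfAdjoint.star_eq, hq.isSelfAdjoint.star_eq, star_zero] at this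

theorem proj_comm' {p q : R} (hp : IsStarProjection p) (hq : IsStarProjection q)
    (hpq : p * q = p) : q * p = p := by
  have := congrArg star hpq
  rwa [star_mul, hp.isSelfAdjoint.star_eq, hq.isSelfAdjoint.star_eq] at this

theorem IsTF.prime (h : IsTF τ) {x y : R} (hx : x ≠ 0) (hy : y ≠ 0) : ∃ z, x * z * y ≠ 0 := by
  by_contra hcon
  push Not at hcon
  obtain ⟨e, -, ⟨he, hxe⟩, hmax⟩ := h.exists_max
    (fun e => IsStarProjection e ∧ ∀ z, x * z * e = 0) ⟨IsStarProjection.zero R, by simp⟩
    (fun f w hf hw _ => ⟨hw.proj h.toIsFT fun n => (hf n).2.1, fun z =>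
      ((Lim.const _).mul h.toIsFT hw).unique' h.toIsFT (Lim.const 0) fun n => (hf n).2.2 z⟩)
  have key : ∀ y', e * y' = 0 → (∀ z, x * z * y' = 0) → y' = 0 := by
    intro y' h1 h2
    obtain ⟨d, hd, hd1, hd2⟩ := h.exists_supp y'
    have h3 := hd2 e h1
    have := hmax d (PI.of_proj hd) (by rw [he.isSelfAdjoint.star_eq, h3])
      (by rw [he.isSelfAdjoint.star_eq, proj_mul_zero he hd h3])
      ⟨he.add hd h3, fun z => by rw [mul_add, hxe, hd2 _ (h2 z), add_zero]⟩
    rw [← hd1, this, zero_mul]
  have h1 : ∀ z, z * e = e * z * e := by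
    intro z
    have := key ((1 - e) * z * e) (by rw [← mul_assoc, ← mul_assoc, he.mul_one_sub_self]; simp)
      fun w => by simpa only [mul_assoc] using hxe (w * (1 - e) * z)
    rwa [sub_mul, sub_mul, one_mul, sub_eq_zero] at this
  obtain ⟨c, hc⟩ := h.factor e fun z => by
    have := congrArg star (h1 (star z))
    simp only [star_mul, he.isSelfAdjoint.star_eq, star_star] at this
    rw [this, ← mul_assoc, ← h1 z]
  have h2 : c = 0 := by
    have := hxe 1
    rw [hc, mul_one, mul_smul_comm, mul_one] at this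
    exact (smul_eq_zero.1 this).resolve_right hx
  exact hy (key y (by rw [hc, h2, zero_smul, zero_mul]) hcon)

theorem eq_zero_of_nonneg [PartialOrder R] [StarOrderedRing R] (h : IsFT τ) {a : R} (ha : 0 ≤ a)
    (h0 : tr τ a = 0) : a = 0 := by
  obtain ⟨z, rfl⟩ := CStarAlgebra.nonneg_iff_eq_star_mul_self.mp ha
  rw [← nn_sq h, sq_eq_zero_iff] at h0
  rw [eq_zero_of_nn h h0, mul_zero]

theorem IsTF.scalar_of_min (h : IsTF τ) {r : R} (hr : IsStarProjection r) (hr0 : r ≠ 0)
    (hmin : ∀ e, IsStarProjection e → r * e = e → e = 0 ∨ e = r) (x : R) :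
    ∃ c : ℂ, r * x * r = c • r := by
  let : PartialOrder R := CStarAlgebra.spectralOrder R
  have : StarOrderedRing R := CStarAlgebra.spectralOrderedRing R
  have hsa : ∀ y : R, IsSelfAdjoint y → ∃ c : ℝ, r * y * r = c • r := by
    intro y hy
    refine ⟨tr τ (r * y * r) / tr τ r, ?_⟩
    rw [← sub_eq_zero]
    set w := r * y * r - (tr τ (r * y * r) / tr τ r) • r with hw
    have hw1 : IsSelfAdjoint w := (hy.conjugate_self hr.isSelfAdjoint).sub
      ((IsSelfAdjoint.all _).smul hr.isSelfAdjoint)
    have hw2 : tr τ w = 0 := by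
      rw [hw, tr_sub, tr_smul, div_mul_cancel₀ _ (tr_pos h.toIsFT hr hr0).ne', sub_self]
    have hw3 : (1 - r) * w = 0 := by
      rw [hw, mul_sub, mul_smul_comm, ← mul_assoc, ← mul_assoc, hr.one_sub_mul_self]; simp
    have hw4 := CFC.posPart_sub_negPart w hw1
    have hp : (1 - r) * w⁺ = 0 := by
      have h1 : w⁺ * w⁺ = w * w⁺ := by
        conv_rhs => rw [← hw4]
        rw [hw4]
        nth_rw 3 [← hw4]
        rw [sub_mul, CFC.negPart_mul_posPart, sub_zero]
      have h2 : (1 - r) * w⁺ * star ((1 - r) * w⁺) = 0 := by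
        rw [star_mul, (CFC.posPart_nonneg w).isSelfAdjoint.star_eq, mul_assoc, ← mul_assoc w⁺,
          h1, ← mul_assoc, ← mul_assoc, hw3]; simp
      exact (CStarRing.mul_star_self_eq_zero_iff _).1 h2
    obtain ⟨e, he, he1, he2⟩ := h.exists_supp w⁺
    have h3 := he2 _ hp
    rw [sub_mul, one_mul, sub_eq_zero] at h3
    rcases hmin e he h3.symm with h4 | h4
    · rw [h4, zero_mul] at he1
      rw [← he1, zero_sub] at hw4
      have h5 : w⁻ = 0 := eq_zero_of_nonneg h.toIsFT (CFC.negPart_nonneg w) (by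
        have := tr_sub (τ := τ) 0 w⁻
        rw [zero_sub, hw4, hw2, tr_zero] at this
        linarith)
      rw [← hw4, h5, neg_zero]
    · have h5 := he2 _ (CFC.negPart_mul_posPart w)
      have h6 : (1 - r) * w⁻ = 0 := by
        have : w⁻ = w⁺ - w := by rw [eq_sub_iff_add_eq, add_comm, ← eq_sub_iff_add_eq, hw4]
        rw [this, mul_sub, hp, hw3, sub_zero]
      have h7 := congrArg star h5
      rw [h4, star_mul, hr.isSelfAdjoint.star_eq, (CFC.negPart_nonneg w).isSelfAdjoint.star_eq,
        star_zero] at h7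
      rw [sub_mul, h7, one_mul, sub_zero] at h6
      rw [h6, sub_zero] at hw4
      exact eq_zero_of_nonneg h.toIsFT (hw4 ▸ CFC.posPart_nonneg w) hw2
  obtain ⟨a, ha⟩ := hsa _ (realPart x).2
  obtain ⟨b, hb⟩ := hsa _ (imaginaryPart x).2
  refine ⟨a + Complex.I * b, ?_⟩
  conv_lhs => rw [← realPart_add_I_smul_imaginaryPart x]
  rw [mul_add, add_mul, mul_smul_comm, smul_mul_assoc, ha, hb, add_smul, mul_smul,
    Complex.coe_smul, Complex.coe_smul]

theorem IsTF.not_min (h : IsTF τ) {r : R} (hr : IsStarProjection r) (hr0 : r ≠ 0) :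
    ∃ e, IsStarProjection e ∧ r * e = e ∧ e ≠ 0 ∧ e ≠ r := by
  by_contra hcon
  have hmin : ∀ e, IsStarProjection e → r * e = e → e = 0 ∨ e = r := by
    intro e he h1
    by_contra h2
    exact hcon ⟨e, he, h1, not_or.1 h2⟩
  have key : ∀ (n : ℕ) (f : R), IsStarProjection f → tr τ f ≤ n * tr τ r →
      ∃ v : Fin n → R, f = ∑ i, v i * star (v i) ∧ ∀ i, v i * r = v i := by
    intro n
    induction n with
    | zero =>
      intro f hf h1
      exact ⟨Fin.elim0, by simpa using eq_zero_of_tr h.toIsFT hf (by simpa using h1), by simp⟩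
    | succ n ih =>
      intro f hf h1
      by_cases hf0 : f = 0
      · exact ⟨0, by simp [hf0], by simp⟩
      obtain ⟨z, hz⟩ := h.prime hf0 hr0
      obtain ⟨w, hw, hw1, -, hw2, hw3⟩ := h.exists_polar (f * z * r)
      have h2 := hw2 (1 - f) (by rw [← mul_assoc, ← mul_assoc, hf.one_sub_mul_self]; simp)
      have h3 := hw3 (1 - r) (by rw [mul_assoc, hr.mul_one_sub_self, mul_zero])
      rw [sub_mul, one_mul, sub_eq_zero] at h2
      rw [mul_sub, mul_one, sub_eq_zero] at h3
      have h4 : star w * w = r := by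
        refine (hmin _ hw.right (proj_comm' hw.right hr ?_)).resolve_left
          (hw.right_ne_zero fun h0 => hz (by rw [← hw1, h0]; simp))
        rw [mul_assoc, ← h3]
      have h5 : f * (w * star w) = w * star w := by rw [← mul_assoc, ← h2]
      obtain ⟨v, hv1, hv2⟩ := ih (f - w * star w) (proj_sub hw.left hf h5) (by
        rw [tr_sub, tr_comm h.toIsFT, h4]; push_cast at h1; linarith)
      refine ⟨Fin.cons w v, ?_, fun i => ?_⟩
      · rw [Fin.sum_univ_succ]
        simp only [Fin.cons_zero, Fin.cons_succ]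
        rw [← hv1, add_sub_cancel]
      · refine Fin.cases ?_ (fun i => ?_) i
        · exact h3.symm
        · exact hv2 i
  obtain ⟨n, hn⟩ := exists_nat_ge (1 / tr τ r)
  obtain ⟨v, hv1, hv2⟩ := key n 1 (IsStarProjection.one R) (by
    rw [tr_one h.toIsFT]; rwa [div_le_iff₀ (tr_pos h.toIsFT hr hr0)] at hn)
  refine h.infdim ⟨⟨(Set.finite_range fun z : Fin n × Fin n => v z.1 * star (v z.2)).toFinset,
    eq_top_iff.2 fun x _ => ?_⟩⟩
  rw [Set.Finite.coe_toFinset, ← one_mul x, ← mul_one (1 * x)]
  nth_rw 2 [hv1]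
  rw [Finset.mul_sum]
  refine Submodule.sum_mem _ fun j _ => ?_
  rw [hv1, Finset.sum_mul, Finset.sum_mul]
  refine Submodule.sum_mem _ fun i _ => ?_
  obtain ⟨c, hc⟩ := h.scalar_of_min hr hr0 hmin (star (v i) * x * v j)
  have h1 : r * star (v i) = star (v i) := by
    simpa [hr.isSelfAdjoint.star_eq] using congrArg star (hv2 i)
  rw [← mul_assoc, ← mul_assoc, h1, mul_assoc _ (v j), hv2] at hc
  have : v i * star (v i) * x * (v j * star (v j)) = c • (v i * star (v j)) := by
    calc _ = v i * (star (v i) * x * v j) * star (v j) := by simp only [mul_assoc]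
      _ = _ := by rw [hc, mul_smul_comm, hv2, smul_mul_assoc]
  rw [this]
  exact Submodule.smul_mem _ _ (Submodule.subset_span ⟨(i, j), rfl⟩)

/-- A pair of anticommuting self-adjoint unitaries. -/
structure Pauli (X Z : R) : Prop where
  sX : star X = X
  sZ : star Z = Z
  XX : X * X = 1
  ZZ : Z * Z = 1
  anti : X * Z = -(Z * X)

theorem IsTF.exists_pauli (h : IsTF τ) : ∃ X Z : R, Pauli X Z := by
  obtain ⟨v, hv, hvv, hmax⟩ := h.exists_max (fun v => v * v = 0) (by simp)
    (fun f w hf hw _ => (hw.mul h.toIsFT hw).unique' h.toIsFT (Lim.const 0) fun n => (hf n).2)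
  have hss : star v * star v = 0 := by simpa using congrArg star hvv
  have hv' : star v * v * star v = star v := by simpa [PI] using hv.star'
  have h1 : star v * v + v * star v = 1 := by
    have hp : IsStarProjection (star v * v + v * star v) :=
      hv.right.add hv.left (by rw [mul_assoc, ← mul_assoc v, hvv]; simp)
    by_contra hne
    set r := 1 - (star v * v + v * star v) with hr
    have hr1 : IsStarProjection r := hp.one_sub
    obtain ⟨e, he, hre, he0, her⟩ := h.not_min hr1 (sub_ne_zero.2 (Ne.symm hne))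
    have hq := proj_sub he hr1 hre
    obtain ⟨z, hz⟩ := h.prime he0 (sub_ne_zero.2 her.symm)
    obtain ⟨d, hd, hd1, -, hd2, hd3⟩ := h.exists_polar (e * z * (r - e))
    have h2 := hd2 (1 - e) (by rw [← mul_assoc, ← mul_assoc, he.one_sub_mul_self]; simp)
    have h3 := hd3 (1 - (r - e)) (by rw [mul_assoc, hq.mul_one_sub_self, mul_zero])
    rw [sub_mul, one_mul, sub_eq_zero] at h2
    rw [mul_sub, mul_one, sub_eq_zero] at h3
    have h4 : r * d = d := by rw [h2, ← mul_assoc, hre]
    have h5 : d * r = d := by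
      rw [h3, mul_assoc, sub_mul, hr1.isIdempotentElem.eq, proj_comm he hr1 hre]
    have a1 : v * r = 0 := by
      rw [hr, mul_sub, mul_add, hv.mul_right, ← mul_assoc, hvv]; simp
    have a2 : r * v = 0 := by
      rw [hr, sub_mul, add_mul, hv, mul_assoc, hvv]; simp
    have a3 : r * star v = 0 := by simpa [hr1.isSelfAdjoint.star_eq] using congrArg star a1
    have a4 : star v * r = 0 := by simpa [hr1.isSelfAdjoint.star_eq] using congrArg star a2
    have h6 : d * d = 0 := by
      calc d * d = d * (r - e) * (e * d) := by rw [← h2, ← h3]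
        _ = 0 := by
          rw [mul_assoc, ← mul_assoc (r - e), sub_mul, hre, he.isIdempotentElem.eq]; simp
    have := hmax d hd (by rw [← h4, ← mul_assoc, a4, zero_mul])
      (by rw [← h5, mul_assoc, a3, mul_zero]) (by
        have b1 : v * d = 0 := by rw [← h4, ← mul_assoc, a1, zero_mul]
        have b2 : d * v = 0 := by rw [← h5, mul_assoc, a2, mul_zero]
        simp only [add_mul, mul_add, hvv, b1, b2, h6, add_zero])
    exact hz (by rw [← hd1, this]; simp)
  have c1 : v * (v * star v) = 0 := by rw [← mul_assoc, hvv, zero_mul]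
  have c2 : star v * (star v * v) = 0 := by rw [← mul_assoc, hss, zero_mul]
  have c3 : star v * v * v = 0 := by rw [mul_assoc, hvv, mul_zero]
  have c4 : v * star v * star v = 0 := by rw [mul_assoc, hss, mul_zero]
  have c5 : star v * (v * star v) = star v := by rw [← mul_assoc, hv']
  refine ⟨v + star v, star v * v - v * star v, by simp [add_comm], by simp, ?_, ?_, ?_⟩
  · simp only [add_mul, mul_add, hvv, hss, add_zero, zero_add, h1]
  · have d1 : star v * v * (v * star v) = 0 := by rw [← mul_assoc, c3, zero_mul]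
    have d2 : v * star v * (star v * v) = 0 := by rw [← mul_assoc, c4, zero_mul]
    simp only [sub_mul, mul_sub, d1, d2, hv.right.isIdempotentElem.eq, hv.left.isIdempotentElem.eq]
    rw [← h1]; abel
  · simp only [add_mul, mul_add, sub_mul, mul_sub, hv.mul_right, c1, c2, c3, c4, c5, hv',
      show v * star v * v = v from hv]
    abel

end Vale.Agent.P085
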