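import Vale.Agent.P085.Concrete
import Vale.Agent.P085.Core

/-! From `L²` density to membership in weakly closed subalgebras, and the main theorem. -/

open scoped ComplexOrder InnerProductSpace
open Filter Topology ContinuousLinearMapWOT

namespace Vale.Agent.P085

open Vale.Agent.P070

section resv

variable {R : Type*} [CStarAlgebra R] {τ : R →L[ℂ] ℂ}

/-- The resolvent at `-i`. -/
noncomputable def resv (a : R) : R := cfc (fun z : ℂ => (z + Complex.I)⁻¹) a

theorem one_le_norm_add_I {a : R} (ha : IsSelfAdjoint a) {z : ℂ} (hz : z ∈ spectrum ℂ a) :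
    1 ≤ ‖z + Complex.I‖ := by
  have := Complex.abs_im_le_norm (z + Complex.I)
  simpa [ha.im_eq_zero_of_mem_spectrum hz] using this

theorem resv_mul {a : R} (ha : IsSelfAdjoint a) :
    resv a * (a + Complex.I • 1) = 1 ∧ (a + Complex.I • 1) * resv a = 1 := by
  have hn : IsStarNormal a := ha.isStarNormal
  have h0 : ∀ z ∈ spectrum ℂ a, z + Complex.I ≠ 0 := fun z hz =>
    norm_pos_iff.1 (zero_lt_one.trans_le (one_le_norm_add_I ha hz))
  have hc : ContinuousOn (fun z : ℂ => (z + Complex.I)⁻¹) (spectrum ℂ a) :=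
    ContinuousOn.inv₀ (by fun_prop) h0
  have h1 : a + Complex.I • 1 = cfc (fun z : ℂ => z + Complex.I) a := by
    rw [cfc_add_const _ (fun z : ℂ => z) a, cfc_id' ℂ a, Algebra.algebraMap_eq_smul_one]
  rw [h1, resv, ← cfc_mul _ _ a hc (by fun_prop), ← cfc_mul _ _ a (by fun_prop) hc,
    ← cfc_const_one ℂ a]
  exact ⟨cfc_congr fun z hz => inv_mul_cancel₀ (h0 z hz),
    cfc_congr fun z hz => mul_inv_cancel₀ (h0 z hz)⟩

theorem norm_resv_le {a : R} (ha : IsSelfAdjoint a) : ‖resv a‖ ≤ 1 :=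
  norm_cfc_le zero_le_one fun z hz => by
    rw [norm_inv]; exact inv_le_one_of_one_le₀ (one_le_norm_add_I ha hz)

theorem nn_resv_sub (h : IsFT τ) {a b : R} (ha : IsSelfAdjoint a) (hb : IsSelfAdjoint b) :
    nn τ (resv a - resv b) ≤ nn τ (b - a) := by
  have : resv a - resv b = resv a * (b - a) * resv b := by
    have h1 : b - a = (b + Complex.I • 1) - (a + Complex.I • 1) := by abel
    rw [h1, mul_sub, sub_mul, (resv_mul ha).1, mul_assoc, (resv_mul hb).2, mul_one, one_mul]
  rw [this]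
  exact (nn_mul_unit' h (norm_resv_le hb) _).trans (nn_mul_unit h (norm_resv_le ha) _)

theorem mem_of_resv_mem {S : StarSubalgebra ℂ R} [IsClosed (S : Set R)] {a : R}
    (ha : IsSelfAdjoint a) (h : resv a ∈ S) : a ∈ S := by
  obtain ⟨u, hu⟩ := (S.coe_isUnit (a := ⟨resv a, h⟩)).1 ⟨⟨_, _, (resv_mul ha).1, (resv_mul ha).2⟩, rfl⟩
  have h1 : resv a * ((u⁻¹ : Sˣ) : S) = 1 := by
    have := congrArg Subtype.val u.mul_inv
    rwa [hu] at this
  have h2 : a + Complex.I • 1 = ((u⁻¹ : Sˣ) : S) := by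
    calc _ = (a + Complex.I • 1) * (resv a * ((u⁻¹ : Sˣ) : S)) := by rw [h1, mul_one]
      _ = _ := by rw [← mul_assoc, (resv_mul ha).2, one_mul]
  rw [eq_sub_of_add_eq h2]
  exact sub_mem (u⁻¹ : Sˣ).1.2 (SMulMemClass.smul_mem _ (one_mem S))

end resv

variable {H : Type*} [NormedAddCommGroup H] [InnerProductSpace ℂ H] [CompleteSpace H]
variable {M : VonNeumannAlgebra H} {τ : M.toStarSubalgebra →L[ℂ] ℂ}

theorem mem_of_approx (h : IsFT τ) (hn : Nml τ) {W : StarSubalgebra ℂ (H →L[ℂ] H)}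
    (hW : IsClosed ((ofCLM : _ → H →WOT[ℂ] H) '' W)) {b : M.toStarSubalgebra}
    (hb : ∀ ε > 0, ∃ y : M.toStarSubalgebra, (y : H →L[ℂ] H) ∈ W ∧ nn τ (b - y) ≤ ε) :
    (b : H →L[ℂ] H) ∈ W := by
  let S := W.comap M.toStarSubalgebra.subtype
  have hS : IsClosed (S : Set M.toStarSubalgebra) :=
    (isClosed_of_wot hW).preimage continuous_subtype_val
  have key : ∀ b : M.toStarSubalgebra, (∀ ε > 0, ∃ y ∈ S, nn τ (b - y) ≤ ε) →
      (realPart b : M.toStarSubalgebra) ∈ S := by
    intro b hb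
    choose y hy hby using fun n : ℕ => hb (1 / ((n : ℝ) + 1)) (by positivity)
    have h1 : ∀ n, nn τ (resv (realPart (y n) : M.toStarSubalgebra) -
        resv (realPart b : M.toStarSubalgebra)) ≤ 1 / ((n : ℝ) + 1) := by
      intro n
      refine (nn_resv_sub h (realPart (y n)).2 (realPart b).2).trans (le_trans ?_ (hby n))
      rw [← AddSubgroupClass.coe_sub, ← map_sub, realPart_apply_coe, ← Complex.coe_smul,
        nn_smul h]
      have := nn_add_le h (b - y n) (star (b - y n))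
      rw [nn_star h] at this
      have h2 : ‖((2⁻¹ : ℝ) : ℂ)‖ = 1 / 2 := by norm_num
      rw [h2]
      linarith
    have h2 : Lim τ (fun n => resv (realPart (y n) : M.toStarSubalgebra))
        (resv (realPart b : M.toStarSubalgebra)) :=
      ⟨⟨1, fun n => norm_resv_le (realPart (y n)).2⟩, squeeze_zero (fun _ => nn_nonneg _) h1
        tendsto_one_div_add_atTop_nhds_zero_nat⟩
    obtain ⟨x, hx, hxW⟩ := exists_lim_mem h hn (fun n => norm_resv_le (realPart (y n)).2)
      (fun ε hε => by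
        obtain ⟨N, hN⟩ := Metric.tendsto_atTop.1 h2.lim (ε / 2) (by positivity)
        refine ⟨N, fun m hm n hn => ?_⟩
        have h3 := hN m hm
        have h4 := hN n hn
        rw [Real.dist_eq, sub_zero, abs_of_nonneg (nn_nonneg _)] at h3 h4
        rw [nn_sub_comm h] at h4
        linarith [nn_triangle h (resv (realPart (y m) : M.toStarSubalgebra))
          (resv (realPart b : M.toStarSubalgebra)) (resv (realPart (y n) : M.toStarSubalgebra))])
    refine mem_of_resv_mem (realPart b).2 ?_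
    rw [h2.unique' h hx fun _ => rfl]
    refine hxW W hW fun n => cfc_mem (s := S) _ ?_
    rw [realPart_apply_coe, ← Complex.coe_smul]
    exact SMulMemClass.smul_mem _ (add_mem (hy n) (star_mem (hy n)))
  have h1 := key b hb
  have h2 := key (-Complex.I • b) fun ε hε => by
    obtain ⟨y, hy, hby⟩ := hb ε hε
    refine ⟨-Complex.I • y, SMulMemClass.smul_mem _ (show y ∈ S from hy), ?_⟩
    rw [← smul_sub, nn_smul h]; simpa using hby
  rw [neg_smul, map_neg, realPart_I_smul, neg_neg] at h2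
  change b ∈ S
  rw [← realPart_add_I_smul_imaginaryPart b]
  exact add_mem h1 (SMulMemClass.smul_mem _ h2)

theorem exists_generator_vN [TopologicalSpace.SeparableSpace H] (h : IsFT τ) (hn : Nml τ)
    (hfac : ∀ z ∈ M, (∀ x ∈ M, x * z = z * x) → ∃ c : ℂ, z = c • 1)
    (hinf : ¬ FiniteDimensional ℂ M.toStarSubalgebra) :
    ∃ x ∈ M, (M : Set (H →L[ℂ] H)) = {T | (ofCLM T : H →WOT[ℂ] H) ∈
      closure ((ofCLM : _ → H →WOT[ℂ] H) '' (StarAlgebra.adjoin ℂ {x} : Set (H →L[ℂ] H)))} := by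
  have hTF : IsTF τ :=
    { toIsFT := h
      complete := fun f hf hc => (exists_lim_mem h hn hf hc).imp fun _ hx => hx.1
      factor := fun z hz => (hfac z z.2 fun x hx => congrArg Subtype.val (hz ⟨x, hx⟩)).imp
        fun _ hc => Subtype.ext hc
      infdim := hinf }
  obtain ⟨X, Z, hP, hXX, hZZ, hXZ⟩ := hTF.exists_tower
  obtain ⟨B, hB, hBS⟩ := exists_countable_gen M
  obtain ⟨x, hx⟩ := single_gen hTF X Z (fun i => (hP i).sX) (fun i => (hP i).sZ)
    (fun i => (hP i).XX) (fun i => (hP i).ZZ) (fun i => (hP i).anti) hXX hZZ hXZ B hB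
  let φ : (H →L[ℂ] H) →⋆ₐ[ℂ] (H →WOT[ℂ] H) :=
    { toFun := ofCLM, map_one' := rfl, map_mul' := fun _ _ => rfl, map_zero' := rfl,
      map_add' := fun _ _ => rfl, commutes' := fun _ => rfl, map_star' := fun _ => rfl }
  let W := ((StarAlgebra.adjoin ℂ {(x : H →L[ℂ] H)}).map φ).topologicalClosure.comap φ
  have hW : IsClosed ((ofCLM : _ → H →WOT[ℂ] H) '' W) := by
    have : (ofCLM : _ → H →WOT[ℂ] H) '' W =
        ((StarAlgebra.adjoin ℂ {(x : H →L[ℂ] H)}).map φ).topologicalClosure := by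
      ext T
      exact ⟨by rintro ⟨T, hT, rfl⟩; exact hT, fun hT => ⟨T.toCLM, hT, rfl⟩⟩
    rw [this]
    exact StarSubalgebra.isClosed_topologicalClosure _
  refine ⟨x, x.2, Set.Subset.antisymm (fun T hT => hBS W hW (fun b hb => ?_) T hT) fun T hT => ?_⟩
  · exact mem_of_approx h hn hW (hx (W.comap M.toStarSubalgebra.subtype)
      ((isClosed_of_wot hW).preimage continuous_subtype_val)
      (subset_closure ⟨x, StarAlgebra.self_mem_adjoin_singleton ℂ _, rfl⟩) b hb)
  · obtain ⟨T', hT', hTT⟩ := closure_minimal (Set.image_mono (StarAlgebra.adjoin_le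
      (S := M.toStarSubalgebra) (Set.singleton_subset_iff.2 x.2))) (isClosed_vN M) hT
    rwa [← ofCLM_injective hTT]

theorem exists_clm {R : Type*} [CStarAlgebra R] (τ : R →ₗ[ℂ] ℂ) (h : ∀ x, 0 ≤ τ (star x * x)) :
    ∃ σ : R →L[ℂ] ℂ, ∀ x, σ x = τ x := by
  let : PartialOrder R := CStarAlgebra.spectralOrder R
  have : StarOrderedRing R := CStarAlgebra.spectralOrderedRing R
  let f : R →ₚ[ℂ] ℂ := PositiveLinearMap.mk₀ τ (fun x hx => by
    obtain ⟨y, rfl⟩ := CStarAlgebra.nonneg_iff_eq_star_mul_self.mp hx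
    exact h y)
  exact ⟨⟨τ, map_continuous f⟩, fun _ => rfl⟩

end Vale.Agent.P085
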