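import Vale.Agent.P085.Defs

/-! Orthonormal module bases over the commutant of finitely many Pauli pairs. -/

namespace Vale.Agent.P085

open scoped BigOperators ComplexConjugate
open Finset Filter Topology

variable {A : Type*} [CStarAlgebra A]

/-- An orthonormal basis of `A` as a right module over `P`, built from the set `D`. -/
structure Frame (T : Tr A) (D : Set A) (P : StarSubalgebra ℂ A) (ι : Type) [Fintype ι]
    [DecidableEq ι] where
  β : ι → A
  E : ι → A → A
  E_mem : ∀ m y, E m y ∈ P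
  recon : ∀ y, ∑ m, β m * E m y = y
  orth : ∀ m l, ∀ p ∈ P, ∀ q ∈ P,
    T.τ (star (β m * p) * (β l * q)) = if m = l then T.τ (star p * q) else 0
  β_in : ∀ S : StarSubalgebra ℂ A, D ⊆ S → ∀ m, β m ∈ S
  E_in : ∀ S : StarSubalgebra ℂ A, D ⊆ S → ∀ y ∈ S, ∀ m, E m y ∈ S

namespace Frame

variable {T : Tr A} {D : Set A} {P : StarSubalgebra ℂ A} {ι : Type} [Fintype ι] [DecidableEq ι]
  (F : Frame T D P ι)

/-- Row and column bounds for the coefficients. -/
def Bdd : Prop := ∀ y, ‖∑ m, star (F.E m y) * F.E m y‖ ≤ ‖y‖ ^ 2 ∧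
  ‖∑ m, F.E m y * star (F.E m y)‖ ≤ ‖y‖ ^ 2

theorem ip_sum {p q : ι → A} (hp : ∀ m, p m ∈ P) (hq : ∀ m, q m ∈ P) :
    T.ip (∑ m, F.β m * p m) (∑ m, F.β m * q m) = ∑ m, T.ip (p m) (q m) := by
  simp only [Tr.ip, star_sum, sum_mul, mul_sum, map_sum, F.orth _ _ _ (hp _) _ (hq _),
    sum_ite_eq', mem_univ, if_true, Complex.re_sum]

theorem n2_sum {p : ι → A} (hp : ∀ m, p m ∈ P) :
    T.n2 (∑ m, F.β m * p m) ^ 2 = ∑ m, T.n2 (p m) ^ 2 := by
  simp only [T.n2_sq, F.ip_sum hp hp]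

theorem n2_sub_sum {p : ι → A} (hp : ∀ m, p m ∈ P) (y : A) :
    T.n2 (y - ∑ m, F.β m * p m) ^ 2 = ∑ m, T.n2 (F.E m y - p m) ^ 2 := by
  rw [← F.n2_sum fun m => sub_mem (F.E_mem m y) (hp m)]
  simp only [mul_sub, sum_sub_distrib, F.recon]

theorem E_sum {p : ι → A} (hp : ∀ m, p m ∈ P) (m : ι) : F.E m (∑ l, F.β l * p l) = p m := by
  have h := F.n2_sub_sum hp (∑ l, F.β l * p l)
  rw [sub_self, T.n2_zero, zero_pow two_ne_zero, eq_comm,
    sum_eq_zero_iff_of_nonneg fun _ _ => sq_nonneg _] at h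
  exact sub_eq_zero.1 (T.eq_zero_of_n2 (pow_eq_zero_iff two_ne_zero |>.1 (h m (mem_univ _))))

/-- Change of basis by a unitary matrix. -/
noncomputable def rotate {κ : Type} [Fintype κ] [DecidableEq κ] (O : κ → ι → ℂ)
    (h1 : ∀ g h, ∑ m, conj (O m g) * O m h = if g = h then 1 else 0)
    (h2 : ∀ m l, ∑ g, O m g * conj (O l g) = if m = l then 1 else 0) : Frame T D P κ where
  β m := ∑ g, conj (O m g) • F.β g
  E m y := ∑ g, O m g • F.E g y
  E_mem m y := sum_mem fun g _ => SMulMemClass.smul_mem _ (F.E_mem g y)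
  recon y := by
    simp only [sum_mul, mul_sum, smul_mul_smul_comm]
    rw [sum_comm]
    conv_rhs => rw [← F.recon y]
    refine sum_congr rfl fun h _ => ?_
    rw [sum_comm]
    simp only [← sum_smul, h1, ite_smul, one_smul, zero_smul, sum_ite_eq', mem_univ, if_true]
  orth m l p hp q hq := by
    simp only [sum_mul, star_sum, mul_sum, smul_mul_assoc, star_smul, mul_smul_comm, map_sum,
      map_smul, F.orth _ _ _ hp _ hq, smul_eq_mul, mul_ite, mul_zero, sum_ite_eq', mem_univ,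
      if_true, RCLike.star_def, Complex.conj_conj]
    simp only [← mul_assoc]
    rw [← sum_mul, sum_congr rfl fun g _ => mul_comm (conj (O l g)) (O m g), h2]
    split_ifs <;> simp
  β_in S hS m := sum_mem fun g _ => SMulMemClass.smul_mem _ (F.β_in S hS g)
  E_in S hS y hy m := sum_mem fun g _ => SMulMemClass.smul_mem _ (F.E_in S hS y hy g)

/-- Relabelling. -/
def reindex {κ : Type} [Fintype κ] [DecidableEq κ] (e : κ ≃ ι) : Frame T D P κ where
  β m := F.β (e m)
  E m := F.E (e m)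
  E_mem m y := F.E_mem _ y
  recon y := (e.sum_comp fun m => F.β m * F.E m y).trans (F.recon y)
  orth m l p hp q hq := by simp only [F.orth _ _ _ hp _ hq, e.apply_eq_iff_eq]
  β_in S hS m := F.β_in S hS _
  E_in S hS y hy m := F.E_in S hS y hy _

theorem Bdd.reindex {F : Frame T D P ι} (h : F.Bdd) {κ : Type} [Fintype κ] [DecidableEq κ]
    (e : κ ≃ ι) : (F.reindex e).Bdd := fun y =>
  ⟨(congrArg norm (e.sum_comp fun m => star (F.E m y) * F.E m y)).trans_le (h y).1,
    (congrArg norm (e.sum_comp fun m => F.E m y * star (F.E m y))).trans_le (h y).2⟩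

end Frame

section Level

variable {X Z : A}

/-- The four Pauli operators. -/
def lam (X Z : A) : Fin 4 → A := ![1, X, Z, X * Z]

/-- Average over conjugation by the Pauli operators. -/
noncomputable def av (X Z : A) : A →ₗ[ℂ] A where
  toFun z := (4⁻¹ : ℂ) • (z + X * z * X + Z * z * Z + X * Z * z * (Z * X))
  map_add' a b := by simp only [mul_add, add_mul, smul_add]; abel
  map_smul' c a := by
    simp only [mul_smul_comm, smul_mul_assoc, smul_add, RingHom.id_apply, smul_comm c]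

theorem av_apply (z : A) :
    av X Z z = (4⁻¹ : ℂ) • (z + X * z * X + Z * z * Z + X * Z * z * (Z * X)) := rfl

variable (hXs : star X = X) (hZs : star Z = Z) (hX : X * X = 1) (hZ : Z * Z = 1)
  (hXZ : X * Z = -(Z * X))

include hX hZ hXZ in
theorem pauli_rel : (∀ t, X * (X * t) = t) ∧ (∀ t, Z * (Z * t) = t) ∧
    (∀ t, Z * (X * t) = -(X * (Z * t))) ∧ Z * X = -(X * Z) :=
  ⟨fun t => by rw [← mul_assoc, hX, one_mul], fun t => by rw [← mul_assoc, hZ, one_mul],
    fun t => by rw [← mul_assoc, ← mul_assoc, hXZ, neg_mul, neg_neg], by rw [hXZ, neg_neg]⟩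

include hX hZ hXZ in
theorem av_comm (z : A) : X * av X Z z = av X Z z * X ∧ Z * av X Z z = av X Z z * Z := by
  obtain ⟨h1, h2, h3, h4⟩ := pauli_rel hX hZ hXZ
  constructor <;>
  · simp only [av_apply, mul_smul_comm, smul_mul_assoc, mul_add, add_mul, mul_assoc, h1, h2, h3,
      h4, hX, hZ, mul_neg, neg_mul, neg_neg, mul_one]
    congr 1
    abel

include hXs hZs hX hZ hXZ in
theorem av_recon (p : A) : ∑ j, lam X Z j * av X Z (star (lam X Z j) * p) = p := by
  obtain ⟨h1, h2, h3, h4⟩ := pauli_rel hX hZ hXZ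
  simp only [Fin.sum_univ_four, lam, Matrix.cons_val_zero, Matrix.cons_val_one, Matrix.cons_val,
    av_apply, star_one, star_mul, hXs, hZs, mul_smul_comm, mul_add, mul_assoc, h1, h2, h3,
    h4, mul_neg, neg_mul, neg_neg, one_mul]
  module

include hXs hZs hX hZ hXZ in
theorem av_orth {q : A} (hqX : X * q = q * X) (hqZ : Z * q = q * Z) (i j : Fin 4) :
    av X Z (star (lam X Z i) * lam X Z j * q) = (if i = j then q else 0) ∧
      av X Z (lam X Z i * star (lam X Z j) * q) = if i = j then q else 0 := by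
  obtain ⟨h1, h2, h3, h4⟩ := pauli_rel hX hZ hXZ
  have h5 : ∀ t, q * (X * t) = X * (q * t) := fun t => by rw [← mul_assoc, ← hqX, mul_assoc]
  fin_cases i <;> fin_cases j <;>
    simp [lam, av_apply, hXs, hZs, mul_assoc, h1, h2, h3, h4, h5, ← hqX, ← hqZ] <;> module

include hXs hZs hX hZ in
theorem norm_av_le [Nontrivial A] (z : A) : ‖av X Z z‖ ≤ ‖z‖ := by
  have uX : X ∈ unitary A := Unitary.mem_iff.2 (by simp [hXs, hX])
  have uZ : Z ∈ unitary A := Unitary.mem_iff.2 (by simp [hZs, hZ])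
  have h : ∀ a ∈ unitary A, ∀ b ∈ unitary A, ‖a * z * b‖ = ‖z‖ := fun a ha b hb => by
    rw [CStarRing.norm_mul_mem_unitary _ hb, CStarRing.norm_mem_unitary_mul _ ha]
  rw [av_apply, norm_smul]
  have h1 := norm_add_le_of_le (norm_add_le_of_le (norm_add_le_of_le (le_refl ‖z‖)
    (h X uX X uX).le) (h Z uZ Z uZ).le) (h _ (mul_mem uX uZ) _ (mul_mem uZ uX)).le
  have h2 : ‖(4⁻¹ : ℂ)‖ = 4⁻¹ := by simp
  rw [h2]
  linarith

include hX hZ in
theorem τ_av (T : Tr A) (z : A) : T.τ (av X Z z) = T.τ z := by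
  have h : ∀ a b : A, b * a = 1 → T.τ (a * z * b) = T.τ z := fun a b hab => by
    rw [T.comm, ← mul_assoc, hab, one_mul]
  rw [av_apply, map_smul, map_add, map_add, map_add, h X X hX, h Z Z hZ, h (X * Z) (Z * X)
    (by rw [mul_assoc, ← mul_assoc X, hX, one_mul, hZ]), smul_eq_mul]
  ring

theorem av_mem {S : StarSubalgebra ℂ A} (hX : X ∈ S) (hZ : Z ∈ S) {z : A} (hz : z ∈ S) :
    av X Z z ∈ S :=
  SMulMemClass.smul_mem _ (add_mem (add_mem (add_mem hz (mul_mem (mul_mem hX hz) hX))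
    (mul_mem (mul_mem hZ hz) hZ)) (mul_mem (mul_mem (mul_mem hX hZ) hz) (mul_mem hZ hX)))

theorem lam_mem {S : StarSubalgebra ℂ A} (hX : X ∈ S) (hZ : Z ∈ S) (j : Fin 4) :
    lam X Z j ∈ S := by
  fin_cases j
  exacts [one_mem _, hX, hZ, mul_mem hX hZ]

theorem lam_comm {q : A} (hqX : X * q = q * X) (hqZ : Z * q = q * Z) (j : Fin 4) :
    lam X Z j * q = q * lam X Z j := by
  fin_cases j
  exacts [(Commute.one_left q).eq, hqX, hqZ, (Commute.mul_left hqX hqZ).eq]

end Level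

namespace Paulis

variable (W : Paulis A)

/-- All Pauli generators. -/
def set : Set A := Set.range W.X ∪ Set.range W.Z

/-- The commutant of the first `n` levels. -/
def lvl (n : ℕ) : StarSubalgebra ℂ A where
  carrier := {x | ∀ i < n, W.X i * x = x * W.X i ∧ W.Z i * x = x * W.Z i}
  mul_mem' ha hb i hi :=
    ⟨(Commute.mul_right (ha i hi).1 (hb i hi).1).eq, (Commute.mul_right (ha i hi).2 (hb i hi).2).eq⟩
  add_mem' ha hb i hi :=
    ⟨(Commute.add_right (ha i hi).1 (hb i hi).1).eq, (Commute.add_right (ha i hi).2 (hb i hi).2).eq⟩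
  algebraMap_mem' c i _ := ⟨(Algebra.commutes c _).symm, (Algebra.commutes c _).symm⟩
  star_mem' {x} hx i hi := by
    have h1 := congrArg star (hx i hi).1
    have h2 := congrArg star (hx i hi).2
    rw [star_mul, star_mul, W.X_star] at h1
    rw [star_mul, star_mul, W.Z_star] at h2
    exact ⟨h1.symm, h2.symm⟩

theorem mem_lvl {n : ℕ} {x : A} :
    x ∈ W.lvl n ↔ ∀ i < n, W.X i * x = x * W.X i ∧ W.Z i * x = x * W.Z i := Iff.rfl

instance lvl_closed (n : ℕ) : IsClosed (W.lvl n : Set A) := by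
  have : (W.lvl n : Set A) =
      ⋂ i < n, {x | W.X i * x = x * W.X i} ∩ {x | W.Z i * x = x * W.Z i} := by
    ext x
    simp [mem_lvl]
  rw [this]
  exact isClosed_biInter fun i _ => (isClosed_eq (by fun_prop) (by fun_prop)).inter
    (isClosed_eq (by fun_prop) (by fun_prop))

theorem X_mem {n i : ℕ} (h : n ≤ i) : W.X i ∈ W.lvl n := fun j hj =>
  ⟨W.XX j i, (W.XZ i j (by omega)).symm⟩

theorem Z_mem {n i : ℕ} (h : n ≤ i) : W.Z i ∈ W.lvl n := fun j hj =>
  ⟨W.XZ j i (by omega), W.ZZ j i⟩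

theorem lvl_succ_le {n : ℕ} {x : A} (h : x ∈ W.lvl (n + 1)) : x ∈ W.lvl n := fun i hi =>
  h i (by omega)

theorem lvl_complete {T : Tr A} (hT : T.Complete) (n : ℕ) : (T.restrict (W.lvl n)).Complete := by
  intro x hx hc
  obtain ⟨z, hz⟩ := hT (fun k => x k) hx (by
    rw [Metric.cauchySeq_iff] at hc ⊢
    exact hc)
  have key : ∀ a : A, (∀ k, a * x k = x k * a) → a * z = z * a := by
    intro a ha
    rw [← sub_eq_zero]
    refine T.eq_zero_of_n2 (le_antisymm ?_ (T.n2_nonneg _))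
    refine ge_of_tendsto' (by simpa using (hz.const_mul ‖a‖).add (hz.mul_const ‖a‖)) fun k => ?_
    rw [show a * z - z * a = (x k - z) * a - a * (x k - z) by
      rw [sub_mul, mul_sub, ha k]; abel]
    exact (T.n2_sub_le _ _).trans (by linarith [T.n2_mul_le a (x k - z), T.n2_mul_le' (x k - z) a])
  exact ⟨⟨z, fun i hi => ⟨key _ fun k => ((x k).2 i hi).1, key _ fun k => ((x k).2 i hi).2⟩⟩, hz⟩

theorem frame_step {T : Tr A} {n : ℕ} {ι : Type} [Fintype ι] [DecidableEq ι]
    (F : Frame T W.set (W.lvl n) ι) (hF : F.Bdd) :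
    ∃ G : Frame T W.set (W.lvl (n + 1)) (ι × Fin 4), G.Bdd := by
  have := T.nontrivial
  have hXs := W.X_star n
  have hZs := W.Z_star n
  have hX := W.X_sq n
  have hZ := W.Z_sq n
  have hXZ := W.anti n
  have hXn : W.X n ∈ W.lvl n := W.X_mem le_rfl
  have hZn : W.Z n ∈ W.lvl n := W.Z_mem le_rfl
  have hav : ∀ z ∈ W.lvl n, av (W.X n) (W.Z n) z ∈ W.lvl (n + 1) := fun z hz i hi => by
    rcases (Nat.lt_succ_iff_lt_or_eq.1 hi) with h | rfl
    · exact av_mem hXn hZn hz i h
    · exact av_comm hX hZ hXZ z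
  have hlc : ∀ q ∈ W.lvl (n + 1), ∀ j, lam (W.X n) (W.Z n) j * q = q * lam (W.X n) (W.Z n) j :=
    fun q hq j => lam_comm (hq n n.lt_succ_self).1 (hq n n.lt_succ_self).2 j
  have ho := fun q (hq : q ∈ W.lvl (n + 1)) =>
    av_orth hXs hZs hX hZ hXZ (hq n n.lt_succ_self).1 (hq n n.lt_succ_self).2
  have e1 : ∀ p ∈ W.lvl (n + 1), ∀ q ∈ W.lvl (n + 1), ∀ i j,
      av (W.X n) (W.Z n) (star (lam (W.X n) (W.Z n) i * p) * (lam (W.X n) (W.Z n) j * q)) =
        if i = j then star p * q else 0 := fun p hp q hq i j => by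
    rw [← (ho _ (mul_mem (star_mem hp) hq) i j).1, hlc p hp, star_mul, mul_assoc, mul_assoc,
      ← mul_assoc (star p), ← hlc _ (star_mem hp), mul_assoc]
  have e2 : ∀ p ∈ W.lvl (n + 1), ∀ q ∈ W.lvl (n + 1), ∀ i j,
      av (W.X n) (W.Z n) (lam (W.X n) (W.Z n) i * p * star (lam (W.X n) (W.Z n) j * q)) =
        if i = j then p * star q else 0 := fun p hp q hq i j => by
    have h := congrArg star (hlc _ (mul_mem hq (star_mem hp)) j)
    rw [star_mul, star_mul, star_mul, star_star] at h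
    rw [← (ho _ (mul_mem hp (star_mem hq)) i j).2, star_mul, mul_assoc, mul_assoc,
      ← mul_assoc p, h, star_mul, star_star]
  have hEm : ∀ (m : ι) (j : Fin 4) (y : A),
      av (W.X n) (W.Z n) (star (lam (W.X n) (W.Z n) j) * F.E m y) ∈ W.lvl (n + 1) :=
    fun m j y => hav _ (mul_mem (star_mem (lam_mem hXn hZn j)) (F.E_mem m y))
  refine ⟨{ β := fun m => F.β m.1 * lam (W.X n) (W.Z n) m.2
            E := fun m y => av (W.X n) (W.Z n) (star (lam (W.X n) (W.Z n) m.2) * F.E m.1 y)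
            E_mem := fun m y => hEm m.1 m.2 y
            recon := fun y => ?_
            orth := fun m l p hp q hq => ?_
            β_in := fun S hS m => mul_mem (F.β_in S hS _)
              (lam_mem (hS (Or.inl ⟨n, rfl⟩)) (hS (Or.inr ⟨n, rfl⟩)) _)
            E_in := fun S hS y hy m => av_mem (hS (Or.inl ⟨n, rfl⟩)) (hS (Or.inr ⟨n, rfl⟩))
              (mul_mem (star_mem (lam_mem (hS (Or.inl ⟨n, rfl⟩)) (hS (Or.inr ⟨n, rfl⟩)) _))
                (F.E_in S hS y hy _)) }, fun y => ⟨?_, ?_⟩⟩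
  · simp only [Fintype.sum_prod_type, mul_assoc, ← mul_sum, av_recon hXs hZs hX hZ hXZ, F.recon]
  · rw [mul_assoc, mul_assoc (F.β l.1), F.orth _ _ _ (mul_mem (lam_mem hXn hZn _) (W.lvl_succ_le hp))
      _ (mul_mem (lam_mem hXn hZn _) (W.lvl_succ_le hq)), ← τ_av hX hZ T, e1 p hp q hq]
    obtain ⟨m, i⟩ := m
    obtain ⟨l, j⟩ := l
    by_cases h1 : m = l <;> by_cases h2 : i = j <;> simp [h1, h2]
  · refine le_trans (le_of_eq (congrArg norm ?_)) ((norm_av_le hXs hZs hX hZ _).trans (hF y).1)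
    rw [Fintype.sum_prod_type, map_sum]
    refine sum_congr rfl fun m _ => ?_
    conv_rhs => rw [← av_recon hXs hZs hX hZ hXZ (F.E m y)]
    simp only [star_sum, sum_mul, mul_sum, map_sum, e1 _ (hEm _ _ _) _ (hEm _ _ _), sum_ite_eq',
      mem_univ, if_true]
  · refine le_trans (le_of_eq (congrArg norm ?_)) ((norm_av_le hXs hZs hX hZ _).trans (hF y).2)
    rw [Fintype.sum_prod_type, map_sum]
    refine sum_congr rfl fun m _ => ?_
    conv_rhs => rw [← av_recon hXs hZs hX hZ hXZ (F.E m y)]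
    simp only [star_sum, sum_mul, mul_sum, map_sum, e2 _ (hEm _ _ _) _ (hEm _ _ _), sum_ite_eq',
      mem_univ, if_true]

theorem exists_frame (T : Tr A) (n : ℕ) : ∀ (ι : Type) [Fintype ι] [DecidableEq ι],
    Fintype.card ι = 4 ^ n → ∃ F : Frame T W.set (W.lvl n) ι, F.Bdd := by
  induction n with
  | zero =>
    intro ι _ _ hι
    let F : Frame T W.set (W.lvl 0) Unit :=
      { β := fun _ => 1
        E := fun _ y => y
        E_mem := fun _ _ i hi => absurd hi (Nat.not_lt_zero i)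
        recon := fun y => by simp
        orth := fun m l p _ q _ => by simp
        β_in := fun S _ _ => one_mem S
        E_in := fun S _ y hy _ => hy }
    have hF : F.Bdd := fun y => by
      simp [F, CStarRing.norm_star_mul_self, CStarRing.norm_self_mul_star, sq]
    exact ⟨_, hF.reindex (Fintype.equivOfCardEq (by simpa using hι))⟩
  | succ n ih =>
    intro ι _ _ hι
    obtain ⟨F, hF⟩ := ih (Fin (4 ^ n)) (Fintype.card_fin _)
    obtain ⟨G, hG⟩ := W.frame_step F hF
    exact ⟨_, hG.reindex (Fintype.equivOfCardEq (by simp [hι, pow_succ]))⟩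

end Paulis

end Vale.Agent.P085
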