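import Vale.Agent.P085.Khin

/-! The improvement step: a small perturbation of the generator sees a definite new direction. -/

namespace Vale.Agent.P085

open scoped BigOperators ComplexConjugate
open Finset

variable {A : Type*} [CStarAlgebra A]

/-- The improvement step at the level of coefficients. -/
theorem improve_coef (T : Tr A) {Γ : Type} [Fintype Γ] [DecidableEq Γ] {k : ℕ} (hk : 0 < k)
    (D : Design Γ k) (a y z : Γ → A) {r B t μ : ℝ} (hr : 0 < r) (hz : ∀ m, ‖z m‖ ≤ B) (hB : 0 ≤ B)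
    (ht : 0 ≤ t) (htB : 2 * t * B ≤ 1) (hμ : 0 ≤ μ) :
    ∃ (a' u : Γ → A) (s : ℝ), 0 ≤ s ∧ (∀ m, ‖u m‖ ≤ 1) ∧
      (∀ S : StarSubalgebra ℂ A, IsClosed (S : Set A) → (∀ l, a' l ∈ S) → ∀ m, u m ∈ S) ∧
      t * ∑ m, T.ip (y m) (z m) - 24 * (t * B) ^ 2 * ∑ m, T.n2 (y m) -
          μ * (Fintype.card Γ * (8 * (t * B) ^ 2 / k)) ≤ ∑ m, T.ip (y m) (u m) - μ * s ∧
      ∑ m, T.n2 (a m - a' m) ^ 2 ≤
        2 * ((∑ m, T.n2 (star (a m) * a m) ^ 2) / r ^ 2) + 18 * r ^ 2 * s := by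
  have := T.nontrivial
  choose a₁ ha₁ ha₂ using fun m => exists_trunc T (a m) hr
  have hunit : ∀ m, IsUnit (algebraMap ℝ A (2 * r) - a₁ m) := fun m =>
    spectrum.mem_resolventSet_of_norm_lt (by
      rw [Real.norm_of_nonneg (by positivity)]
      linarith [ha₁ m])
  choose v hv p hvp hp hrec using fun m => exists_polar (hunit m)
  obtain ⟨v', u, hv', hu, hS, hmain⟩ := amp T hk D v hv y z hz hB ht htB hμ
  refine ⟨fun m => algebraMap ℝ A (2 * r) - v' m * p m, u, ∑ l, T.n2 (v' l - v l) ^ 2,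
    sum_nonneg fun _ _ => sq_nonneg _, hu, fun S hSc ha' => hS S fun l => ?_, hmain, ?_⟩
  · refine hrec l _ (hv' l) S hSc ?_
    have h1 : algebraMap ℝ A (2 * r) ∈ S := by
      rw [IsScalarTower.algebraMap_apply ℝ ℂ A]
      exact S.algebraMap_mem _
    simpa using sub_mem h1 (ha' l)
  · rw [sum_div, mul_sum, mul_sum, ← sum_add_distrib]
    refine sum_le_sum fun m _ => ?_
    have e : a m - (algebraMap ℝ A (2 * r) - v' m * p m) = (a m - a₁ m) + (v' m - v m) * p m := by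
      rw [sub_mul, ← hvp]
      abel
    have h1 : ‖p m‖ ≤ 3 * r := by
      refine (hp m).trans ((norm_sub_le _ _).trans ?_)
      rw [norm_algebraMap', Real.norm_of_nonneg (by positivity)]
      linarith [ha₁ m]
    have h2 := (T.n2_mul_le' (v' m - v m) (p m)).trans
      (mul_le_mul_of_nonneg_left h1 (T.n2_nonneg _))
    have h3 := pow_le_pow_left₀ (T.n2_nonneg _)
      ((T.n2_add_le (a m - a₁ m) _).trans (add_le_add le_rfl h2)) 2
    rw [e]
    nlinarith [ha₂ m, sq_nonneg (T.n2 (a m - a₁ m) - T.n2 (v' m - v m) * (3 * r))]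

theorem improve (T : Tr A) (W : Paulis A) {δ : ℝ} (hδ : 0 < δ) (a b y : A) (hb : ‖b‖ ≤ 1)
    (hy : δ ≤ T.n2 y) (hy1 : T.n2 y ≤ 1) (hyb : T.n2 y ^ 2 ≤ T.ip y b) {η : ℝ} (hη : 0 < η) :
    ∃ a' u : A, T.n2 (a - a') < η ∧ T.n2 u ≤ 1 ∧ δ ^ 5 / 12288 ≤ T.ip y u ∧
      ∀ S : StarSubalgebra ℂ A, IsClosed (S : Set A) → W.set ⊆ S → a' ∈ S → u ∈ S := by
  have hδ1 : δ ≤ 1 := hy.trans hy1
  obtain ⟨C, hC, ha⟩ : ∃ C : ℝ, 0 < C ∧ ‖a‖ ≤ C := ⟨‖a‖ + 1, by positivity, by linarith⟩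
  obtain ⟨R, hR, hR2⟩ : ∃ R : ℝ, 0 < R ∧ R ^ 2 = 32 * C ^ 4 / η ^ 2 :=
    ⟨√(32 * C ^ 4 / η ^ 2), by positivity, Real.sq_sqrt (by positivity)⟩
  obtain ⟨μ, hμ, hμ'⟩ : ∃ μ : ℝ, 0 < μ ∧ μ = 72 * R ^ 2 / η ^ 2 := ⟨_, by positivity, rfl⟩
  obtain ⟨n, hn⟩ := exists_nat_gt (μ * (8 * (δ ^ 2 / 384) ^ 2) / (δ ^ 5 / 12288))
  have hn0 : (0 : ℝ) < n := lt_trans (by positivity) hn
  obtain ⟨F, hFa, hFb⟩ := exists_flat_frame T W n a b hC ha hb
  have hcard : (Fintype.card (Fin n → ZMod 4) : ℝ) = 4 ^ n := by simp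
  obtain ⟨c, hc0, hc⟩ : ∃ c : ℝ, 0 < c ∧ c ^ 2 * 4 ^ n = 1 :=
    ⟨√((4 ^ n)⁻¹), by positivity, by
      rw [Real.sq_sqrt (by positivity)]; exact inv_mul_cancel₀ (by positivity)⟩
  have hc' : ∀ x : ℝ, x / 4 ^ n = x * c ^ 2 := fun x => by
    rw [div_eq_iff (by positivity), mul_assoc, hc, mul_one]
  let E : A → (Fin n → ZMod 4) → W.lvl n := fun x m => ⟨F.E m x, F.E_mem m x⟩
  choose b₁ hb₁ hb₂ using fun m =>
    exists_trunc (T.restrict (W.lvl n)) (E b m) (r := c * (4 / δ)) (by positivity)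
  have htB : δ ^ 3 / 1536 * (4 / δ) = δ ^ 2 / 384 := by field_simp; ring
  obtain ⟨a', u, s, hs, hu, hS, hmain, herr⟩ := improve_coef (T.restrict (W.lvl n))
    (Nat.cast_pos.1 hn0) (design n) (E a) (fun m => c • E y m) (fun m => c⁻¹ • b₁ m)
    (r := c * R) (B := 4 / δ) (t := δ ^ 3 / 1536) (μ := μ * c ^ 2) (by positivity)
    (fun m => by
      rw [norm_smul, Real.norm_of_nonneg (by positivity), inv_mul_le_iff₀ hc0]
      exact hb₁ m) (by positivity) (by positivity)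
    (by rw [mul_assoc, htB]; nlinarith) (by positivity)
  have hcu : ∀ m, ((c • u m : W.lvl n) : A) ∈ W.lvl n := fun m => (c • u m).2
  have hu1 : T.n2 (∑ m, F.β m * (c • u m : W.lvl n)) ≤ 1 := by
    rw [← sq_le_one_iff₀ (T.n2_nonneg _), F.n2_sum hcu]
    refine (sum_le_card_nsmul _ _ (c ^ 2) fun m _ => ?_).trans
      (by rw [card_univ, nsmul_eq_mul, hcard, mul_comm, hc])
    refine pow_le_pow_left₀ (T.n2_nonneg _) ((T.n2_le_norm _).trans ?_) 2
    change ‖c • u m‖ ≤ c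
    rw [norm_smul, Real.norm_of_nonneg hc0.le]
    exact mul_le_of_le_one_right hc0.le (hu m)
  have hip : ∀ q : (Fin n → ZMod 4) → W.lvl n, T.ip y (∑ m, F.β m * q m) =
      ∑ m, (T.restrict (W.lvl n)).ip (E y m) (q m) := fun q => by
    conv_lhs => rw [← F.recon y]
    exact F.ip_sum (fun m => F.E_mem m y) fun m => (q m).2
  have e1 : ∑ m, (T.restrict (W.lvl n)).ip (c • E y m) (u m) =
      T.ip y (∑ m, F.β m * (c • u m : W.lvl n)) := by
    rw [hip]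
    simp only [Tr.ip_smul_left, Tr.ip_smul_right]
  have e2 : ∑ m, (T.restrict (W.lvl n)).ip (c • E y m) (c⁻¹ • b₁ m) =
      T.ip y (∑ m, F.β m * b₁ m) := by
    rw [hip]
    simp only [Tr.ip_smul_left, Tr.ip_smul_right, inv_mul_cancel_left₀ hc0.ne']
  have e3 : ∑ m, (T.restrict (W.lvl n)).n2 (c • E y m) ≤ T.n2 y := by
    rw [← sq_le_sq₀ (sum_nonneg fun _ _ => Tr.n2_nonneg _ _) (T.n2_nonneg _)]
    refine sq_sum_le_card_mul_sum_sq.trans (le_of_eq ?_)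
    conv_rhs => rw [← F.recon y, F.n2_sum fun m => F.E_mem m y]
    simp only [Tr.n2_real_smul, mul_pow, sq_abs]
    rw [← mul_sum, ← mul_assoc, card_univ, hcard, mul_comm _ (c ^ 2), hc, one_mul]
    rfl
  have e4 : T.n2 (b - ∑ m, F.β m * b₁ m) ≤ δ / 2 := by
    rw [← sq_le_sq₀ (T.n2_nonneg _) (by positivity), F.n2_sub_sum fun m => (b₁ m).2]
    refine (sum_le_sum fun m _ => hb₂ m).trans ?_
    rw [← sum_div, div_le_iff₀ (by positivity)]
    refine hFb.trans (le_of_eq ?_)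
    rw [hc']
    field_simp
    ring
  have e5 : T.n2 y * (δ / 2) ≤ T.ip y (∑ m, F.β m * b₁ m) := by
    have h1 := T.ip_sub_right y b (∑ m, F.β m * b₁ m)
    have h2 := (T.ip_le y _).trans (mul_le_mul_of_nonneg_left e4 (T.n2_nonneg y))
    nlinarith [T.n2_nonneg y]
  have e6 : μ * c ^ 2 * (Fintype.card (Fin n → ZMod 4) * (8 * (δ ^ 2 / 384) ^ 2 / n)) ≤
      δ ^ 5 / 12288 := by
    rw [hcard, mul_assoc, ← mul_assoc (c ^ 2), hc, one_mul, ← mul_div_assoc, div_le_iff₀ hn0]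
    rw [div_lt_iff₀ (by positivity)] at hn
    linarith
  rw [e1, e2, htB] at hmain
  have e7 : δ ^ 5 / 12288 ≤ T.ip y (∑ m, F.β m * (c • u m : W.lvl n)) - μ * c ^ 2 * s := by
    have h1 := mul_le_mul_of_nonneg_left e5 (by positivity : 0 ≤ δ ^ 3 / 1536)
    have h2 := mul_le_mul_of_nonneg_left e3 (by positivity : 0 ≤ 24 * (δ ^ 2 / 384) ^ 2)
    have h3 := mul_le_mul_of_nonneg_left hy (by positivity : 0 ≤ δ ^ 4 / 6144)
    linarith
  have e8 : 0 ≤ μ * c ^ 2 * s := by positivity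
  have e9 : μ * c ^ 2 * s ≤ 1 := by
    have h1 := (T.ip_le y _).trans (mul_le_one₀ hy1 (T.n2_nonneg _) hu1)
    have h2 : 0 ≤ δ ^ 5 / 12288 := by positivity
    linarith
  refine ⟨∑ m, F.β m * a' m, ∑ m, F.β m * (c • u m : W.lvl n), ?_, hu1, by linarith,
    fun S hSc hW haS => sum_mem fun m _ => mul_mem (F.β_in S hW m) ?_⟩
  · rw [← sq_lt_sq₀ (T.n2_nonneg _) hη.le, F.n2_sub_sum fun m => (a' m).2]
    refine herr.trans_lt ?_
    have h1 : (∑ m, (T.restrict (W.lvl n)).n2 (star (E a m) * E a m) ^ 2) / (c * R) ^ 2 ≤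
        η ^ 2 / 8 := by
      rw [div_le_iff₀ (by positivity)]
      refine hFa.trans (le_of_eq ?_)
      rw [hc', mul_pow, hR2]
      field_simp
      ring
    have h2 : 18 * (c * R) ^ 2 * s = η ^ 2 / 4 * (μ * c ^ 2 * s) := by
      rw [hμ']
      field_simp
      ring
    have h3 := mul_le_mul_of_nonneg_left e9 (by positivity : 0 ≤ η ^ 2 / 4)
    have h4 := sq_pos_of_pos hη
    linarith
  · have h1 : u m ∈ S.comap (W.lvl n).subtype := by
      refine hS _ (hSc.preimage continuous_subtype_val) (fun l => ?_) m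
      have := F.E_in S hW _ haS l
      rwa [F.E_sum fun m => (a' m).2] at this
    change c • (u m : A) ∈ S
    rw [← Complex.coe_smul]
    exact SMulMemClass.smul_mem _ h1

end Vale.Agent.P085
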