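import Vale.Agent.P085.Frame
import Vale.Agent.P085.Amp

/-! Random phases make the coefficients of a frame flat. -/

namespace Vale.Agent.P085

open scoped BigOperators ComplexConjugate
open Finset

variable {A : Type*} [CStarAlgebra A]

theorem sidon {ι : Type} [DecidableEq ι] {a b c d : ι}
    (h : (Pi.single a 1 - Pi.single b 1 : ι → ZMod 4) = Pi.single c 1 - Pi.single d 1) :
    (a = b ∧ c = d) ∨ (a = c ∧ b = d) := by
  have inj : ∀ x y : ι, (Pi.single x 1 : ι → ZMod 4) = Pi.single y 1 → x = y := fun x y hxy => by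
    by_contra hne
    have := congrFun hxy x
    rw [Pi.single_eq_same, Pi.single_eq_of_ne hne] at this
    exact absurd this (by decide)
  by_cases hab : a = b
  · subst hab
    rw [sub_self, eq_comm, sub_eq_zero] at h
    exact Or.inl ⟨rfl, inj _ _ h⟩
  · have hac : a = c := by
      by_contra hac
      have := congrFun h a
      simp only [Pi.sub_apply, Pi.single_eq_same, Pi.single_eq_of_ne hab,
        Pi.single_eq_of_ne hac, Pi.single_apply] at this
      split_ifs at this <;> exact absurd this (by decide)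
    subst hac
    exact Or.inr ⟨rfl, inj _ _ (sub_right_injective h)⟩

theorem expect_char (T : Tr A) {G J : Type} [AddCommGroup G] [Fintype G] [DecidableEq G]
    [Fintype J] (f : J → G) (z : J → A) :
    𝔼 ψ : AddChar G ℂ, T.n2 (∑ j, ψ (f j) • z j) ^ 2 =
      ∑ j, ∑ j', if f j = f j' then T.ip (z j) (z j') else 0 := by
  have e : ∀ ψ : AddChar G ℂ, T.n2 (∑ j, ψ (f j) • z j) ^ 2 =
      ∑ j, ∑ j', (ψ (f j' - f j) * T.τ (star (z j) * z j')).re := fun ψ => by
    simp only [T.n2_sq, Tr.ip, star_sum, sum_mul, mul_sum, map_sum, Complex.re_sum, star_smul,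
      smul_mul_smul_comm, map_smul, smul_eq_mul]
    rw [sum_comm]
    refine sum_congr rfl fun j _ => sum_congr rfl fun j' _ => ?_
    rw [sub_eq_neg_add, ψ.map_add_eq_mul, ψ.map_neg_eq_conj]
    rfl
  simp only [e, expect_sum_comm]
  refine sum_congr rfl fun j _ => sum_congr rfl fun j' _ => ?_
  have h := map_expect (Complex.reLm.restrictScalars ℚ≥0)
    (fun ψ : AddChar G ℂ => ψ (f j' - f j) * T.τ (star (z j) * z j')) univ
  refine h.symm.trans ?_
  rw [← expect_mul, AddChar.expect_apply_eq_ite]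
  by_cases hj : f j = f j'
  · simp [hj, Tr.ip]
  · simp [hj, sub_eq_zero, Ne.symm hj]

theorem khin (T : Tr A) {ι : Type} [Fintype ι] [DecidableEq ι] (x : ι → A) {C : ℝ}
    (h1 : ‖∑ g, star (x g) * x g‖ ≤ C) (h2 : ‖∑ g, x g * star (x g)‖ ≤ C) :
    𝔼 ψ : AddChar (ι → ZMod 4) ℂ, T.n2 (star (∑ g, ψ (Pi.single g 1) • x g) *
      ∑ g, ψ (Pi.single g 1) • x g) ^ 2 ≤ 2 * C ^ 2 := by
  have e : ∀ ψ : AddChar (ι → ZMod 4) ℂ, star (∑ g, ψ (Pi.single g 1) • x g) *
      ∑ g, ψ (Pi.single g 1) • x g =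
      ∑ j : ι × ι, ψ (Pi.single j.2 1 - Pi.single j.1 1) • (star (x j.1) * x j.2) := fun ψ => by
    rw [star_sum, sum_mul_sum, Fintype.sum_prod_type]
    refine sum_congr rfl fun a _ => sum_congr rfl fun b _ => ?_
    rw [star_smul, smul_mul_smul_comm, sub_eq_neg_add, ψ.map_add_eq_mul, ψ.map_neg_eq_conj]
    rfl
  simp only [e]
  refine (expect_char T (fun j : ι × ι => (Pi.single j.2 1 - Pi.single j.1 1 : ι → ZMod 4))
    fun j => star (x j.1) * x j.2).trans_le ?_
  have b1 : ∑ j : ι × ι, ∑ j' : ι × ι, (if j.1 = j.2 ∧ j'.1 = j'.2 then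
      T.ip (star (x j.1) * x j.2) (star (x j'.1) * x j'.2) else 0) ≤ C ^ 2 := by
    refine le_trans (le_of_eq ?_) (pow_le_pow_left₀ (T.n2_nonneg _) ((T.n2_le_norm _).trans h1) 2)
    rw [T.n2_sq, T.ip_comm, T.ip_sum_right]
    simp only [Fintype.sum_prod_type, ite_and, sum_ite_irrel, sum_const_zero, sum_ite_eq,
      mem_univ, if_true]
    exact sum_congr rfl fun a _ => by rw [T.ip_comm, T.ip_sum_right]
  have b2 : ∑ j : ι × ι, ∑ j' : ι × ι, (if j = j' then
      T.ip (star (x j.1) * x j.2) (star (x j'.1) * x j'.2) else 0) ≤ C ^ 2 := by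
    refine le_trans (le_of_eq ?_) (pow_le_pow_left₀ (T.n2_nonneg _) ((T.n2_le_norm _).trans h2) 2)
    simp only [sum_ite_eq, mem_univ, if_true]
    rw [T.n2_sq, Tr.ip, star_sum, sum_mul_sum, Fintype.sum_prod_type, map_sum, Complex.re_sum]
    refine sum_congr rfl fun a _ => ?_
    rw [map_sum, Complex.re_sum]
    refine sum_congr rfl fun b _ => ?_
    rw [Tr.ip, star_mul, star_mul, star_star, mul_assoc, T.comm]
    simp only [mul_assoc]
  rw [two_mul]
  refine le_trans ?_ (add_le_add b1 b2)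
  rw [← sum_add_distrib]
  refine sum_le_sum fun j _ => ?_
  rw [← sum_add_distrib]
  refine sum_le_sum fun j' _ => ?_
  by_cases hj : j = j'
  · subst hj
    have : 0 ≤ T.ip (star (x j.1) * x j.2) (star (x j.1) * x j.2) := by
      rw [← T.n2_sq]; exact sq_nonneg _
    rw [if_pos rfl, if_pos rfl]
    split_ifs <;> linarith
  · rw [if_neg hj, add_zero]
    refine le_of_eq (if_congr ⟨fun h => ?_, fun h => by rw [h.1, h.2, sub_self, sub_self]⟩ rfl rfl)
    rcases sidon h with h | h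
    · exact ⟨h.1.symm, h.2.symm⟩
    · exact absurd (Prod.ext h.2 h.1) hj

/-- The Sidon design on the n-th power of `ZMod 4`. -/
noncomputable def design (n : ℕ) : Design (Fin n → ZMod 4) n where
  π q := Equiv.addRight (if h : q < n then Pi.single ⟨q, h⟩ 1 else 0)
  d1 m q j hq hj hne h := by
    simp only [hq, hj, dif_pos, Equiv.addRight_symm, Equiv.coe_addRight] at h
    rw [add_assoc, add_eq_left, ← sub_eq_add_neg, ← sub_self (Pi.single (⟨q, hq⟩ : Fin n) 1)] at h
    rcases sidon h with h | h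
    · exact hne (congrArg Fin.val h.1)
    · exact hne (congrArg Fin.val h.2).symm
  d2 m q j q' j' hq hj hq' hj' hne h := by
    simp only [hq, hj, hq', hj', dif_pos, Equiv.addRight_symm, Equiv.coe_addRight] at h
    rw [add_assoc, add_assoc, add_right_inj, ← sub_eq_add_neg, ← sub_eq_add_neg] at h
    rcases sidon h with h | h
    · exact absurd (congrArg Fin.val h.1) hne
    · exact ⟨congrArg Fin.val h.1, congrArg Fin.val h.2⟩

theorem exists_flat_frame (T : Tr A) (W : Paulis A) (n : ℕ) (a b : A) {C : ℝ} (hC : 0 < C)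
    (ha : ‖a‖ ≤ C) (hb : ‖b‖ ≤ 1) :
    ∃ F : Frame T W.set (W.lvl n) (Fin n → ZMod 4),
      ∑ m, T.n2 (star (F.E m a) * F.E m a) ^ 2 ≤ 4 * C ^ 4 / 4 ^ n ∧
      ∑ m, T.n2 (star (F.E m b) * F.E m b) ^ 2 ≤ 4 / 4 ^ n := by
  classical
  have hcard : Fintype.card (Fin n → ZMod 4) = 4 ^ n := by simp
  obtain ⟨F, hF⟩ := W.exists_frame T n (AddChar (Fin n → ZMod 4) ℂ) (by rw [AddChar.card_eq, hcard])
  obtain ⟨c, hc⟩ : ∃ c : ℝ, c * c = (4 ^ n)⁻¹ := ⟨√((4 ^ n)⁻¹), Real.mul_self_sqrt (by positivity)⟩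
  have hc' : (c : ℂ) * c * 4 ^ n = 1 := by
    rw [← Complex.ofReal_mul, hc]
    push_cast
    exact inv_mul_cancel₀ (pow_ne_zero _ (by norm_num))
  have hu : ∀ {G : Type} [AddCommGroup G] [Finite G] (ψ : AddChar G ℂ) (x : G),
      conj (ψ x) * ψ x = 1 := fun ψ x => by
    rw [← ψ.map_neg_eq_conj, ← ψ.map_add_eq_mul, neg_add_cancel, ψ.map_zero_eq_one]
  let O : AddChar (AddChar (Fin n → ZMod 4) ℂ → ZMod 4) ℂ → (Fin n → ZMod 4) →
      AddChar (Fin n → ZMod 4) ℂ → ℂ := fun ψ m g => ψ (Pi.single g 1) * (c * g m)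
  have h1 : ∀ ψ g h, ∑ m, conj (O ψ m g) * O ψ m h = if g = h then 1 else 0 := fun ψ g h => by
    have e : ∀ m, conj (O ψ m g) * O ψ m h =
        conj (ψ (Pi.single g 1)) * ψ (Pi.single h 1) * (c * c) * (h - g) m := fun m => by
      simp only [O, map_mul, Complex.conj_ofReal, AddChar.sub_apply, AddChar.map_neg_eq_conj]
      ring
    simp only [e]
    rw [← mul_sum, AddChar.sum_eq_ite, hcard]
    by_cases hgh : g = h
    · subst hgh
      rw [if_pos (sub_self _), if_pos rfl, hu, one_mul]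
      exact_mod_cast hc'
    · rw [if_neg fun h0 => hgh (sub_eq_zero.1 h0).symm, if_neg hgh, mul_zero]
  have h2 : ∀ ψ m l, ∑ g, O ψ m g * conj (O ψ l g) = if m = l then 1 else 0 := fun ψ m l => by
    have e : ∀ g, O ψ m g * conj (O ψ l g) = (c * c) * g (m - l) := fun g => by
      simp only [O, map_mul, Complex.conj_ofReal, sub_eq_add_neg, AddChar.map_add_eq_mul,
        AddChar.map_neg_eq_conj]
      linear_combination (c * c * g m * conj (g l)) * hu ψ (Pi.single g 1)
    simp only [e]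
    rw [← mul_sum, AddChar.sum_apply_eq_ite, hcard]
    by_cases hml : m = l
    · subst hml
      rw [if_pos (sub_self _), if_pos rfl]
      exact_mod_cast hc'
    · rw [if_neg fun h0 => hml (sub_eq_zero.1 h0), if_neg hml, mul_zero]
  have key : ∀ (y : A) (K : ℝ), ‖y‖ ≤ K → 𝔼 ψ, ∑ m, T.n2 (star ((F.rotate (O ψ) (h1 ψ) (h2 ψ)).E m y) *
      (F.rotate (O ψ) (h1 ψ) (h2 ψ)).E m y) ^ 2 ≤ 2 * K ^ 4 / 4 ^ n := by
    intro y K hy
    have hK := pow_le_pow_left₀ (norm_nonneg _) hy 2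
    have hs : ∀ (m : Fin n → ZMod 4) (g : AddChar (Fin n → ZMod 4) ℂ),
        star ((c : ℂ) * g m) * (c * g m) = ((4 ^ n : ℝ)⁻¹ : ℝ) := fun m g => by
      rw [← hc]
      simp only [star_mul', RCLike.star_def, Complex.conj_ofReal, Complex.ofReal_mul]
      linear_combination (c * c : ℂ) * hu g m
    rw [expect_sum_comm]
    refine (sum_le_sum (g := fun _ => 2 * ((4 ^ n)⁻¹ * K ^ 2) ^ 2) fun m _ => ?_).trans
      (le_of_eq ?_)
    · have := khin T (fun g => ((c : ℂ) * g m) • F.E g y) (C := (4 ^ n)⁻¹ * K ^ 2) ?_ ?_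
      · simpa only [Frame.rotate, O, mul_smul] using this
      · simp only [star_smul, smul_mul_smul_comm, hs, ← smul_sum, norm_smul, Complex.norm_real]
        rw [Real.norm_of_nonneg (by positivity)]
        exact mul_le_mul_of_nonneg_left ((hF y).1.trans hK) (by positivity)
      · simp only [star_smul, smul_mul_smul_comm, mul_comm _ (star ((c : ℂ) * _)), hs, ← smul_sum,
          norm_smul, Complex.norm_real]
        rw [Real.norm_of_nonneg (by positivity)]
        exact mul_le_mul_of_nonneg_left ((hF y).2.trans hK) (by positivity)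
    · rw [sum_const, card_univ, hcard, nsmul_eq_mul]
      push_cast
      field_simp
  obtain ⟨ψ, -, hψ⟩ := exists_le_of_expect_le (s := univ) univ_nonempty
    (f := fun ψ => (∑ m, T.n2 (star ((F.rotate (O ψ) (h1 ψ) (h2 ψ)).E m a) *
      (F.rotate (O ψ) (h1 ψ) (h2 ψ)).E m a) ^ 2) / C ^ 4 +
      ∑ m, T.n2 (star ((F.rotate (O ψ) (h1 ψ) (h2 ψ)).E m b) *
      (F.rotate (O ψ) (h1 ψ) (h2 ψ)).E m b) ^ 2) (a := 4 / 4 ^ n) (by
      rw [expect_add_distrib, ← expect_div]
      have e1 := div_le_div_of_nonneg_right (key a C ha) (pow_pos hC 4).le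
      have e2 := key b 1 hb
      have e3 : 2 * C ^ 4 / 4 ^ n / C ^ 4 + 2 * 1 ^ 4 / 4 ^ n = 4 / 4 ^ n := by
        field_simp
        norm_num
      linarith)
  refine ⟨F.rotate (O ψ) (h1 ψ) (h2 ψ), ?_, ?_⟩
  · have := (le_add_of_nonneg_right (sum_nonneg fun m _ => sq_nonneg _)).trans hψ
    rwa [div_le_iff₀ (pow_pos hC 4), div_mul_eq_mul_div] at this
  · exact (le_add_of_nonneg_left (div_nonneg (sum_nonneg fun m _ => sq_nonneg _)
      (pow_pos hC 4).le)).trans hψ

end Vale.Agent.P085
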