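import Vale.Agent.P085.Baire

/-! Reduction to a single generator. -/

namespace Vale.Agent.P085

open scoped BigOperators
open Filter Topology ComplexStarModule

variable {A : Type*} [CStarAlgebra A]

theorem mem_of_two_smul {S : StarSubalgebra ℂ A} {x : A} (h : x + x ∈ S) : x ∈ S := by
  have := SMulMemClass.smul_mem (2⁻¹ : ℂ) h
  rwa [← two_smul ℂ, smul_smul, inv_mul_cancel₀ two_ne_zero, one_smul] at this

theorem real_smul_mem {S : StarSubalgebra ℂ A} (c : ℝ) {x : A} (h : x ∈ S) : c • x ∈ S := by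
  rw [← Complex.coe_smul]
  exact SMulMemClass.smul_mem _ h

/-- One self-adjoint element encodes a sequence of commuting symmetries. -/
theorem exists_code [Nontrivial A] (J : ℕ → A) (hs : ∀ i, star (J i) = J i)
    (h2 : ∀ i, J i * J i = 1) (hc : ∀ i j, J i * J j = J j * J i) :
    ∃ r : A, star r = r ∧ ∀ S : StarSubalgebra ℂ A, IsClosed (S : Set A) → r ∈ S →
      ∀ i, J i ∈ S := by
  have hn : ∀ n i, ‖(3⁻¹ : ℝ) ^ i • J (i + n)‖ = (3⁻¹ : ℝ) ^ i := fun n i => by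
    rw [norm_smul, CStarRing.norm_of_mem_unitary (U := J (i + n))
      (Unitary.mem_iff.2 (by simp [hs, h2])), mul_one, Real.norm_of_nonneg (by positivity)]
  have hg : HasSum (fun i : ℕ => (3⁻¹ : ℝ) ^ i) (3 / 2) := by
    have := hasSum_geometric_of_lt_one (r := 3⁻¹) (by norm_num) (by norm_num)
    norm_num at this ⊢
    exact this
  have hsum : ∀ n, Summable fun i => (3⁻¹ : ℝ) ^ i • J (i + n) := fun n =>
    .of_norm (by simpa only [hn] using hg.summable)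
  let r : ℕ → A := fun n => ∑' i, (3⁻¹ : ℝ) ^ i • J (i + n)
  have hrs : ∀ n, star (r n) = r n := fun n => by
    simp only [r, tsum_star, star_smul, hs, star_trivial]
  have hrn : ∀ n, ‖r n‖ ≤ 3 / 2 := fun n => tsum_of_norm_bounded hg fun i => (hn n i).le
  have hrec : ∀ n, r n = (1 : ℝ) • J n + (3⁻¹ : ℝ) • r (n + 1) := fun n => by
    simp only [r]
    rw [(hsum n).tsum_eq_zero_add, ← (hsum (n + 1)).tsum_const_smul, pow_zero, zero_add]
    congr 1
    refine tsum_congr fun i => ?_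
    rw [smul_smul, pow_succ', add_assoc, add_comm 1 n]
  have hcomm : ∀ m n, J m * r n = r n * J m := fun m n =>
    (Commute.tsum_right _ fun i => Commute.smul_right (hc m _) _).eq
  refine ⟨r 0, hrs 0, fun S hS h0 => ?_⟩
  have step : ∀ n, r n ∈ S → J n ∈ S := fun n hr =>
    peel (hs n) (h2 n) (by rw [star_smul, hrs, star_trivial]) (hrec n)
      (by rw [mul_smul_comm, smul_mul_assoc, hcomm]) (by
        rw [norm_smul, Real.norm_of_nonneg (by norm_num)]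
        linarith [hrn (n + 1)]) hS hr
  have all : ∀ n, r n ∈ S := fun n => by
    induction n with
    | zero => exact h0
    | succ n ih =>
      have := real_smul_mem 3 (sub_mem ih (step n ih))
      rwa [hrec n, one_smul, add_sub_cancel_left, smul_smul, mul_inv_cancel₀ (by norm_num),
        one_smul] at this
  exact fun i => step i (all i)

theorem split_mem {X Z g g' : A} (hX : X * X = 1) (hZ : Z * Z = 1) (hXZ : X * Z = -(Z * X))
    (hg : X * g = g * X) (hg' : X * g' = g' * X) {S : StarSubalgebra ℂ A} (hXS : X ∈ S)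
    (hZS : Z ∈ S) (h : g + Z * g' ∈ S) : g ∈ S ∧ g' ∈ S := by
  have e : g + Z * g' + X * (g + Z * g') * X = g + g := by
    rw [mul_add, add_mul, hg, mul_assoc g, hX, mul_one, ← mul_assoc X, hXZ, neg_mul, neg_mul,
      mul_assoc Z, hg', mul_assoc, mul_assoc, hX, mul_one]
    abel
  have h1 : g ∈ S := mem_of_two_smul (e ▸ add_mem h (mul_mem (mul_mem hXS h) hXS))
  have h2 := mul_mem hZS (sub_mem h h1)
  rw [add_sub_cancel_left, ← mul_assoc, hZ, one_mul] at h2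
  exact ⟨h1, h2⟩

/-- A Pauli pair and four elements of its commutant are generated by two elements. -/
theorem reduce {X Z : A} (hXs : star X = X) (hZs : star Z = Z) (hX : X * X = 1) (hZ : Z * Z = 1)
    (hXZ : X * Z = -(Z * X)) (g : Fin 4 → A) (hg : ∀ i, star (g i) = g i)
    (hgX : ∀ i, X * g i = g i * X) (hgZ : ∀ i, Z * g i = g i * Z) :
    ∃ c a : A, star c = c ∧ star a = a ∧
      (∀ Q : StarSubalgebra ℂ A, X ∈ Q → Z ∈ Q → (∀ i, g i ∈ Q) → c ∈ Q ∧ a ∈ Q) ∧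
      ∀ S : StarSubalgebra ℂ A, IsClosed (S : Set A) → c ∈ S → a ∈ S →
        X ∈ S ∧ Z ∈ S ∧ ∀ i, g i ∈ S := by
  have hy : ∀ i j, star (g i + Z * g j) = g i + Z * g j := fun i j => by
    rw [star_add, star_mul, hg, hg, hZs, hgZ]
  have hyZ : ∀ i j, Z * (g i + Z * g j) = (g i + Z * g j) * Z := fun i j => by
    rw [mul_add, add_mul, hgZ i, mul_assoc, ← hgZ j]
  refine ⟨(‖g 0 + Z * g 1‖ + 1) • Z + (g 0 + Z * g 1), X + (g 2 + Z * g 3),
    by rw [star_add, star_smul, hZs, hy, star_trivial], by rw [star_add, hXs, hy],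
    fun Q hXQ hZQ hgQ => ⟨add_mem (real_smul_mem _ hZQ) (add_mem (hgQ 0) (mul_mem hZQ (hgQ 1))),
      add_mem hXQ (add_mem (hgQ 2) (mul_mem hZQ (hgQ 3)))⟩, fun S hS hc ha => ?_⟩
  have hZS : Z ∈ S := peel hZs hZ (hy 0 1) rfl (hyZ 0 1) (lt_add_one _) hS hc
  have e : X + (g 2 + Z * g 3) - Z * (X + (g 2 + Z * g 3)) * Z = X + X := by
    rw [mul_add Z X, add_mul, hyZ, mul_assoc _ Z Z, hZ, mul_one, mul_assoc, hXZ, mul_neg,
      ← mul_assoc, hZ, one_mul]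
    abel
  have hXS : X ∈ S := mem_of_two_smul (e ▸ sub_mem ha (mul_mem (mul_mem hZS ha) hZS))
  have h1 := sub_mem hc (real_smul_mem (‖g 0 + Z * g 1‖ + 1) hZS)
  have h2 := sub_mem ha hXS
  rw [add_sub_cancel_left] at h1 h2
  obtain ⟨h3, h4⟩ := split_mem hX hZ hXZ (hgX 0) (hgX 1) hXS hZS h1
  obtain ⟨h5, h6⟩ := split_mem hX hZ hXZ (hgX 2) (hgX 3) hXS hZS h2
  refine ⟨hXS, hZS, fun i => ?_⟩
  fin_cases i
  exacts [h3, h4, h5, h6]

/-- The Pauli operators of levels at least `n`, inside the commutant of the first `n` levels. -/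
def Paulis.shift (W : Paulis A) (n : ℕ) : Paulis (W.lvl n) where
  X i := ⟨W.X (i + n), W.X_mem (Nat.le_add_left n i)⟩
  Z i := ⟨W.Z (i + n), W.Z_mem (Nat.le_add_left n i)⟩
  X_star _ := Subtype.ext (W.X_star _)
  Z_star _ := Subtype.ext (W.Z_star _)
  X_sq _ := Subtype.ext (W.X_sq _)
  Z_sq _ := Subtype.ext (W.Z_sq _)
  anti _ := Subtype.ext (W.anti _)
  XX _ _ := Subtype.ext (W.XX _ _)
  ZZ _ _ := Subtype.ext (W.ZZ _ _)
  XZ _ _ h := Subtype.ext (W.XZ _ _ (by omega))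

/-- Single generation in the two-norm. -/
theorem exists_generator (T : Tr A) (hT : T.Complete) (W : Paulis A) {B : Set A}
    (hB : B.Countable) : ∃ x : A, ∀ S : StarSubalgebra ℂ A, IsClosed (S : Set A) → x ∈ S →
      ∀ b ∈ B, ∀ ε > 0, ∃ y ∈ S, T.n2 (b - y) < ε := by
  obtain ⟨F, -⟩ := W.exists_frame T 2 (Fin 16) (by simp)
  have := (T.restrict (W.lvl 2)).nontrivial
  let E : Fin 16 → A → W.lvl 2 := fun m b => ⟨F.E m b, F.E_mem m b⟩
  obtain ⟨U₁, U₂, -, -, hU⟩ := exists_pair (T.restrict (W.lvl 2)) (W.shift 2)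
    (W.lvl_complete hT 2) (Set.countable_iUnion fun m => hB.image (E m))
  obtain ⟨r₁, hr₁, hc₁⟩ := exists_code _ (W.shift 2).X_star (W.shift 2).X_sq (W.shift 2).XX
  obtain ⟨r₂, hr₂, hc₂⟩ := exists_code _ (W.shift 2).Z_star (W.shift 2).Z_sq (W.shift 2).ZZ
  let g₁ : Fin 4 → W.lvl 2 := ![r₁, r₂, ℜ U₁, ℑ U₁]
  have hg₁ : ∀ i, star (g₁ i) = g₁ i := fun i => by
    fin_cases i
    exacts [hr₁, hr₂, (ℜ U₁).2, (ℑ U₁).2]
  obtain ⟨c₁, a₁, hc₁s, ha₁s, hQ₁, hS₁⟩ := reduce (W.X_star 1) (W.Z_star 1) (W.X_sq 1) (W.Z_sq 1)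
    (W.anti 1) (fun i => g₁ i) (fun i => congrArg Subtype.val (hg₁ i))
    (fun i => ((g₁ i).2 1 (by norm_num)).1) fun i => ((g₁ i).2 1 (by norm_num)).2
  obtain ⟨hc₁m, ha₁m⟩ := hQ₁ (W.lvl 1) (W.X_mem le_rfl) (W.Z_mem le_rfl)
    fun i => W.lvl_succ_le (g₁ i).2
  let g₀ : Fin 4 → A := ![c₁, a₁, (ℜ U₂ : W.lvl 2), (ℑ U₂ : W.lvl 2)]
  have hg₀ : ∀ i, star (g₀ i) = g₀ i ∧ g₀ i ∈ W.lvl 1 := fun i => by
    fin_cases i
    exacts [⟨hc₁s, hc₁m⟩, ⟨ha₁s, ha₁m⟩,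
      ⟨congrArg Subtype.val (ℜ U₂).2, W.lvl_succ_le (ℜ U₂ : W.lvl 2).2⟩,
      ⟨congrArg Subtype.val (ℑ U₂).2, W.lvl_succ_le (ℑ U₂ : W.lvl 2).2⟩]
  obtain ⟨c, a, hcs, has, -, hS₀⟩ := reduce (W.X_star 0) (W.Z_star 0) (W.X_sq 0) (W.Z_sq 0)
    (W.anti 0) g₀ (fun i => (hg₀ i).1) (fun i => ((hg₀ i).2 0 one_pos).1)
    fun i => ((hg₀ i).2 0 one_pos).2
  refine ⟨c + Complex.I • a, fun S hS hx b hb ε hε => ?_⟩
  have hcS : c ∈ S := mem_of_two_smul (by
    have := add_mem hx (star_mem hx)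
    rwa [star_add, star_smul, hcs, has, Complex.star_def, Complex.conj_I, neg_smul,
      add_add_add_comm, add_neg_cancel, add_zero] at this)
  have haS : a ∈ S := by
    have := SMulMemClass.smul_mem (-Complex.I) (sub_mem hx hcS)
    rwa [add_sub_cancel_left, smul_smul, neg_mul, Complex.I_mul_I, neg_neg, one_smul] at this
  obtain ⟨hX0, hZ0, hg₀S⟩ := hS₀ S hS hcS haS
  obtain ⟨hX1, hZ1, hg₁S⟩ := hS₁ S hS (hg₀S 0) (hg₀S 1)
  let S' := S.comap (W.lvl 2).subtype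
  have hS' : IsClosed (S' : Set (W.lvl 2)) := hS.preimage continuous_subtype_val
  have hX2 := hc₁ S' hS' (hg₁S 0)
  have hZ2 := hc₂ S' hS' (hg₁S 1)
  have hre : ∀ U : W.lvl 2, (ℜ U : W.lvl 2) ∈ S' → (ℑ U : W.lvl 2) ∈ S' → U ∈ S' :=
    fun U h1 h2 => by
      have h3 := add_mem h1 (SMulMemClass.smul_mem Complex.I h2)
      rwa [realPart_add_I_smul_imaginaryPart] at h3
  have hW : W.set ⊆ S := by
    rintro _ (⟨i, rfl⟩ | ⟨i, rfl⟩)
    · match i with
      | 0 => exact hX0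
      | 1 => exact hX1
      | i + 2 => exact hX2 i
    · match i with
      | 0 => exact hZ0
      | 1 => exact hZ1
      | i + 2 => exact hZ2 i
  choose y hy hy' using fun m => hU S' hS' (hre _ (hg₁S 2) (hg₁S 3)) (hre _ (hg₀S 2) (hg₀S 3))
    (by rintro _ (⟨i, rfl⟩ | ⟨i, rfl⟩); exacts [hX2 i, hZ2 i]) (E m b)
    (Set.mem_iUnion.2 ⟨m, b, hb, rfl⟩) (ε / 5) (by positivity)
  refine ⟨∑ m, F.β m * y m, sum_mem fun m _ => mul_mem (F.β_in S hW m) (hy m), ?_⟩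
  rw [← sq_lt_sq₀ (T.n2_nonneg _) hε.le, F.n2_sub_sum fun m => (y m).2]
  refine (Finset.sum_le_card_nsmul _ _ ((ε / 5) ^ 2) fun m _ =>
    pow_le_pow_left₀ (T.n2_nonneg _) (hy' m).le 2).trans_lt ?_
  have := sq_pos_of_pos hε
  simp only [Finset.card_univ, Fintype.card_fin, nsmul_eq_mul, div_pow]
  push_cast
  linarith

end Vale.Agent.P085
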