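import Vale.Agent.P085.Norm

/-! Polar parts and chains of isometric pieces in an abstract finite factor. -/

open scoped ComplexOrder
open Filter Topology

namespace Vale.Agent.P085

open Vale.Agent.P070

universe u

variable {R : Type u} [CStarAlgebra R] {τ : R →L[ℂ] ℂ}

theorem tr_le_of_le [PartialOrder R] [StarOrderedRing R] (h : IsFT τ) {x y : R} (hxy : x ≤ y) :
    tr τ x ≤ tr τ y := by
  obtain ⟨z, hz⟩ := CStarAlgebra.nonneg_iff_eq_star_mul_self.mp (sub_nonneg.2 hxy)
  have := nn_sq h z
  rw [← hz, tr_sub] at this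
  nlinarith [sq_nonneg (nn τ z)]

theorem tr_cfc_mono (h : IsFT τ) (a : R) {f g : ℝ → ℝ} (hf : Continuous f) (hg : Continuous g)
    (hfg : ∀ t ∈ spectrum ℝ a, f t ≤ g t) : tr τ (cfc f a) ≤ tr τ (cfc g a) := by
  let : PartialOrder R := CStarAlgebra.spectralOrder R
  have : StarOrderedRing R := CStarAlgebra.spectralOrderedRing R
  exact tr_le_of_le h (cfc_mono hfg hf.continuousOn hg.continuousOn)

theorem Lim.of_norm (h : IsFT τ) {f : ℕ → R} {x : R} (hf : Tendsto f atTop (𝓝 x)) :
    Lim τ f x := by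
  obtain ⟨C, hC⟩ := (Metric.isBounded_range_of_tendsto f hf).exists_norm_le
  exact ⟨⟨C, fun n => hC _ ⟨n, rfl⟩⟩, squeeze_zero (fun _ => nn_nonneg _)
    (fun n => nn_le_norm h _) (tendsto_iff_norm_sub_tendsto_zero.1 hf)⟩

/-- `v` is an isometry on the range of its initial projection. -/
def PI (v : R) : Prop := v * star v * v = v

theorem PI.star' {v : R} (hv : PI v) : PI (star v) := by
  have := congrArg star hv
  simpa [PI, mul_assoc] using this

theorem PI.left {v : R} (hv : PI v) : IsStarProjection (v * star v) :=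
  ⟨by rw [IsIdempotentElem, ← mul_assoc, hv], IsSelfAdjoint.mul_star_self v⟩

theorem PI.right {v : R} (hv : PI v) : IsStarProjection (star v * v) := by
  simpa using hv.star'.left

theorem PI.mul_right {v : R} (hv : PI v) : v * (star v * v) = v := by rw [← mul_assoc, hv]

theorem PI.norm_le {v : R} (hv : PI v) : ‖v‖ ≤ 1 := by
  have h2 : ‖v‖ * ‖v‖ ≤ 1 := by
    rw [← CStarRing.norm_star_mul_self]; exact hv.right.norm_le
  nlinarith [norm_nonneg v]

theorem PI.of_proj {p : R} (hp : IsStarProjection p) : PI p := by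
  rw [PI, hp.isSelfAdjoint.star_eq, hp.isIdempotentElem.eq, hp.isIdempotentElem.eq]

theorem PI.of_right {v : R} (hv : IsStarProjection (star v * v)) : PI v := by
  have h2 : star (v * (1 - star v * v)) * (v * (1 - star v * v)) = 0 := by
    rw [star_mul, hv.one_sub.isSelfAdjoint.star_eq, mul_assoc, ← mul_assoc (star v),
      hv.mul_one_sub_self, mul_zero]
  have h3 := (CStarRing.star_mul_self_eq_zero_iff _).1 h2
  rwa [mul_sub, mul_one, sub_eq_zero, eq_comm, ← mul_assoc] at h3

theorem PI.right_ne_zero {v : R} (hv : PI v) (h0 : v ≠ 0) : star v * v ≠ 0 := fun h =>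
  h0 (by rw [← hv.mul_right, h, mul_zero])

theorem IsTF.exists_polar (h : IsTF τ) (x : R) : ∃ v, PI v ∧ v * star v * x = x ∧
    x * (star v * v) = x ∧ (∀ z, z * x = 0 → z * v = 0) ∧ ∀ z, x * z = 0 → v * z = 0 := by
  let : PartialOrder R := CStarAlgebra.spectralOrder R
  have : StarOrderedRing R := CStarAlgebra.spectralOrderedRing R
  set a := star x * x with ha
  have ha0 : 0 ≤ a := star_mul_self_nonneg x
  have hsa : IsSelfAdjoint a := ha0.isSelfAdjoint
  have hsp : ∀ t ∈ spectrum ℝ a, 0 ≤ t := fun t ht => spectrum_nonneg_of_nonneg ha0 ht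
  let ε : ℕ → ℝ := fun n => 1 / ((n : ℝ) + 1)
  have hε : ∀ n, 0 < ε n := fun n => by positivity
  let f : ℕ → ℝ → ℝ := fun n t => (√(|t| + ε n))⁻¹
  have hfc : ∀ n, Continuous (f n) := fun n =>
    Continuous.inv₀ (by fun_prop) fun t => (Real.sqrt_pos.2 (by have := hε n; positivity)).ne'
  have hf0 : ∀ n t, 0 ≤ f n t := fun n t => by positivity
  have hfsq : ∀ n t, 0 ≤ t → f n t * t * f n t = t / (t + ε n) := by
    intro n t ht
    have := hε n
    simp only [f, abs_of_nonneg ht]
    rw [mul_comm _ t, mul_assoc, ← mul_inv, Real.mul_self_sqrt (by positivity), div_eq_mul_inv]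
  have hfm : ∀ n m t, n ≤ m → f n t ≤ f m t := by
    intro n m t hnm
    have := hε m
    refine inv_anti₀ (Real.sqrt_pos.2 (by positivity)) (Real.sqrt_le_sqrt ?_)
    have : ε m ≤ ε n := one_div_le_one_div_of_le (by positivity) (by gcongr)
    linarith
  have hmul : ∀ g k : ℝ → ℝ, Continuous g → Continuous k →
      star (x * cfc g a) * (x * cfc k a) = cfc (fun t => g t * t * k t) a := by
    intro g k hg hk
    rw [star_mul, (cfc_predicate g a).star_eq,
      cfc_mul _ _ a (by fun_prop) hk.continuousOn, cfc_mul _ _ a hg.continuousOn (by fun_prop),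
      cfc_id' ℝ a]
    simp only [mul_assoc, ha]
  have hnorm : ∀ (g : ℝ → ℝ) (c : ℝ), Continuous g → 0 ≤ c → (∀ t, 0 ≤ t → g t * t * g t ≤ c ^ 2) →
      ‖x * cfc g a‖ ≤ c := by
    intro g c hg hc hgc
    refine (pow_le_pow_iff_left₀ (norm_nonneg _) hc two_ne_zero).1 ?_
    rw [sq, ← CStarRing.norm_star_mul_self, hmul g g hg hg]
    refine norm_cfc_le (by positivity) fun t ht => ?_
    have h0 := hsp t ht
    rw [Real.norm_of_nonneg (by nlinarith [mul_self_nonneg (g t)])]
    exact hgc t h0
  let v : ℕ → R := fun n => x * cfc (f n) a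
  have hv1 : ∀ n, ‖v n‖ ≤ 1 := fun n => hnorm _ 1 (hfc n) zero_le_one fun t ht => by
    have := hε n
    rw [hfsq n t ht, one_pow, div_le_one (by positivity)]; linarith
  obtain ⟨w, hw⟩ := h.exists_lim hv1 (t := fun n => tr τ (cfc (fun t => f n t * t * f n t) a))
    (fun n m hnm => tr_cfc_mono h.toIsFT a (by fun_prop) (by fun_prop) fun t ht => by
      have := hsp t ht
      have := hf0 n t
      have := hf0 m t
      gcongr <;> exact hfm n m t hnm) (C := 1) (fun n => by
      rw [← hmul _ _ (hfc n) (hfc n), ← nn_sq h.toIsFT]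
      exact pow_le_one₀ (nn_nonneg _) ((nn_le_norm h.toIsFT _).trans (hv1 n))) (fun n m hnm => by
      have h1 : v m - v n = x * cfc (fun t => f m t - f n t) a := by
        rw [cfc_sub _ _ a (hfc m).continuousOn (hfc n).continuousOn, mul_sub]
      rw [h1, nn_sq h.toIsFT, hmul _ _ (by fun_prop) (by fun_prop), ← tr_sub,
        ← cfc_sub _ _ a (by fun_prop) (by fun_prop)]
      refine tr_cfc_mono h.toIsFT a (by fun_prop) (by fun_prop) fun t ht => ?_
      have h2 := hsp t ht
      have h3 := hf0 n t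
      have h4 := hfm n m t hnm
      nlinarith [mul_nonneg h2 (mul_nonneg h3 (sub_nonneg.2 h4))])
  have hx : Lim τ (fun n => x * cfc (fun t => f n t * t * f n t) a) x := by
    refine Lim.of_norm h.toIsFT (tendsto_iff_norm_sub_tendsto_zero.2 ?_)
    have hs : Tendsto (fun n => √(ε n)) atTop (𝓝 0) := by
      simpa only [Real.sqrt_zero] using (tendsto_one_div_add_atTop_nhds_zero_nat (𝕜 := ℝ)).sqrt
    refine squeeze_zero (fun _ => norm_nonneg _) (fun n => ?_) hs
    have h1 : x * cfc (fun t => f n t * t * f n t) a - x =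
        x * cfc (fun t => f n t * t * f n t - 1) a := by
      rw [cfc_sub _ _ a (by fun_prop) (by fun_prop), cfc_const_one ℝ a, mul_sub, mul_one]
    rw [h1]
    refine hnorm _ _ (by fun_prop) (Real.sqrt_nonneg _) fun t ht => ?_
    have := hε n
    rw [hfsq n t ht, Real.sq_sqrt this.le]
    have h2 : t / (t + ε n) - 1 = -(ε n / (t + ε n)) := by field_simp; ring
    rw [h2]
    have h3 : ε n / (t + ε n) ≤ 1 := by rw [div_le_one (by positivity)]; linarith
    have h4 : ε n / (t + ε n) * t ≤ ε n := by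
      rw [div_mul_eq_mul_div, div_le_iff₀ (by positivity)]; nlinarith
    have h5 : 0 ≤ ε n / (t + ε n) := by positivity
    nlinarith [mul_nonneg h5 ht]
  have hr : ∀ z, x * z = 0 → w * z = 0 := by
    intro z hz
    refine (hw.mul h.toIsFT (Lim.const z)).unique' h.toIsFT (Lim.const 0) fun n => ?_
    refine (CStarRing.star_mul_self_eq_zero_iff _).1 ?_
    rw [star_mul, mul_assoc, ← mul_assoc (star (v n)), hmul _ _ (hfc n) (hfc n)]
    have : cfc (fun t => f n t * t * f n t) a = cfc (fun t => f n t * f n t) a * a := by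
      conv_rhs => rw [← cfc_id' ℝ a]
      rw [cfc_id' ℝ a]
      nth_rw 3 [← cfc_id' ℝ a]
      rw [← cfc_mul _ _ a (by fun_prop) (by fun_prop)]
      congr 1; ext t; ring
    rw [this, mul_assoc, ha, mul_assoc (star x), hz]; simp
  have h3 : x * (star w * w) = x :=
    ((Lim.const x).mul h.toIsFT ((hw.star' h.toIsFT).mul h.toIsFT hw)).unique' h.toIsFT hx
      fun n => by rw [hmul _ _ (hfc n) (hfc n)]
  refine ⟨w, ?_, ?_, h3, fun z hz => ?_, hr⟩
  · have := hr (1 - star w * w) (by rw [mul_sub, mul_one, h3, sub_self])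
    rwa [mul_sub, mul_one, sub_eq_zero, eq_comm, ← mul_assoc] at this
  · refine ((hw.mul h.toIsFT (hw.star' h.toIsFT)).mul h.toIsFT (Lim.const x)).unique' h.toIsFT hx
      fun n => ?_
    simp only [v]
    rw [star_mul, (cfc_predicate (f n) a).star_eq, mul_assoc, mul_assoc, mul_assoc, ← ha]
    congr 1
    nth_rw 3 [← cfc_id' ℝ a]
    rw [← cfc_mul _ _ a (by fun_prop) (by fun_prop), ← cfc_mul _ _ a (by fun_prop) (by fun_prop)]
    congr 1; ext t; ring
  · refine ((Lim.const z).mul h.toIsFT hw).unique' h.toIsFT (Lim.const 0) fun n => ?_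
    rw [← mul_assoc, hz, zero_mul]

/-- Extension order on isometric pieces. -/
def Ex (v w : R) : Prop := star v * w = star v * v ∧ w * star v = v * star v

theorem Ex.refl (v : R) : Ex v v := ⟨rfl, rfl⟩

theorem Ex.mul_right {v w : R} (hv : PI v) (h : Ex v w) : w * (star v * v) = v := by
  rw [← mul_assoc, h.2, hv]

theorem Ex.left_mul {v w : R} (hv : PI v) (h : Ex v w) : v * star v * w = v := by
  rw [mul_assoc, h.1, hv.mul_right]

theorem Ex.trans {u v w : R} (hu : PI u) (h : Ex u v) (h' : Ex v w) : Ex u w := by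
  have h1 : star u = star u * u * star v := by simpa using congrArg star (h.mul_right hu).symm
  have h2 : star u = star v * (u * star u) := by simpa using congrArg star (h.left_mul hu).symm
  constructor
  · calc star u * w = star u * u * (star v * w) := by rw [← mul_assoc, ← h1]
      _ = star u * u := by rw [h'.1, ← mul_assoc, ← h1, h.1]
  · calc w * star u = w * star v * (u * star u) := by rw [mul_assoc, ← h2]
      _ = u * star u := by rw [h'.2, mul_assoc, ← h2, h.2]

theorem Ex.nn_sq (h : IsFT τ) {v w : R} (hvw : Ex v w) :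
    nn τ (w - v) ^ 2 = tr τ (star w * w) - tr τ (star v * v) := by
  have h1 : star w * v = star v * v := by simpa using congrArg star hvw.1
  rw [P085.nn_sq h, star_sub, sub_mul, mul_sub, mul_sub, h1, hvw.1, sub_self, sub_zero, tr_sub]

theorem Ex.tr_le (h : IsFT τ) {v w : R} (hvw : Ex v w) :
    tr τ (star v * v) ≤ tr τ (star w * w) := by
  have := hvw.nn_sq h
  nlinarith [sq_nonneg (nn τ (w - v))]

theorem Ex.add {v d : R} (h1 : star v * d = 0) (h2 : d * star v = 0) : Ex v (v + d) :=
  ⟨by rw [mul_add, h1, add_zero], by rw [add_mul, h2, add_zero]⟩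

theorem PI.add {v d : R} (hv : PI v) (hd : PI d) (h1 : star v * d = 0) (h2 : d * star v = 0) :
    PI (v + d) := by
  have h3 : star d * v = 0 := by simpa using congrArg star h1
  have h4 : v * star d = 0 := by simpa using congrArg star h2
  have h5 : (v + d) * star (v + d) = v * star v + d * star d := by
    simp only [star_add, add_mul, mul_add, h2, h4, add_zero, zero_add]
  rw [PI, h5, add_mul, mul_add, mul_add, hv, hd, mul_assoc, h1, mul_assoc, h3]
  simp

theorem tr_star_add_mul {v d : R} (h1 : star v * d = 0) :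
    tr τ (star (v + d) * (v + d)) = tr τ (star v * v) + tr τ (star d * d) := by
  have h3 : star d * v = 0 := by simpa using congrArg star h1
  rw [star_add, add_mul, mul_add, mul_add, h1, h3, add_zero, zero_add, tr_add]

theorem IsTF.exists_chain (h : IsTF τ) {f : ℕ → R} (hf : ∀ n, PI (f n))
    (hm : ∀ n m, n ≤ m → Ex (f n) (f m)) : ∃ w, Lim τ f w ∧ PI w ∧ ∀ n, Ex (f n) w := by
  obtain ⟨w, hw⟩ := h.exists_lim (fun n => (hf n).norm_le) (t := fun n => tr τ (star (f n) * f n))
    (fun n m hnm => (hm n m hnm).tr_le h.toIsFT) (C := 1)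
    (fun n => tr_le_one h.toIsFT (hf n).right) fun n m hnm => ((hm n m hnm).nn_sq h.toIsFT).le
  refine ⟨w, hw, ((hw.mul h.toIsFT (hw.star' h.toIsFT)).mul h.toIsFT hw).unique' h.toIsFT hw hf,
    fun n => ⟨?_, ?_⟩⟩
  · refine ((Lim.const _).mul h.toIsFT hw).unique h.toIsFT (Lim.const _) ?_
    filter_upwards [eventually_ge_atTop n] with m hnm using (hm n m hnm).1
  · refine (hw.mul h.toIsFT (Lim.const _)).unique h.toIsFT (Lim.const _) ?_
    filter_upwards [eventually_ge_atTop n] with m hnm using (hm n m hnm).2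

/-- Maximal isometric pieces with a property that is closed under limits. -/
theorem IsTF.exists_max (h : IsTF τ) (P : R → Prop) (h0 : P 0)
    (hP : ∀ (f : ℕ → R) (w : R), (∀ n, PI (f n) ∧ P (f n)) → Lim τ f w → (∀ n, Ex (f n) w) → P w) :
    ∃ v, PI v ∧ P v ∧ ∀ d, PI d → star v * d = 0 → d * star v = 0 → P (v + d) → d = 0 := by
  obtain ⟨v, hv⟩ := exists_maximal (α := {v : R // PI v ∧ P v}) (fun v w => Ex v.1 w.1)
    (fun v => Ex.refl v.1) (fun v => tr τ (star v.1 * v.1)) (C := 1)
    (fun v => tr_le_one h.toIsFT v.2.1.right) (fun a b c => Ex.trans a.2.1)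
    (fun a b => Ex.tr_le h.toIsFT) (fun f hf => by
      obtain ⟨w, hw, hw1, hw2⟩ := h.exists_chain (fun n => (f n).2.1) hf
      exact ⟨⟨w, hw1, hP _ w (fun n => (f n).2) hw hw2⟩, hw2⟩) ⟨0, by simp [PI], h0⟩
  refine ⟨v.1, v.2.1, v.2.2, fun d hd h1 h2 hPd => ?_⟩
  have h3 := hv ⟨v.1 + d, v.2.1.add hd h1 h2, hPd⟩ (Ex.add h1 h2)
  simp only [tr_star_add_mul h1] at h3
  by_contra hd0
  exact hd.right_ne_zero hd0 (eq_zero_of_tr h.toIsFT hd.right (by linarith))

end Vale.Agent.P085
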