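import Vale.Agent.P085.Factor

/-! Relative commutants of Pauli pairs and infinite towers of Pauli pairs. -/

open scoped ComplexOrder
open Filter Topology

namespace Vale.Agent.P085

open Vale.Agent.P070

universe u

variable {R : Type u} [CStarAlgebra R] {τ : R →L[ℂ] ℂ}

theorem Pauli.symm {X Z : R} (h : Pauli X Z) : Pauli Z X :=
  ⟨h.sZ, h.sX, h.ZZ, h.XX, by rw [h.anti, neg_neg]⟩

theorem Pauli.split {X Z : R} (h : Pauli X Z) (x : R) : ∃ a b, x = a + b * Z ∧ X * a = a * X ∧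
    X * b = b * X ∧ (Z * x = x * Z → Z * a = a * Z ∧ Z * b = b * Z) := by
  have h1 : ∀ y, X * (X * y) = y := fun y => by rw [← mul_assoc, h.XX, one_mul]
  have h2 : ∀ y, Z * (X * y) = -(X * (Z * y)) := fun y => by
    rw [← mul_assoc, ← mul_assoc, h.anti, neg_mul, neg_neg]
  have h3 : Z * X = -(X * Z) := h.symm.anti
  refine ⟨(2⁻¹ : ℂ) • (x + X * x * X), (2⁻¹ : ℂ) • ((x - X * x * X) * Z), ?_, ?_, ?_, fun hx => ?_⟩
  · rw [smul_mul_assoc, mul_assoc _ Z Z, h.ZZ, mul_one, ← smul_add, add_add_sub_cancel,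
      ← two_smul ℂ, smul_smul]
    norm_num
  · simp only [mul_smul_comm, smul_mul_assoc, mul_add, add_mul, mul_assoc, h1, h.XX, mul_one,
      add_comm]
  · simp only [mul_smul_comm, smul_mul_assoc, mul_sub, sub_mul, mul_assoc, h1, h3, mul_neg]
    congr 1; abel
  · have h4 : Z * (X * x * X) = X * x * X * Z := by
      rw [mul_assoc X, h2, ← mul_assoc Z, hx, mul_assoc x, h3]
      simp only [mul_neg, neg_neg, mul_assoc]
    constructor
    · simp only [mul_smul_comm, smul_mul_assoc, mul_add, add_mul, h4, hx]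
    · rw [mul_smul_comm, smul_mul_assoc, ← mul_assoc, mul_sub, h4, hx, ← sub_mul]

/-- The relative commutant of a pair. -/
def comm (X Z : R) : StarSubalgebra ℂ R := StarSubalgebra.centralizer ℂ {X, Z}

theorem Pauli.mem_comm {X Z : R} (h : Pauli X Z) {y : R} :
    y ∈ comm X Z ↔ X * y = y * X ∧ Z * y = y * Z := by
  simp [comm, StarSubalgebra.mem_centralizer_iff, h.sX, h.sZ]

instance isClosed_comm (X Z : R) : IsClosed (comm X Z : Set R) := by
  rw [comm, StarSubalgebra.coe_centralizer]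
  exact Set.isClosed_centralizer _

theorem Pauli.decomp {X Z : R} (h : Pauli X Z) (x : R) : ∃ a b c d : comm X Z,
    x = a + b * X + (c + d * X) * Z := by
  obtain ⟨y, z, rfl, hy, hz, -⟩ := h.split x
  obtain ⟨a, b, rfl, ha, hb, hab⟩ := h.symm.split y
  obtain ⟨c, d, rfl, hc, hd, hcd⟩ := h.symm.split z
  exact ⟨⟨a, h.mem_comm.2 ⟨(hab hy).1, ha⟩⟩, ⟨b, h.mem_comm.2 ⟨(hab hy).2, hb⟩⟩,
    ⟨c, h.mem_comm.2 ⟨(hcd hz).1, hc⟩⟩, ⟨d, h.mem_comm.2 ⟨(hcd hz).2, hd⟩⟩, rfl⟩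

theorem IsTF.relComm (h : IsTF τ) {X Z : R} (hP : Pauli X Z) :
    IsTF (τ.comp (⟨(comm X Z).subtype.toLinearMap, continuous_subtype_val⟩ :
      comm X Z →L[ℂ] R)) where
  toIsFT := h.toIsFT.restrict _
  complete f hf hc := by
    obtain ⟨x, hx⟩ := h.complete (fun n => f n) hf hc
    have key : ∀ W : R, (∀ n, W * (f n : R) = (f n : R) * W) → W * x = x * W := fun W hW =>
      ((Lim.const W).mul h.toIsFT hx).unique' h.toIsFT (hx.mul h.toIsFT (Lim.const W)) hW
    exact ⟨⟨x, hP.mem_comm.2 ⟨key X fun n => (hP.mem_comm.1 (f n).2).1,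
      key Z fun n => (hP.mem_comm.1 (f n).2).2⟩⟩, ⟨1, hf⟩, hx.lim⟩
  factor z hz := by
    have h1 : ∀ y : P085.comm X Z, (y : R) * z = z * y := fun y => congrArg Subtype.val (hz y)
    obtain ⟨h2, h3⟩ := hP.mem_comm.1 z.2
    obtain ⟨c, hc⟩ := h.factor z fun x => by
      obtain ⟨a, b, c, d, rfl⟩ := hP.decomp x
      exact ((Commute.add_left (h1 a) (Commute.mul_left (h1 b) h2)).add_left
        (Commute.mul_left (Commute.add_left (h1 c) (Commute.mul_left (h1 d) h2)) h3)).eq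
    exact ⟨c, Subtype.ext hc⟩
  infdim hfin := by
    let N := P085.comm X Z
    let s : N →ₗ[ℂ] R := N.subtype.toLinearMap
    let φ : N × N →ₗ[ℂ] R := s.coprod ((LinearMap.mulRight ℂ X).comp s)
    refine h.infdim (Module.Finite.of_surjective
      (φ.coprod ((LinearMap.mulRight ℂ Z).comp φ)) fun x => ?_)
    obtain ⟨a, b, c, d, rfl⟩ := hP.decomp x
    exact ⟨((a, b), (c, d)), rfl⟩

/-- A finite factor mapped into `R`. -/
structure Sub (R : Type u) [CStarAlgebra R] where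
  A : Type u
  [inst : CStarAlgebra A]
  σ : A →L[ℂ] ℂ
  tf : IsTF σ
  ι : A →⋆ₐ[ℂ] R

attribute [instance] Sub.inst

theorem Sub.step (s : Sub R) : ∃ (X Z : R) (s' : Sub R), Pauli X Z ∧ X ∈ Set.range s.ι ∧
    Z ∈ Set.range s.ι ∧ Set.range s'.ι ⊆ Set.range s.ι ∧
    ∀ y ∈ Set.range s'.ι, X * y = y * X ∧ Z * y = y * Z := by
  obtain ⟨X, Z, hP⟩ := s.tf.exists_pauli
  refine ⟨s.ι X, s.ι Z, ⟨comm X Z, _, s.tf.relComm hP, s.ι.comp (comm X Z).subtype⟩,
    ⟨by rw [← map_star, hP.sX], by rw [← map_star, hP.sZ], by rw [← map_mul, hP.XX, map_one],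
      by rw [← map_mul, hP.ZZ, map_one], by rw [← map_mul, hP.anti, map_neg, map_mul]⟩,
    ⟨X, rfl⟩, ⟨Z, rfl⟩, by rintro _ ⟨y, rfl⟩; exact ⟨y, rfl⟩, ?_⟩
  rintro _ ⟨y, rfl⟩
  obtain ⟨h1, h2⟩ := hP.mem_comm.1 y.2
  exact ⟨by simpa using congrArg s.ι h1, by simpa using congrArg s.ι h2⟩

theorem IsTF.exists_tower (h : IsTF τ) : ∃ X Z : ℕ → R, (∀ i, Pauli (X i) (Z i)) ∧
    (∀ i j, X i * X j = X j * X i) ∧ (∀ i j, Z i * Z j = Z j * Z i) ∧
    ∀ i j, i ≠ j → X i * Z j = Z j * X i := by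
  choose X Z g hP hX hZ hsub hc using Sub.step (R := R)
  let f : ℕ → Sub R := fun n => Nat.rec ⟨R, τ, h, StarAlgHom.id ℂ R⟩ (fun _ s => g s) n
  have hf : ∀ i j, i < j → Set.range (f j).ι ⊆ Set.range (g (f i)).ι := by
    intro i j hij
    induction j, hij using Nat.le_induction with
    | base => exact subset_rfl
    | succ j _ ih => exact (hsub (f j)).trans ih
  refine ⟨fun i => X (f i), fun i => Z (f i), fun i => hP _, fun i j => ?_, fun i j => ?_,
    fun i j hij => ?_⟩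
  · rcases lt_trichotomy i j with hij | rfl | hij
    · exact (hc _ _ (hf i j hij (hX _))).1
    · rfl
    · exact (hc _ _ (hf j i hij (hX _))).1.symm
  · rcases lt_trichotomy i j with hij | rfl | hij
    · exact (hc _ _ (hf i j hij (hZ _))).2
    · rfl
    · exact (hc _ _ (hf j i hij (hZ _))).2.symm
  · rcases lt_or_gt_of_ne hij with hij | hij
    · exact (hc _ _ (hf i j hij (hZ _))).1
    · exact (hc _ _ (hf j i hij (hX _))).2.symm

end Vale.Agent.P085
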