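import Vale.Agent.P085.Tower

/-! Weak operator limits and a bounded operator monotone transform. -/

open scoped ComplexOrder InnerProductSpace
open Filter Topology ContinuousLinearMapWOT

namespace Vale.Agent.P085

section G

variable {A : Type*} [CStarAlgebra A] [PartialOrder A] [StarOrderedRing A]

/-- The bounded transform `s / (1 + s)`. -/
noncomputable def bt (s : A) : A := cfc (fun t : ℝ => 1 - (1 + t)⁻¹) s

theorem cont_bt {s : A} (hs : 0 ≤ s) :
    ContinuousOn (fun t : ℝ => (1 + t)⁻¹) (spectrum ℝ s) :=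
  ContinuousOn.inv₀ (by fun_prop) fun t ht => by
    have := spectrum_nonneg_of_nonneg hs ht
    positivity

theorem bt_eq {s : A} (hs : 0 ≤ s) : bt s = 1 - Ring.inverse (1 + s) := by
  rw [bt, cfc_sub _ _ s (by fun_prop) (cont_bt hs), cfc_const_one ℝ s,
    cfc_inv (fun t : ℝ => 1 + t) s (fun t ht => by
      have := spectrum_nonneg_of_nonneg hs ht
      positivity), cfc_const_add 1 (fun t : ℝ => t) s, cfc_id' ℝ s, map_one]

theorem bt_mono {a s : A} (ha : 0 ≤ a) (has : a ≤ s) : bt a ≤ bt s := by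
  rw [bt_eq ha, bt_eq (ha.trans has)]
  exact sub_le_sub_left (CStarAlgebra.ringInverse_le_ringInverse (add_le_add_right has 1)
    (IsStrictlyPositive.add_nonneg isStrictlyPositive_one ha)) 1

theorem bt_nonneg {s : A} (hs : 0 ≤ s) : 0 ≤ bt s := cfc_nonneg fun t ht => by
  have := spectrum_nonneg_of_nonneg hs ht
  exact sub_nonneg.2 (inv_le_one_of_one_le₀ (by linarith))

theorem norm_bt_le {s : A} (hs : 0 ≤ s) : ‖bt s‖ ≤ 1 := norm_cfc_le zero_le_one fun t ht => by
  have := spectrum_nonneg_of_nonneg hs ht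
  have h1 : (1 + t)⁻¹ ≤ 1 := inv_le_one_of_one_le₀ (by linarith)
  have h2 : 0 ≤ (1 + t)⁻¹ := by positivity
  rw [Real.norm_of_nonneg (by linarith)]; linarith

theorem bt_le {s : A} (hs : 0 ≤ s) : bt s ≤ s := by
  conv_rhs => rw [← cfc_id' ℝ s]
  refine cfc_mono (fun t ht => ?_) (continuousOn_const.sub (cont_bt hs))
  have := spectrum_nonneg_of_nonneg hs ht
  have h1 : 1 - (1 + t)⁻¹ = t / (1 + t) := by field_simp; ring
  rw [h1, div_le_iff₀ (by positivity)]; nlinarith

theorem le_bt {a : A} (ha : 0 ≤ a) (h4 : ‖a‖ ≤ 4) : a ≤ (5 : ℝ) • bt a := by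
  conv_lhs => rw [← cfc_id' ℝ a]
  rw [bt, ← cfc_const_mul 5 (fun t : ℝ => 1 - (1 + t)⁻¹) a (continuousOn_const.sub (cont_bt ha))]
  refine cfc_mono (fun t ht => ?_) (by fun_prop)
    (continuousOn_const.mul (continuousOn_const.sub (cont_bt ha)))
  have := spectrum_nonneg_of_nonneg ha ht
  have h1 : 1 - (1 + t)⁻¹ = t / (1 + t) := by field_simp; ring
  have h2 : t ≤ 4 := by
    rcases subsingleton_or_nontrivial A with hA | hA
    · simp at ht
    · exact (le_abs_self t).trans ((spectrum.norm_le_norm_of_mem ht).trans h4)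
  rw [h1, ← mul_div_assoc, le_div_iff₀ (by positivity)]; nlinarith

theorem star_add_mul_le (a b : A) :
    star (a + b) * (a + b) ≤ star a * a + star b * b + (star a * a + star b * b) := by
  have := star_mul_self_nonneg (a - b)
  rw [← sub_nonneg]
  convert this using 1
  simp only [star_add, star_sub]
  noncomm_ring

end G

variable {H : Type*} [NormedAddCommGroup H] [InnerProductSpace ℂ H] [CompleteSpace H]

/-- Convergence in the weak operator topology along the hyperfilter. -/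
def WLim (f : ℕ → H →L[ℂ] H) (x : H →L[ℂ] H) : Prop :=
  Tendsto (fun n => (ofCLM (f n) : H →WOT[ℂ] H)) (hyperfilter ℕ) (𝓝 (ofCLM x))

theorem exists_wlim {f : ℕ → H →L[ℂ] H} {C : ℝ} (hf : ∀ n, ‖f n‖ ≤ C) : ∃ x, WLim f x := by
  have hb : ∀ ξ η n, ‖⟪f n ξ, η⟫_ℂ‖ ≤ C * ‖ξ‖ * ‖η‖ := fun ξ η n =>
    (norm_inner_le_norm _ _).trans (by gcongr; exact (f n).le_of_opNorm_le (hf n) ξ)
  have key : ∀ ξ η, ∃ c : ℂ, Tendsto (fun n => ⟪f n ξ, η⟫_ℂ) (hyperfilter ℕ) (𝓝 c) := by
    intro ξ η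
    obtain ⟨c, -, hc⟩ := (isCompact_closedBall (0 : ℂ) (C * ‖ξ‖ * ‖η‖)).ultrafilter_le_nhds
      ((hyperfilter ℕ).map fun n => ⟪f n ξ, η⟫_ℂ) (by
        rw [le_principal_iff, Ultrafilter.coe_map, mem_map]
        exact Eventually.of_forall fun n => by simpa using hb ξ η n)
    exact ⟨c, hc⟩
  choose b hbl using key
  let B : H →ₛₗ[starRingEnd ℂ] H →ₗ[ℂ] ℂ := LinearMap.mk₂'ₛₗ _ _ b
    (fun ξ ξ' η => tendsto_nhds_unique (hbl _ _) (by
      simpa only [map_add, inner_add_left] using (hbl ξ η).add (hbl ξ' η)))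
    (fun c ξ η => tendsto_nhds_unique (hbl _ _) (by
      simpa only [map_smul, inner_smul_left, smul_eq_mul] using (hbl ξ η).const_mul _))
    (fun ξ η η' => tendsto_nhds_unique (hbl _ _) (by
      simpa only [inner_add_right] using (hbl ξ η).add (hbl ξ η')))
    (fun c ξ η => tendsto_nhds_unique (hbl _ _) (by
      simpa only [inner_smul_right, smul_eq_mul, RingHom.id_apply] using (hbl ξ η).const_mul _))
  refine ⟨InnerProductSpace.continuousLinearMapOfBilin (B.mkContinuous₂ C fun ξ η =>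
    le_of_tendsto' (hbl ξ η).norm (hb ξ η)), ?_⟩
  refine tendsto_iff_forall_inner_apply_tendsto.2 fun ξ η => ?_
  simp only [ofCLM_apply]
  rw [← inner_conj_symm, InnerProductSpace.continuousLinearMapOfBilin_apply]
  have := (Complex.continuous_conj.tendsto _).comp (hbl ξ η)
  simp only [Function.comp_def, inner_conj_symm] at this
  exact this

namespace WLim

variable {f g : ℕ → H →L[ℂ] H} {x y : H →L[ℂ] H}

omit [CompleteSpace H] in
theorem const (x : H →L[ℂ] H) : WLim (fun _ => x) x := tendsto_const_nhds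

omit [CompleteSpace H] in
theorem add (hf : WLim f x) (hg : WLim g y) : WLim (fun n => f n + g n) (x + y) :=
  Tendsto.add hf hg

omit [CompleteSpace H] in
theorem sub (hf : WLim f x) (hg : WLim g y) : WLim (fun n => f n - g n) (x - y) :=
  Tendsto.sub hf hg

omit [CompleteSpace H] in
theorem const_mul (hf : WLim f x) (y : H →L[ℂ] H) : WLim (fun n => y * f n) (y * x) :=
  Tendsto.const_mul (ofCLM y) hf

theorem star' (hf : WLim f x) : WLim (fun n => star (f n)) (star x) := Tendsto.star hf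

theorem nonneg (hf : WLim f x) (h0 : ∀ᶠ n in atTop, 0 ≤ f n) : 0 ≤ x := by
  have h1 : ∀ ξ, 0 ≤ ⟪ξ, x ξ⟫_ℂ := fun ξ =>
    ge_of_tendsto (tendsto_iff_forall_inner_apply_tendsto.1 hf ξ ξ)
      ((h0.filter_mono (Nat.cofinite_eq_atTop ▸ hyperfilter_le_cofinite)).mono fun n hn =>
        ((ContinuousLinearMap.nonneg_iff_isPositive _).1 hn).inner_nonneg_right ξ)
  rw [ContinuousLinearMap.nonneg_iff_isPositive, ContinuousLinearMap.isPositive_iff_complex]
  intro ξ
  obtain ⟨h2, h3⟩ := Complex.nonneg_iff.1 (h1 ξ)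
  rw [← inner_conj_symm]
  generalize ⟪ξ, x ξ⟫_ℂ = c at h2 h3
  exact ⟨Complex.ext (by simp) (by simp [← h3]), by simpa using h2⟩

omit [CompleteSpace H] in
theorem mem {S : Set (H →L[ℂ] H)} (hS : IsClosed ((ofCLM : _ → H →WOT[ℂ] H) '' S))
    (hf : WLim f x) (h : ∀ n, f n ∈ S) : x ∈ S := by
  obtain ⟨y, hy, hyx⟩ := hS.mem_of_tendsto hf (Eventually.of_forall fun n => ⟨_, h n, rfl⟩)
  rwa [← ofCLM_injective hyx]

end WLim

theorem isClosed_vN (M : VonNeumannAlgebra H) :
    IsClosed ((ofCLM : _ → H →WOT[ℂ] H) '' (M : Set (H →L[ℂ] H))) := by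
  have : (ofCLM : _ → H →WOT[ℂ] H) '' (M : Set (H →L[ℂ] H)) =
      ⋂ y ∈ M.commutant, {T | ofCLM y * T = T * ofCLM y} := by
    ext T
    simp only [Set.mem_iInter, Set.mem_ofPred_eq]
    constructor
    · rintro ⟨T, hT, rfl⟩ y hy
      exact congrArg ofCLM (VonNeumannAlgebra.mem_commutant_iff.1 hy T hT).symm
    · intro h
      refine ⟨T.toCLM, ?_, rfl⟩
      rw [← M.commutant_commutant]
      exact VonNeumannAlgebra.mem_commutant_iff.2 fun y hy => congrArg toCLM (h y hy)
  rw [this]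
  exact isClosed_biInter fun y _ => isClosed_eq (continuous_const_mul _) (continuous_mul_const _)

omit [CompleteSpace H] in
theorem isClosed_of_wot {S : Set (H →L[ℂ] H)} (hS : IsClosed ((ofCLM : _ → H →WOT[ℂ] H) '' S)) :
    IsClosed S := by
  have := hS.preimage (continuous_ofCLM (σ := RingHom.id ℂ) (E := H) (F := H))
  rwa [Set.preimage_image_eq _ ofCLM_injective] at this

instance isClosed_vN' (M : VonNeumannAlgebra H) :
    IsClosed (M.toStarSubalgebra : Set (H →L[ℂ] H)) :=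
  isClosed_of_wot (isClosed_vN M)

end Vale.Agent.P085
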